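import Vale.Agent.Lib.P064S.Num

/-!
The numerics of the loss.
-/

open Finset

namespace Vale.Agent.Lib.P064

open scoped Classical

variable {n : ℕ}

/-- The elementary numerics: `spK` in terms of `n p`. -/
lemma spK_le {q p : ℝ} (hL : 4 ≤ Real.log n) (hp1 : 1 ≤ (n : ℝ) * p) (hpq : 2 * p ≤ q)
    (hq4 : q ≤ 4 * p) (hQ : Real.log n / 2 ≤ - Real.log q) :
    spK n q ≤ Real.exp 600 * (1 + Real.log n / ((n : ℝ) * p)) *
      Real.exp (2160 * (1 + Real.log ((n : ℝ) * p)) ^ 2 / Real.log n) := by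
  have hn0 : (0 : ℝ) < n := by
    rcases Nat.eq_zero_or_pos n with h | h
    · subst h
      norm_num at hL
    · exact_mod_cast h
  have hLpos : 0 < Real.log n := by linarith
  have hp0 : 0 < p := by
    by_contra hcon
    have : (n : ℝ) * p ≤ 0 := mul_nonpos_of_nonneg_of_nonpos hn0.le (not_lt.1 hcon)
    linarith
  have hP1 : 1 ≤ (n : ℝ) * p := hp1
  have hPpos : 0 < (n : ℝ) * p := by linarith
  have hlogP : 0 ≤ Real.log ((n : ℝ) * p) := Real.log_nonneg hP1
  have hDle : (n : ℝ) * q ≤ 4 * ((n : ℝ) * p) := by nlinarith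
  have hDge : (n : ℝ) * p ≤ (n : ℝ) * q := by nlinarith
  have hD1 : 1 ≤ (n : ℝ) * q := le_trans hP1 hDge
  have hDpos : 0 < (n : ℝ) * q := by linarith
  have hg0 : 0 ≤ spG n q := Real.log_nonneg hD1
  have hlog4 : Real.log 4 ≤ 2 := by
    have h1 : Real.log 4 = 2 * Real.log 2 := by
      rw [show (4 : ℝ) = 2 ^ 2 by norm_num, Real.log_pow]; norm_num
    have h2 := Real.log_two_lt_d9
    rw [h1]; linarith
  have hgle : spG n q + 1 ≤ 3 * (1 + Real.log ((n : ℝ) * p)) := by
    have h1 : spG n q ≤ Real.log 4 + Real.log ((n : ℝ) * p) := by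
      have h2 := Real.log_le_log hDpos hDle
      rw [Real.log_mul (by norm_num) hPpos.ne'] at h2
      exact h2
    linarith
  set L := Real.log (n : ℝ) with hLdef
  set g := spG n q with hgdef
  set l := 1 + Real.log ((n : ℝ) * p) with hldef
  have hl1 : 1 ≤ l := by rw [hldef]; linarith
  set t := Real.log (L + 2) with htdef
  have ht0 : 0 ≤ t := Real.log_nonneg (by linarith)
  have ht2 : t ^ 2 ≤ 2 * (L + 2) := by
    have h1 := Real.quadratic_le_exp_of_nonneg ht0
    have h2 : Real.exp t = L + 2 := Real.exp_log (by linarith)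
    nlinarith
  have hQ1 : L / 4 ≤ - Real.log q - 1 := by linarith
  have hQ1pos : 0 < - Real.log q - 1 := by linarith
  -- the exponent
  have hkap : spKap n q ≤ 84 * (g + 1) ^ 2 / L + 78 := by
    have h1 : spKap n q = (g + 1) * (12 * (1 + g) + 6 * (2 + g + t)) / (- Real.log q - 1) := rfl
    have hnum0 : 0 ≤ (g + 1) * (12 * (1 + g) + 6 * (2 + g + t)) := by positivity
    have h2 : (g + 1) * (12 * (1 + g) + 6 * (2 + g + t)) / (- Real.log q - 1)
        ≤ (g + 1) * (12 * (1 + g) + 6 * (2 + g + t)) / (L / 4) :=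
      div_le_div_of_nonneg_left hnum0 (by positivity) hQ1
    have h3 : (g + 1) * (12 * (1 + g) + 6 * (2 + g + t)) / (L / 4) ≤ 84 * (g + 1) ^ 2 / L + 78 := by
      have h4 : 84 * (g + 1) ^ 2 / L + 78 = (84 * (g + 1) ^ 2 + 78 * L) / L := by
        field_simp
      rw [h4, div_le_div_iff₀ (by positivity) hLpos]
      have h5 : 4 * ((g + 1) * (12 * (1 + g) + 6 * (2 + g + t))) ≤ 84 * (g + 1) ^ 2 + 78 * L := by
        nlinarith [sq_nonneg ((g + 1) - (1 + t)), sq_nonneg (t - 1)]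
      nlinarith
    rw [h1]
    exact h2.trans h3
  have hsq : (g + 1) ^ 2 ≤ 9 * l ^ 2 := by
    have h0 : 0 ≤ g + 1 := by linarith
    nlinarith
  have hkap2 : 2 * spKap n q ≤ 1512 * l ^ 2 / L + 156 := by
    have h1 : 84 * (g + 1) ^ 2 / L ≤ 84 * (9 * l ^ 2) / L := by
      apply div_le_div_of_nonneg_right _ hLpos.le
      linarith
    have h2 : 84 * (9 * l ^ 2) / L = 756 * l ^ 2 / L := by ring
    have h3 : 1512 * l ^ 2 / L = 2 * (756 * l ^ 2 / L) := by ring
    rw [h3]
    linarith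
  have hfrac : L / ((n : ℝ) * q) ≤ L / ((n : ℝ) * p) :=
    div_le_div_of_nonneg_left hLpos.le hPpos hDge
  have h1L : 0 ≤ 1 + L / ((n : ℝ) * q) := by positivity
  have h1L' : 0 ≤ 1 + L / ((n : ℝ) * p) := by positivity
  have hlast : 1 + (1512 * l ^ 2 / L + 156) ≤ 600 + 2160 * l ^ 2 / L := by
    have h1 : 1512 * l ^ 2 / L ≤ 2160 * l ^ 2 / L := by
      apply div_le_div_of_nonneg_right _ hLpos.le
      nlinarith [sq_nonneg l]
    linarith
  have hexp : Real.exp 1 * Real.exp (2 * spKap n q) ≤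
      Real.exp 600 * Real.exp (2160 * l ^ 2 / L) := by
    rw [← Real.exp_add, ← Real.exp_add]
    apply Real.exp_le_exp.2
    linarith
  unfold spK
  calc Real.exp 1 * (1 + L / ((n : ℝ) * q)) * Real.exp (2 * spKap n q)
      = (1 + L / ((n : ℝ) * q)) * (Real.exp 1 * Real.exp (2 * spKap n q)) := by ring
    _ ≤ (1 + L / ((n : ℝ) * p)) * (Real.exp 600 * Real.exp (2160 * l ^ 2 / L)) :=
        mul_le_mul (by linarith) hexp (by positivity) h1L'
    _ = Real.exp 600 * (1 + L / ((n : ℝ) * p)) * Real.exp (2160 * l ^ 2 / L) := by ring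

end Vale.Agent.Lib.P064
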