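import Vale.Agent.Lib.P064S.Base

/-!
The maximum degree of `H`.
-/

open Finset

namespace Vale.Agent.Lib.P064

open scoped Classical

variable {V α : Type} [Fintype V] [Fintype α] {H : SimpleGraph V} {F : SimpleGraph α} {n : ℕ}
  {q : ℝ}

/-- The degree of every vertex of `H` is at most `e² (nq + log n)`. -/
theorem degree_bound (hG : GoodDensity n q H) (hq0 : 0 < q) (hq1 : q ≤ 1) (hn : 1 ≤ n)
    (hV : Fintype.card V ≤ n) (hD : 1 ≤ (n : ℝ) * q) (y : V) :
    (((univ : Finset V).filter (fun b => H.Adj y b)).card : ℝ) ≤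
      Real.exp 2 * ((n : ℝ) * q + Real.log n) := by
  have hn1 : (1 : ℝ) ≤ n := by exact_mod_cast hn
  have hL : 0 ≤ Real.log n := Real.log_nonneg hn1
  have hnq : (0 : ℝ) < (n : ℝ) * q := by linarith
  set A : ℝ := Real.exp 2 * ((n : ℝ) * q + Real.log n) / ((n : ℝ) * q) with hAdef
  have hAeq : A * ((n : ℝ) * q) = Real.exp 2 * ((n : ℝ) * q + Real.log n) := by
    rw [hAdef]
    field_simp
  have hA : Real.exp 2 ≤ A := by
    rw [hAdef, le_div_iff₀ hnq]
    have : 0 < Real.exp 2 := Real.exp_pos _
    nlinarith
  let F0 : SimpleGraph Bool := ⊤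
  have hnewE : (newE F0 ({false} : Finset Bool) {true}).card = 1 := by
    have : newE F0 ({false} : Finset Bool) {true} = {s(false, true)} := by
      ext e
      induction e using Sym2.ind with
      | _ u v =>
        rw [mem_newE_pair]
        simp only [Finset.mem_singleton]
        cases u <;> cases v <;> simp [F0, Sym2.eq_swap]
    rw [this]
    simp
  let mk : V → Bool → V := fun b x => if x then b else y
  let S : Finset (Bool → V) := ((univ : Finset V).filter (fun b => H.Adj y b)).image mk
  have hinj : ∀ φ ∈ S, Function.Injective φ := by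
    intro φ hφ
    obtain ⟨b, hb, rfl⟩ := Finset.mem_image.1 hφ
    have hne : y ≠ b := (Finset.mem_filter.1 hb).2.ne
    intro u v huv
    cases u <;> cases v <;> simp_all [mk]
  have hhom : ∀ φ ∈ S, ∀ u v, F0.Adj u v → H.Adj (φ u) (φ v) := by
    intro φ hφ u v huv
    obtain ⟨b, hb, rfl⟩ := Finset.mem_image.1 hφ
    have hadj : H.Adj y b := (Finset.mem_filter.1 hb).2
    cases u <;> cases v <;> simp_all [F0, mk, hadj.symm]
  have hagree : ∀ φ ∈ S, ∀ x ∈ ({false} : Finset Bool), φ x = (fun _ => y : Bool → V) x := by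
    intro φ hφ x hx
    obtain ⟨b, hb, rfl⟩ := Finset.mem_image.1 hφ
    rw [Finset.mem_singleton] at hx
    subst hx
    simp [mk]
  have hz : true ∉ ({false} : Finset Bool) := by simp
  have hpeel := peel_light (κ := 1) (A := A) (T := 2) (F := F0) hG hq0 hq1 hn hV hA le_rfl
    (by
      intro d hd1 hd2
      have hd : d = 1 := by omega
      subst hd
      simp only [Nat.cast_one, one_mul, pow_one]
      rw [hAeq]
      have h1 : (1 : ℝ) ≤ Real.exp 2 := Real.one_le_exp (by norm_num)
      nlinarith)
    hz (by rw [hnewE]; norm_num) S hinj hhom hagree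
  rw [hnewE] at hpeel
  simp only [one_pow, mul_one, pow_one] at hpeel
  rw [hAeq] at hpeel
  refine le_trans (le_of_eq ?_) hpeel
  congr 1
  symm
  rw [Finset.card_image_of_injOn]
  · apply Finset.card_image_of_injective
    intro b b' h
    have := congrFun h true
    simpa [mk] using this
  · intro φ _ φ' _ h
    funext x
    have := congrFun h x
    unfold proj at this
    cases x <;> simpa using this

/-- The degree in a union of images of edges. -/
theorem udeg_le_degree (U : Finset (Sym2 V)) (hU : ∀ e ∈ U, e ∈ H.edgeSet) (z : V) :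
    udeg U z ≤ ((univ : Finset V).filter (fun b => H.Adj z b)).card := by
  refine Finset.card_le_card ?_
  intro b hb
  exact Finset.mem_filter.2 ⟨mem_univ _, (SimpleGraph.mem_edgeSet H).1 (hU _ (Finset.mem_filter.1 hb).2)⟩

end Vale.Agent.Lib.P064
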