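import Vale.Agent.Lib.P064.SharpFinal

/-!
Definitions for the count of embeddings on the sparse side.
-/

open Finset

namespace Vale.Agent.Lib.P064

open scoped Classical

variable {V α : Type} [Fintype V] [Fintype α]

/-- The number of edges of `F[W]` touching `J`. -/
noncomputable def eT (F : SimpleGraph α) (W J : Finset α) : ℕ := (newE F (W \ J) J).card

/-- `J` is low inside `W`. -/
def Low (n : ℕ) (q : ℝ) (F : SimpleGraph α) (W J : Finset α) : Prop :=
  (n : ℝ) ^ J.card * (Real.exp 1 * q) ^ eT F W J < 1

/-- The degree of `w` in `F[W]`. -/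
noncomputable def dW (F : SimpleGraph α) (W : Finset α) (w : α) : ℕ := eT F W {w}

/-- The images of the edges touching `J`, over a family of maps. -/
noncomputable def pinU (F : SimpleGraph α) (Y J : Finset α) (S : Finset (α → V)) :
    Finset (Sym2 V) :=
  S.biUnion fun φ => (newE F Y J).image (Sym2.map φ)

/-- The roots: images of the vertices of `Y` adjacent to `J`. -/
noncomputable def pinR (F : SimpleGraph α) (Y J : Finset α) (φ₀ : α → V) : Finset V :=
  (core F Y J).image φ₀

/-- The roots and all images of `J`. -/
noncomputable def pinV (F : SimpleGraph α) (Y J : Finset α) (φ₀ : α → V) (S : Finset (α → V)) :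
    Finset V :=
  pinR F Y J φ₀ ∪ S.biUnion fun φ => J.image φ

/-- The number of `b` with `s(z,b)` in `U`. -/
noncomputable def udeg (U : Finset (Sym2 V)) (z : V) : ℕ :=
  (univ.filter fun b => s(z, b) ∈ U).card

end Vale.Agent.Lib.P064
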