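import Vale.Agent.Lib.P064S.HDegree
import Vale.Agent.Lib.P064S.Base

/-!
Vertices outside the roots have degree at least two in the union, so the total excess is small.
-/

open Finset

namespace Vale.Agent.Lib.P064

open scoped Classical

variable {V α : Type} [Fintype V] [Fintype α] {H : SimpleGraph V} {F : SimpleGraph α} {n : ℕ}
  {q : ℝ}

lemma union_sdiff_of_disj {Y J : Finset α} (hdisj : Disjoint J Y) : (Y ∪ J) \ J = Y := by
  ext y
  simp only [Finset.mem_sdiff, Finset.mem_union]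
  constructor
  · rintro ⟨h1 | h1, h2⟩
    · exact h1
    · exact absurd h1 h2
  · intro h
    exact ⟨Or.inl h, fun h2 => Finset.disjoint_left.1 hdisj h2 h⟩

lemma pinU_eq_UU {Y J : Finset α} (hdisj : Disjoint J Y) (T : Finset (α → V)) :
    pinU F Y J T = P064S.UU F (Y ∪ J) J T := by
  unfold pinU P064S.UU P064S.tI
  rw [union_sdiff_of_disj hdisj]

lemma dW_eq_nbW {W : Finset α} {w : α} (hw : w ∈ W) : dW F W w = (P064S.nbW F W w).card :=
  P064S.card_tI_single hw

/-- Handshake on a set of edges of `H`. -/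
theorem sum_udeg_le (U : Finset (Sym2 V)) (_hU : ∀ e ∈ U, e ∈ H.edgeSet) :
    ∑ z, udeg U z ≤ 2 * U.card :=
  P064S.sum_card_nb_le U univ

/-- L3: a vertex outside the roots has degree at least two in the union. -/
theorem two_le_udeg {Y J : Finset α} (hdisj : Disjoint J Y)
    (hdeg : ∀ w ∈ J, 2 ≤ dW F (Y ∪ J) w)
    {S : Finset (α → V)} (hinj : ∀ φ ∈ S, Function.Injective φ)
    {φ₀ : α → V} {z : V} (hz : z ∈ pinV F Y J φ₀ S \ pinR F Y J φ₀) :
    2 ≤ udeg (pinU F Y J S) z := by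
  obtain ⟨h1, h2⟩ := Finset.mem_sdiff.1 hz
  rcases Finset.mem_union.1 h1 with h3 | h3
  · exact absurd h3 h2
  · obtain ⟨φ, hφ, h4⟩ := Finset.mem_biUnion.1 h3
    obtain ⟨b, hb, rfl⟩ := Finset.mem_image.1 h4
    have hJW : J ⊆ Y ∪ J := Finset.subset_union_right
    have h5 := hdeg b hb
    rw [dW_eq_nbW (hJW hb)] at h5
    have h6 := P064S.card_nbW_le_nb' (F := F) (W := Y ∪ J) (J := J) (S := S) hJW hφ (hinj φ hφ) hb
    rw [pinU_eq_UU hdisj]
    exact h5.trans h6

/-- The total excess of the union. -/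
theorem pin_excess (hG : GoodDensity n q H) (hn : 1 ≤ n) (hq0 : 0 < q) (hqe : q ≤ Real.exp (-1))
    (hD : 1 ≤ (n : ℝ) * q) (hQ : Real.log n / 2 ≤ - Real.log q)
    {Y J : Finset α} (hdisj : Disjoint J Y)
    (hlow : ∀ J' ⊆ J, J'.Nonempty → Low n q F (Y ∪ J) J')
    (hdeg : ∀ w ∈ J, 2 ≤ dW F (Y ∪ J) w)
    {S : Finset (α → V)} (hinj : ∀ φ ∈ S, Function.Injective φ)
    (hhom : ∀ φ ∈ S, ∀ u v, F.Adj u v → H.Adj (φ u) (φ v))
    {φ₀ : α → V} (hagree : ∀ φ ∈ S, ∀ y ∈ Y, φ y = φ₀ y) :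
    ∑ z ∈ pinV F Y J φ₀ S \ pinR F Y J φ₀, ((udeg (pinU F Y J S) z : ℝ) - 2) ≤
      4 * ((pinR F Y J φ₀).card : ℝ) * (1 + Real.log ((n : ℝ) * q)) := by
  have hn1 : (1 : ℝ) ≤ n := by exact_mod_cast hn
  have hn0 : (0 : ℝ) < n := by linarith
  have hq1 : q ≤ 1 := hqe.trans (by rw [Real.exp_le_one_iff]; norm_num)
  have hqe' : Real.exp 1 * q ≤ 1 := by
    have h2 : Real.exp 1 * Real.exp (-1) = 1 := by
      rw [← Real.exp_add]
      simp
    calc Real.exp 1 * q ≤ Real.exp 1 * Real.exp (-1) :=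
          mul_le_mul_of_nonneg_left hqe (Real.exp_pos _).le
      _ = 1 := h2
  have hJW : J ⊆ Y ∪ J := Finset.subset_union_right
  have hP : P064S.Pin n q F H (Y ∪ J) J S φ₀ := by
    refine ⟨hJW, hinj, hhom, ?_, ?_, hn, hq0, hqe'⟩
    · rw [union_sdiff_of_disj hdisj]
      exact hagree
    · intro J' h1 h2
      exact hlow J' h1 h2
  have hg : 0 ≤ Real.log n + Real.log q := by
    have := Real.log_le_log (by norm_num) hD
    rw [Real.log_one, Real.log_mul hn0.ne' hq0.ne'] at this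
    exact this
  have hdeg' : ∀ u ∈ J, 2 ≤ (P064S.nbW F (Y ∪ J) u).card := by
    intro u hu
    have := hdeg u hu
    rwa [dW_eq_nbW (hJW hu)] at this
  obtain ⟨hv, hex, hsum⟩ := P064S.excess_bound hP hG hq1 hdeg' hg
  have hR : pinR F Y J φ₀ = P064S.roots F (Y ∪ J) J φ₀ := by
    unfold pinR P064S.roots
    rw [union_sdiff_of_disj hdisj]
  have hZ : pinV F Y J φ₀ S \ pinR F Y J φ₀ = P064S.ZZ J S := by
    unfold pinV
    refine Finset.union_sdiff_cancel_left ?_
    rw [hR]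
    exact P064S.roots_disjoint_ZZ hP
  rw [hZ, pinU_eq_UU hdisj, hR, Real.log_mul hn0.ne' hq0.ne']
  have hsum' : ∑ z ∈ P064S.ZZ J S, ((udeg (P064S.UU F (Y ∪ J) J S) z : ℝ) - 2) ≤
      2 * (((P064S.UU F (Y ∪ J) J S).card : ℝ) - (P064S.ZZ J S).card) := hsum
  refine hsum'.trans ?_
  set L := Real.log n with hL
  set lq := Real.log q with hlq
  have hL0 : 0 ≤ L := Real.log_nonneg hn1
  have hQ1 : 1 ≤ - lq := by
    have := Real.log_le_log hq0 hqe
    rw [Real.log_exp] at this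
    linarith
  set X := ((P064S.UU F (Y ∪ J) J S).card : ℝ) - ((P064S.ZZ J S).card : ℝ) with hX
  set r : ℝ := ((P064S.roots F (Y ∪ J) J φ₀).card : ℝ) with hr
  have hr0 : 0 ≤ r := Nat.cast_nonneg _
  have h3 : X * (- lq) ≤ (2 * r * (1 + (L + lq))) * (- lq) := by
    calc X * (- lq) ≤ r * L * (1 + (L + lq)) := hex
      _ ≤ r * (2 * (- lq)) * (1 + (L + lq)) := by
          apply mul_le_mul_of_nonneg_right _ (by linarith)
          apply mul_le_mul_of_nonneg_left _ hr0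
          linarith
      _ = _ := by ring
  have h4 : X ≤ 2 * r * (1 + (L + lq)) := le_of_mul_le_mul_right h3 (by linarith)
  linarith

end Vale.Agent.Lib.P064
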