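import Vale.Agent.Lib.P064S.Base

/-!
Properties of a minimal not low set.
-/

open Finset

namespace Vale.Agent.Lib.P064

open scoped Classical

variable {V α : Type} [Fintype V] [Fintype α] {F : SimpleGraph α} {n : ℕ} {q : ℝ}

/-- `eT` of the whole of `I`. -/
theorem eT_union_self {E I : Finset α} (hdisj : Disjoint I E) :
    eT F (E ∪ I) I = (newE F E I).card := by
  unfold eT
  congr 2
  ext y
  simp only [Finset.mem_sdiff, Finset.mem_union]
  constructor
  · rintro ⟨h1 | h1, h2⟩
    · exact h1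
    · exact absurd h1 h2
  · intro h
    exact ⟨Or.inl h, fun h2 => Finset.disjoint_left.1 hdisj h2 h⟩

/-- A low set has more edges than vertices. -/
theorem low_card_lt (hq0 : 0 < q) (hqe : q ≤ Real.exp (-1)) (hD : 1 ≤ (n : ℝ) * q) {W J : Finset α}
    (hlow : Low n q F W J) : J.card + 1 ≤ eT F W J := by
  by_contra hcon
  have hle : eT F W J ≤ J.card := by omega
  have h0 : 0 < Real.exp 1 * q := mul_pos (Real.exp_pos 1) hq0
  have h1 : Real.exp 1 * q ≤ 1 := by
    have : Real.exp 1 * q ≤ Real.exp 1 * Real.exp (-1) :=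
      mul_le_mul_of_nonneg_left hqe (Real.exp_pos 1).le
    rwa [← Real.exp_add, add_neg_cancel, Real.exp_zero] at this
  have h2 : (Real.exp 1 * q) ^ J.card ≤ (Real.exp 1 * q) ^ eT F W J :=
    pow_le_pow_of_le_one h0.le h1 hle
  have h3 : (1 : ℝ) ≤ (n : ℝ) * (Real.exp 1 * q) := by
    have he : (1 : ℝ) ≤ Real.exp 1 := by
      have := Real.add_one_le_exp (1 : ℝ)
      linarith
    nlinarith [mul_le_mul_of_nonneg_right he (le_trans zero_le_one hD)]
  have h4 : (1 : ℝ) ≤ ((n : ℝ) * (Real.exp 1 * q)) ^ J.card := one_le_pow₀ h3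
  rw [mul_pow] at h4
  have h5 : (n : ℝ) ^ J.card * (Real.exp 1 * q) ^ J.card ≤
      (n : ℝ) ^ J.card * (Real.exp 1 * q) ^ eT F W J :=
    mul_le_mul_of_nonneg_left h2 (pow_nonneg (Nat.cast_nonneg n) _)
  unfold Low at hlow
  linarith

/-- Membership in the edges touching `J`. -/
theorem mem_eT_pair {W J : Finset α} (hJ : J ⊆ W) {u v : α} :
    s(u, v) ∈ newE F (W \ J) J ↔ F.Adj u v ∧ u ∈ W ∧ v ∈ W ∧ (u ∈ J ∨ v ∈ J) := by
  rw [mem_newE_pair]
  simp only [Finset.mem_sdiff]
  have hu : u ∈ J → u ∈ W := fun h => hJ h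
  have hv : v ∈ J → v ∈ W := fun h => hJ h
  tauto

/-- A minimal set which is not low is connected. -/
theorem conn_of_min (hn : 1 ≤ n) (hq0 : 0 < q) (hqe : q ≤ Real.exp (-1)) {E I : Finset α}
    (hdisj : Disjoint I E)
    (hτ : 1 ≤ (n : ℝ) ^ I.card * (Real.exp 1 * q) ^ eT F (E ∪ I) I)
    (hmin : ∀ J ⊆ I, J.Nonempty → J ≠ I → Low n q F (E ∪ I) J) :
    ∀ D : Finset α, D.Nonempty → D ⊆ I → D ≠ I → ∃ u ∈ D, ∃ v ∈ I \ D, F.Adj u v := by
  intro D hDne hDI hDneI
  by_contra hcon
  push Not at hcon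
  set W := E ∪ I with hW
  have hIW : I ⊆ W := Finset.subset_union_right
  have hDW : D ⊆ W := hDI.trans hIW
  have hD'I : I \ D ⊆ I := Finset.sdiff_subset
  have hD'W : I \ D ⊆ W := hD'I.trans hIW
  have hD'ne : (I \ D).Nonempty := by
    rw [Finset.sdiff_nonempty]
    intro h
    exact hDneI (Finset.Subset.antisymm hDI h)
  have hD'neI : I \ D ≠ I := by
    intro h
    obtain ⟨x, hx⟩ := hDne
    have : x ∈ I \ D := by
      rw [h]
      exact hDI hx
    exact (Finset.mem_sdiff.1 this).2 hx
  have l1 := hmin D hDI hDne hDneI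
  have l2 := hmin (I \ D) hD'I hD'ne hD'neI
  have hcard : D.card + (I \ D).card = I.card := by
    rw [add_comm]
    exact Finset.card_sdiff_add_card_eq_card hDI
  have hdj : Disjoint (newE F (W \ D) D) (newE F (W \ (I \ D)) (I \ D)) := by
    rw [Finset.disjoint_left]
    intro e h1 h2
    induction e using Sym2.ind with
    | _ u v =>
      rw [mem_eT_pair hDW] at h1
      rw [mem_eT_pair hD'W] at h2
      obtain ⟨hadj, -, -, h3⟩ := h1
      obtain ⟨-, -, -, h4⟩ := h2
      rcases h3 with h3 | h3 <;> rcases h4 with h4 | h4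
      · exact (Finset.mem_sdiff.1 h4).2 h3
      · exact hcon u h3 v h4 hadj
      · exact hcon v h3 u h4 hadj.symm
      · exact (Finset.mem_sdiff.1 h4).2 h3
  have hsub : newE F (W \ D) D ∪ newE F (W \ (I \ D)) (I \ D) ⊆ newE F (W \ I) I := by
    intro e he
    rcases Finset.mem_union.1 he with h1 | h1
    · induction e using Sym2.ind with
      | _ u v =>
        rw [mem_eT_pair hDW] at h1
        rw [mem_eT_pair hIW]
        obtain ⟨hadj, hu, hv, h3⟩ := h1
        exact ⟨hadj, hu, hv, h3.imp (fun h => hDI h) (fun h => hDI h)⟩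
    · induction e using Sym2.ind with
      | _ u v =>
        rw [mem_eT_pair hD'W] at h1
        rw [mem_eT_pair hIW]
        obtain ⟨hadj, hu, hv, h3⟩ := h1
        exact ⟨hadj, hu, hv, h3.imp (fun h => hD'I h) (fun h => hD'I h)⟩
  have hsum : eT F W D + eT F W (I \ D) ≤ eT F W I := by
    unfold eT
    rw [← Finset.card_union_of_disjoint hdj]
    exact Finset.card_le_card hsub
  have h0 : 0 < Real.exp 1 * q := mul_pos (Real.exp_pos 1) hq0
  have h1 : Real.exp 1 * q ≤ 1 := by
    have : Real.exp 1 * q ≤ Real.exp 1 * Real.exp (-1) :=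
      mul_le_mul_of_nonneg_left hqe (Real.exp_pos 1).le
    rwa [← Real.exp_add, add_neg_cancel, Real.exp_zero] at this
  have h2 : (Real.exp 1 * q) ^ eT F W I ≤ (Real.exp 1 * q) ^ (eT F W D + eT F W (I \ D)) :=
    pow_le_pow_of_le_one h0.le h1 hsum
  have hn0 : (0 : ℝ) ≤ (n : ℝ) := Nat.cast_nonneg n
  unfold Low at l1 l2
  have hA0 : 0 ≤ (n : ℝ) ^ D.card * (Real.exp 1 * q) ^ eT F W D :=
    mul_nonneg (pow_nonneg hn0 _) (pow_nonneg h0.le _)
  have hB0 : 0 ≤ (n : ℝ) ^ (I \ D).card * (Real.exp 1 * q) ^ eT F W (I \ D) :=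
    mul_nonneg (pow_nonneg hn0 _) (pow_nonneg h0.le _)
  have h3 : (n : ℝ) ^ I.card * (Real.exp 1 * q) ^ eT F W I ≤
      ((n : ℝ) ^ D.card * (Real.exp 1 * q) ^ eT F W D) *
        ((n : ℝ) ^ (I \ D).card * (Real.exp 1 * q) ^ eT F W (I \ D)) := by
    have h4 : ((n : ℝ) ^ D.card * (Real.exp 1 * q) ^ eT F W D) *
        ((n : ℝ) ^ (I \ D).card * (Real.exp 1 * q) ^ eT F W (I \ D)) =
        (n : ℝ) ^ I.card * (Real.exp 1 * q) ^ (eT F W D + eT F W (I \ D)) := by
      rw [← hcard, pow_add, pow_add]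
      ring
    rw [h4]
    exact mul_le_mul_of_nonneg_left h2 (pow_nonneg hn0 _)
  have h5 : ((n : ℝ) ^ D.card * (Real.exp 1 * q) ^ eT F W D) *
      ((n : ℝ) ^ (I \ D).card * (Real.exp 1 * q) ^ eT F W (I \ D)) < 1 := by
    calc _ < 1 * 1 := mul_lt_mul'' l1 l2 hA0 hB0
      _ = 1 := by norm_num
  linarith

/-- The degree sum inside `I`, with the attachments. -/
theorem sum_dW_add_core (E I : Finset α) (hdisj : Disjoint I E) :
    ∑ w ∈ I, dW F (E ∪ I) w + (core F E I).card ≤ 2 * (newE F E I).card := by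
  set A := newE F E I with hA
  have hne : ∀ a ∈ I, a ∉ E := fun a ha => Finset.disjoint_left.1 hdisj ha
  have hd : ∀ w ∈ I, dW F (E ∪ I) w ≤ (A.filter fun e => w ∈ e).card := by
    intro w hw
    unfold dW eT
    refine Finset.card_le_card ?_
    intro e he
    induction e using Sym2.ind with
    | _ u v =>
      have hsub : ({w} : Finset α) ⊆ E ∪ I :=
        Finset.singleton_subset_iff.2 (Finset.mem_union_right _ hw)
      rw [mem_eT_pair hsub] at he
      obtain ⟨hadj, hu, hv, h3⟩ := he
      rw [Finset.mem_union] at hu hv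
      refine Finset.mem_filter.2 ⟨mem_newE_pair.2 ⟨hadj, hu, hv, ?_⟩, ?_⟩
      · rintro ⟨h4, h5⟩
        rcases h3 with h3 | h3
        · rw [Finset.mem_singleton] at h3
          exact hne w hw (h3 ▸ h4)
        · rw [Finset.mem_singleton] at h3
          exact hne w hw (h3 ▸ h5)
      · rcases h3 with h3 | h3
        · rw [Finset.mem_singleton] at h3
          rw [← h3]
          exact Sym2.mem_mk_left _ _
        · rw [Finset.mem_singleton] at h3
          rw [← h3]
          exact Sym2.mem_mk_right _ _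
  have h1 : ∑ w ∈ I, dW F (E ∪ I) w ≤ ∑ e ∈ A, (I.filter fun w => w ∈ e).card := by
    refine (Finset.sum_le_sum hd).trans (le_of_eq ?_)
    exact Finset.sum_card_bipartiteAbove_eq_sum_card_bipartiteBelow (fun w e => w ∈ e)
  have h2 : (core F E I).card ≤ (A.filter fun e => ¬ ∀ x ∈ e, x ∈ I).card := by
    have hch : ∀ w, ∃ c, w ∈ core F E I → c ∈ I ∧ F.Adj c w := by
      intro w
      by_cases hw : w ∈ core F E I
      · obtain ⟨-, c, hc, hadj⟩ := Finset.mem_filter.1 hw
        exact ⟨c, fun _ => ⟨hc, hadj⟩⟩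
      · exact ⟨w, fun h => absurd h hw⟩
    choose c hc using hch
    refine Finset.card_le_card_of_injOn (fun w => s(c w, w)) ?_ ?_
    · intro w hw
      have hwc : w ∈ core F E I := hw
      obtain ⟨h3, h4⟩ := hc w hwc
      have hwE : w ∈ E := (Finset.mem_filter.1 hwc).1
      refine Finset.mem_filter.2 ⟨mem_newE_pair.2 ⟨h4, Or.inr h3, Or.inl hwE, ?_⟩, ?_⟩
      · rintro ⟨h5, -⟩
        exact hne _ h3 h5
      · intro h5
        exact hne w (h5 w (Sym2.mem_mk_right _ _)) hwE
    · intro w hw w' hw' heq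
      have hwc : w ∈ core F E I := hw
      have hwc' : w' ∈ core F E I := hw'
      have hwE : w ∈ E := (Finset.mem_filter.1 hwc).1
      obtain ⟨h3', -⟩ := hc w' hwc'
      simp only [Sym2.eq_iff] at heq
      rcases heq with ⟨-, h⟩ | ⟨-, h⟩
      · exact h
      · exact absurd hwE (hne w (h ▸ h3'))
  have h3 : (A.filter fun e => ¬ ∀ x ∈ e, x ∈ I).card =
      ∑ e ∈ A, if ¬ ∀ x ∈ e, x ∈ I then 1 else 0 := Finset.card_filter _ _
  have h4 : ∀ e ∈ A, (I.filter fun w => w ∈ e).card + (if ¬ ∀ x ∈ e, x ∈ I then 1 else 0) ≤ 2 := by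
    intro e _
    induction e using Sym2.ind with
    | _ u v =>
      have hsub : (I.filter fun w => w ∈ s(u, v)) ⊆ {u, v} := by
        intro w hw
        have := (Finset.mem_filter.1 hw).2
        rw [Sym2.mem_iff] at this
        simpa using this
      by_cases hall : ∀ x ∈ s(u, v), x ∈ I
      · have := (Finset.card_le_card hsub).trans (Finset.card_le_two (a := u) (b := v))
        rw [if_neg (not_not.2 hall)]
        omega
      · rw [if_pos hall]
        have hor : u ∉ I ∨ v ∉ I := by
          by_contra hc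
          push Not at hc
          apply hall
          intro x hx
          rcases Sym2.mem_iff.1 hx with rfl | rfl
          · exact hc.1
          · exact hc.2
        rcases hor with hu | hv
        · have hs : (I.filter fun w => w ∈ s(u, v)) ⊆ {v} := by
            intro w hw
            obtain ⟨h5, h6⟩ := Finset.mem_filter.1 hw
            rcases Sym2.mem_iff.1 h6 with rfl | rfl
            · exact absurd h5 hu
            · exact Finset.mem_singleton_self _
          have := Finset.card_le_card hs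
          rw [Finset.card_singleton] at this
          omega
        · have hs : (I.filter fun w => w ∈ s(u, v)) ⊆ {u} := by
            intro w hw
            obtain ⟨h5, h6⟩ := Finset.mem_filter.1 hw
            rcases Sym2.mem_iff.1 h6 with rfl | rfl
            · exact Finset.mem_singleton_self _
            · exact absurd h5 hv
          have := Finset.card_le_card hs
          rw [Finset.card_singleton] at this
          omega
  have h5 : ∑ e ∈ A, ((I.filter fun w => w ∈ e).card + (if ¬ ∀ x ∈ e, x ∈ I then 1 else 0)) ≤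
      A.card * 2 := Finset.sum_le_card_nsmul _ _ _ h4 |>.trans (by simp)
  rw [Finset.sum_add_distrib, ← h3] at h5
  omega

/-- The attachments of `I`: connectivity gives `|I| + b ≤ m + 1`. -/
theorem core_card_le {E I : Finset α} (hdisj : Disjoint I E) (hne : I.Nonempty)
    (hconn : ∀ D : Finset α, D.Nonempty → D ⊆ I → D ≠ I → ∃ u ∈ D, ∃ v ∈ I \ D, F.Adj u v) :
    I.card + (core F E I).card ≤ (newE F E I).card + 1 := by
  refine newE_card ((I ×ˢ I).filter fun p => F.Adj p.1 p.2) ?_ ?_
  · intro u v h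
    exact (Finset.mem_filter.1 h).2
  · refine ⟨hne, hdisj, ?_, ?_⟩
    · intro u v h _
      have := (Finset.mem_filter.1 h).1
      exact Finset.mem_union_right _ (Finset.mem_product.1 this).2
    · intro x _ D hxD hDI hDne
      obtain ⟨u, hu, v, hv, hadj⟩ := hconn D ⟨x, hxD⟩ hDI hDne
      refine ⟨u, hu, v, hv, Finset.mem_filter.2 ⟨?_, hadj⟩⟩
      exact Finset.mem_product.2 ⟨hDI hu, (Finset.mem_sdiff.1 hv).1⟩

/-- A set with a member and the base point removed: the attachments of `I - x`
are those of `I` and `x`. -/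
theorem pinR_card_le {E I : Finset α} {x : α} (hx : x ∈ I) (hdisj : Disjoint I E) {φ₀ : α → V} :
    (pinR F (insert x E) (I.erase x) φ₀).card ≤ (core F E I).card + 1 := by
  unfold pinR
  refine Finset.card_image_le.trans ?_
  have hsub : core F (insert x E) (I.erase x) ⊆ insert x (core F E I) := by
    intro w hw
    obtain ⟨h1, c, hc, hadj⟩ := Finset.mem_filter.1 hw
    rcases Finset.mem_insert.1 h1 with h2 | h2
    · rw [h2]
      exact Finset.mem_insert_self _ _
    · exact Finset.mem_insert_of_mem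
        (Finset.mem_filter.2 ⟨h2, c, Finset.mem_of_mem_erase hc, hadj⟩)
  exact (Finset.card_le_card hsub).trans (Finset.card_insert_le _ _)

/-- The two descriptions of `E ∪ I`, after pinning `x`. -/
theorem insert_union_erase {E I : Finset α} {x : α} (hx : x ∈ I) :
    insert x E ∪ I.erase x = E ∪ I := by
  ext y
  simp only [Finset.mem_union, Finset.mem_insert, Finset.mem_erase]
  by_cases h : y = x
  · subst h
    simp [hx]
  · simp [h]

end Vale.Agent.Lib.P064
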