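import Vale.Agent.Lib.P064S.Base

/-!
The numerics of the count over a minimal set.
-/

open Finset

namespace Vale.Agent.Lib.P064

/-- `log (n q)`. -/
noncomputable def spG (n : ℕ) (q : ℝ) : ℝ := Real.log ((n : ℝ) * q)

/-- The logarithm of the degree bound. -/
noncomputable def spLam (n : ℕ) (q : ℝ) : ℝ := 2 + spG n q + Real.log (Real.log n + 2)

/-- The loss exponent per vertex. -/
noncomputable def spKap (n : ℕ) (q : ℝ) : ℝ :=
  (spG n q + 1) * (12 * (1 + spG n q) + 6 * spLam n q) / (- Real.log q - 1)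

/-- The loss per edge. -/
noncomputable def spK (n : ℕ) (q : ℝ) : ℝ :=
  Real.exp 1 * (1 + Real.log n / ((n : ℝ) * q)) * Real.exp (2 * spKap n q)

/-- The loss per vertex. -/
noncomputable def spA : ℝ := 64 * Real.exp 2

section

variable {n : ℕ} {q : ℝ}

lemma spA_one_le : 1 ≤ spA := by
  have : 1 ≤ Real.exp 2 := Real.one_le_exp (by norm_num)
  unfold spA
  linarith

lemma spG_nonneg (hD : 1 ≤ (n : ℝ) * q) : 0 ≤ spG n q := Real.log_nonneg hD

lemma spLam_nonneg (hD : 1 ≤ (n : ℝ) * q) (hL : 0 ≤ Real.log n) : 0 ≤ spLam n q := by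
  have h1 := spG_nonneg hD
  have h2 : 0 ≤ Real.log (Real.log n + 2) := Real.log_nonneg (by linarith)
  unfold spLam
  linarith

/-- The logarithm of `1/q` from the upper bound on `n q`. -/
lemma spQ_of_D2 (hn : 2 ≤ n) (hq0 : 0 < q) (hD : 1 ≤ (n : ℝ) * q)
    (hD2 : (Real.exp 1 * ((n : ℝ) * q)) ^ 2 < n) : Real.log n / 2 ≤ - Real.log q := by
  have hn0 : (0 : ℝ) < n := by positivity
  have he : (1 : ℝ) ≤ Real.exp 1 := Real.one_le_exp (by norm_num)
  -- from (e n q)^2 < n  we get  (n q)^2 ≤ n, i.e. n q^2 ≤ 1 .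
  have h1 : ((n : ℝ) * q) ^ 2 ≤ n := by
    have h2 : ((n : ℝ) * q) ^ 2 ≤ (Real.exp 1 * ((n : ℝ) * q)) ^ 2 := by
      apply pow_le_pow_left₀ (by positivity)
      nlinarith
    linarith
  have h3 : (n : ℝ) * q ^ 2 ≤ 1 := by
    have : (n : ℝ) * ((n : ℝ) * q ^ 2) ≤ n * 1 := by nlinarith
    exact le_of_mul_le_mul_left this hn0
  have h4 : Real.log n + 2 * Real.log q ≤ 0 := by
    have h5 : Real.log ((n : ℝ) * q ^ 2) ≤ Real.log 1 :=
      Real.log_le_log (by positivity) h3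
    rw [Real.log_mul hn0.ne' (by positivity), Real.log_pow, Real.log_one] at h5
    push_cast at h5
    linarith
  linarith

/-- The probability is small from the upper bound on `n q`. -/
lemma spq_of_D2 (hn : 2 ≤ n) (hq0 : 0 < q)
    (hD2 : (Real.exp 1 * ((n : ℝ) * q)) ^ 2 < n) : q ≤ Real.exp (-1) := by
  have hn0 : (1 : ℝ) ≤ n := by
    have : (2 : ℝ) ≤ n := by exact_mod_cast hn
    linarith
  have he : (0 : ℝ) < Real.exp 1 := Real.exp_pos 1
  -- (e n q)^2 < n ≤ n^2 so e n q < n so e q < 1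
  have h1 : (Real.exp 1 * ((n : ℝ) * q)) ^ 2 < (n : ℝ) ^ 2 := by nlinarith
  have h2 : Real.exp 1 * ((n : ℝ) * q) < n := by
    exact lt_of_pow_lt_pow_left₀ 2 (by positivity) h1
  have h3 : Real.exp 1 * q < 1 := by
    have : (n : ℝ) * (Real.exp 1 * q) < n * 1 := by nlinarith
    exact lt_of_mul_lt_mul_left this (by positivity)
  rw [Real.exp_neg]
  rw [← one_div, le_div_iff₀ he]
  linarith

/-- The degree bound in exponential form. -/
lemma degree_le_exp_lam (hD : 1 ≤ (n : ℝ) * q) (hL : 0 ≤ Real.log n) :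
    Real.exp 2 * ((n : ℝ) * q + Real.log n) ≤ Real.exp (spLam n q) := by
  unfold spLam spG
  have hD0 : 0 < (n : ℝ) * q := by linarith
  have hL2 : 0 < Real.log n + 2 := by linarith
  rw [Real.exp_add, Real.exp_add, Real.exp_log hD0, Real.exp_log hL2]
  have h2 : 0 < Real.exp 2 := Real.exp_pos 2
  -- exp 2 * (D + L) ≤ exp 2 * D * (L + 2)
  have h3 : (n : ℝ) * q + Real.log n ≤ (n : ℝ) * q * (Real.log n + 2) := by nlinarith
  calc Real.exp 2 * ((n : ℝ) * q + Real.log n)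
      ≤ Real.exp 2 * ((n : ℝ) * q * (Real.log n + 2)) :=
        mul_le_mul_of_nonneg_left h3 h2.le
    _ = Real.exp 2 * ((n : ℝ) * q) * (Real.log n + 2) := by ring

lemma spKap_nonneg (hD : 1 ≤ (n : ℝ) * q) (hL : 0 ≤ Real.log n) (hQ : 1 < - Real.log q) :
    0 ≤ spKap n q := by
  have h1 := spG_nonneg hD
  have h2 := spLam_nonneg hD hL
  unfold spKap
  apply div_nonneg
  · apply mul_nonneg (by linarith)
    nlinarith
  · linarith

lemma one_le_spK (hD : 1 ≤ (n : ℝ) * q) (hL : 0 ≤ Real.log n) (hQ : 1 < - Real.log q) :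
    1 ≤ spK n q := by
  have h1 := spKap_nonneg hD hL hQ
  unfold spK
  have hD0 : 0 < (n : ℝ) * q := by linarith
  have h2 : 1 ≤ Real.exp 1 := Real.one_le_exp (by norm_num)
  have h3 : 1 ≤ 1 + Real.log n / ((n : ℝ) * q) := by
    have : 0 ≤ Real.log n / ((n : ℝ) * q) := div_nonneg hL hD0.le
    linarith
  have h4 : 1 ≤ Real.exp (2 * spKap n q) := Real.one_le_exp (by linarith)
  have h5 : 1 ≤ Real.exp 1 * (1 + Real.log n / ((n : ℝ) * q)) := by
    nlinarith
  nlinarith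

/-- A factor `1 + L / D` at `D`: what a pendant vertex costs. -/
lemma spK_pendant (hD : 1 ≤ (n : ℝ) * q) (hL : 0 ≤ Real.log n) (hQ : 1 < - Real.log q) :
    Real.exp 2 * (1 + Real.log n / ((n : ℝ) * q)) ≤ spA * spK n q := by
  have h1 := spKap_nonneg hD hL hQ
  have hD0 : 0 < (n : ℝ) * q := by linarith
  have h2 : 1 ≤ Real.exp 1 := Real.one_le_exp (by norm_num)
  have h3 : 1 ≤ 1 + Real.log n / ((n : ℝ) * q) := by
    have : 0 ≤ Real.log n / ((n : ℝ) * q) := div_nonneg hL hD0.le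
    linarith
  have h4 : 1 ≤ Real.exp (2 * spKap n q) := Real.one_le_exp (by linarith)
  have he2 : 0 < Real.exp 2 := Real.exp_pos 2
  unfold spA spK
  set X := 1 + Real.log n / ((n : ℝ) * q) with hX
  have h5 : X ≤ Real.exp 1 * X * Real.exp (2 * spKap n q) := by
    have : 1 ≤ Real.exp 1 * Real.exp (2 * spKap n q) := by nlinarith
    nlinarith
  have h6 : Real.exp 2 * X ≤ Real.exp 2 * (Real.exp 1 * X * Real.exp (2 * spKap n q)) :=
    mul_le_mul_of_nonneg_left h5 he2.le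
  have h7 : 0 ≤ Real.exp 2 * (Real.exp 1 * X * Real.exp (2 * spKap n q)) := by positivity
  nlinarith

/-- From `τ ≥ 1`. -/
lemma tau_exp (hq0 : 0 < q) {n' : ℝ} {a m : ℕ}
    (hτ : 1 ≤ n' ^ a * (Real.exp 1 * q) ^ m) : Real.exp (-(m : ℝ)) ≤ n' ^ a * q ^ m := by
  have he : 0 < Real.exp (-(m : ℝ)) := Real.exp_pos _
  have h1 : n' ^ a * (Real.exp 1 * q) ^ m = Real.exp (m : ℝ) * (n' ^ a * q ^ m) := by
    rw [mul_pow, ← Real.exp_nat_mul]
    ring_nf
  rw [h1] at hτ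
  have h2 : Real.exp (-(m : ℝ)) * Real.exp (m : ℝ) = 1 := by
    rw [← Real.exp_add]; simp
  calc Real.exp (-(m : ℝ)) = Real.exp (-(m : ℝ)) * 1 := by ring
    _ ≤ Real.exp (-(m : ℝ)) * (Real.exp (m : ℝ) * (n' ^ a * q ^ m)) :=
        mul_le_mul_of_nonneg_left hτ he.le
    _ = n' ^ a * q ^ m := by rw [← mul_assoc, h2, one_mul]

/-- From `τ ≥ 1`: the excess is small. -/
lemma tau_excess (hn : 1 ≤ n) (hq0 : 0 < q) {a x : ℕ}
    (hτ : 1 ≤ (n : ℝ) ^ a * (Real.exp 1 * q) ^ (a + x)) :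
    (x : ℝ) * (- Real.log q - 1) ≤ a * (spG n q + 1) := by
  have hn0 : (0 : ℝ) < n := by positivity
  have h1 : 0 ≤ Real.log ((n : ℝ) ^ a * (Real.exp 1 * q) ^ (a + x)) := Real.log_nonneg hτ
  have he : Real.exp 1 * q ≠ 0 := by positivity
  rw [Real.log_mul (by positivity) (by positivity), Real.log_pow, Real.log_pow,
    Real.log_mul (Real.exp_pos 1).ne' hq0.ne', Real.log_exp] at h1
  unfold spG
  rw [Real.log_mul hn0.ne' hq0.ne']
  push_cast at h1
  nlinarith

end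

end Vale.Agent.Lib.P064
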