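import Vale.Agent.Lib.P064S.Base

/-!
A spanning tree order of a connected set and the count along it.
-/

open Finset

namespace Vale.Agent.Lib.P064

open scoped Classical

variable {V α : Type} [Fintype V] [Fintype α] {F : SimpleGraph α}

private lemma par_rank_grow {I : Finset α} {x : α}
    (hconn : ∀ D : Finset α, D.Nonempty → D ⊆ I → D ≠ I → ∃ u ∈ D, ∃ v ∈ I \ D, F.Adj u v) :
    ∀ (n : ℕ) (D : Finset α) (par : α → α) (r : α → ℕ), (I \ D).card = n → x ∈ D → D ⊆ I →
      par x = x → (∀ v ∈ D, v ≠ x → par v ∈ D ∧ r (par v) < r v ∧ F.Adj (par v) v) →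
      ∃ (par' : α → α) (r' : α → ℕ), par' x = x ∧
        ∀ v ∈ I, v ≠ x → par' v ∈ I ∧ r' (par' v) < r' v ∧ F.Adj (par' v) v := by
  intro n
  induction n with
  | zero =>
    intro D par r hn hx hDI hpx hD
    have hID : I ⊆ D := by
      have := Finset.card_eq_zero.1 hn
      exact Finset.sdiff_eq_empty_iff_subset.1 this
    refine ⟨par, r, hpx, fun v hv hvx => ?_⟩
    obtain ⟨h1, h2, h3⟩ := hD v (hID hv) hvx
    exact ⟨hDI h1, h2, h3⟩
  | succ n ih =>
    intro D par r hn hx hDI hpx hD
    have hne : D ≠ I := by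
      intro h
      subst h
      simp at hn
    obtain ⟨u, hu, v, hv, huv⟩ := hconn D ⟨x, hx⟩ hDI hne
    obtain ⟨hvI, hvD⟩ := Finset.mem_sdiff.1 hv
    have hvx : v ≠ x := fun h => hvD (h ▸ hx)
    refine ih (insert v D) (Function.update par v u) (Function.update r v (r u + 1)) ?_ ?_ ?_ ?_ ?_
    · have : I \ insert v D = (I \ D).erase v := by
        ext w
        simp only [Finset.mem_sdiff, Finset.mem_insert, Finset.mem_erase]
        tauto
      rw [this, Finset.card_erase_of_mem hv, hn]
      rfl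
    · exact Finset.mem_insert_of_mem hx
    · exact Finset.insert_subset hvI hDI
    · rw [Function.update_of_ne hvx.symm]
      exact hpx
    · intro w hw hwx
      have huv' : u ≠ v := fun h => hvD (h ▸ hu)
      by_cases hwv : w = v
      · subst hwv
        simp only [Function.update_self]
        refine ⟨Finset.mem_insert_of_mem hu, ?_, huv⟩
        rw [Function.update_of_ne huv']
        omega
      · have hwD : w ∈ D := (Finset.mem_insert.1 hw).resolve_left hwv
        obtain ⟨h1, h2, h3⟩ := hD w hwD hwx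
        have hpv : par w ≠ v := fun h => hvD (h ▸ h1)
        rw [Function.update_of_ne hwv, Function.update_of_ne hpv, Function.update_of_ne hwv]
        exact ⟨Finset.mem_insert_of_mem h1, h2, h3⟩

/-- A connected set has parents with decreasing rank. -/
theorem exists_par_rank {I : Finset α} {x : α} (hx : x ∈ I)
    (hconn : ∀ D : Finset α, D.Nonempty → D ⊆ I → D ≠ I → ∃ u ∈ D, ∃ v ∈ I \ D, F.Adj u v) :
    ∃ (par : α → α) (r : α → ℕ), par x = x ∧
      ∀ v ∈ I, v ≠ x → par v ∈ I ∧ r (par v) < r v ∧ F.Adj (par v) v := by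
  refine par_rank_grow hconn _ {x} id (fun _ => 0) rfl (Finset.mem_singleton_self x)
    (Finset.singleton_subset_iff.2 hx) rfl ?_
  intro v hv hvx
  exact absurd (Finset.mem_singleton.1 hv) hvx

/-- The count along a parent function: the branching numbers multiply along each member. -/
theorem tree_count {E I : Finset α} {x : α} {par : α → α} {r : α → ℕ}
    (hpar : ∀ v ∈ I, v ≠ x → par v ∈ I ∧ r (par v) < r v) (hparx : par x = x)
    (Cand : α → V → V → Finset V) :
    ∀ (D : Finset α), x ∈ D → D ⊆ I → (∀ u ∈ D, par u ∈ D) →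
      ∀ (S : Finset (α → V)) (B : ℝ), 0 ≤ B →
        (∀ φ ∈ S, ∀ φ' ∈ S, ∀ y ∈ E ∪ D, φ y = φ' y) →
        (∀ φ ∈ S, ∀ v ∈ I \ D, φ v ∈ Cand v (φ (par v)) (φ (par (par v)))) →
        (∀ φ ∈ S, ∏ v ∈ I \ D, ((Cand v (φ (par v)) (φ (par (par v)))).card : ℝ) ≤ B) →
        ((S.image (proj (E ∪ I))).card : ℝ) ≤ B := by
  intro D
  induction' hn : (I \ D).card using Nat.strong_induction_on with n ih generalizing D
  intro hxD hDI hDpar S B hB hagree hcand hprod
  rcases S.eq_empty_or_nonempty with rfl | ⟨φ₀, hφ₀⟩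
  · simpa using hB
  by_cases hID : I \ D = ∅
  · have hsub : I ⊆ D := Finset.sdiff_eq_empty_iff_subset.1 hID
    have h1 : (S.image (proj (E ∪ I))).card ≤ 1 := by
      rw [Finset.card_le_one]
      intro a ha b hb
      obtain ⟨φ, hφ, rfl⟩ := Finset.mem_image.1 ha
      obtain ⟨φ', hφ', rfl⟩ := Finset.mem_image.1 hb
      funext y
      by_cases hy : y ∈ E ∪ I
      · simp only [proj, if_pos hy]
        have hy' : y ∈ E ∪ D := by
          rcases Finset.mem_union.1 hy with h | h
          · exact Finset.mem_union_left _ h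
          · exact Finset.mem_union_right _ (hsub h)
        rw [hagree φ hφ φ' hφ' y hy']
      · simp [proj, hy]
    have h2 := hprod φ₀ hφ₀
    rw [hID, Finset.prod_empty] at h2
    calc ((S.image (proj (E ∪ I))).card : ℝ) ≤ (1 : ℝ) := by exact_mod_cast h1
      _ ≤ B := h2
  · obtain ⟨v, hv, hmin⟩ :=
      Finset.exists_min_image (I \ D) r (Finset.nonempty_iff_ne_empty.2 hID)
    obtain ⟨hvI, hvD⟩ := Finset.mem_sdiff.1 hv
    have hvx : v ≠ x := fun h => hvD (h ▸ hxD)
    obtain ⟨hpI, hpr⟩ := hpar v hvI hvx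
    have hpD : par v ∈ D := by
      by_contra h
      have := hmin (par v) (Finset.mem_sdiff.2 ⟨hpI, h⟩)
      omega
    have hppD := hDpar _ hpD
    have hpv : ∀ φ ∈ S, φ (par v) = φ₀ (par v) := fun φ hφ =>
      hagree φ hφ φ₀ hφ₀ _ (Finset.mem_union_right _ hpD)
    have hppv : ∀ φ ∈ S, φ (par (par v)) = φ₀ (par (par v)) := fun φ hφ =>
      hagree φ hφ φ₀ hφ₀ _ (Finset.mem_union_right _ hppD)
    set C := Cand v (φ₀ (par v)) (φ₀ (par (par v))) with hC
    have hmemC : ∀ φ ∈ S, φ v ∈ C := by
      intro φ hφ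
      have := hcand φ hφ v hv
      rwa [hpv φ hφ, hppv φ hφ] at this
    have hCpos : (0 : ℝ) < (C.card : ℝ) := by
      exact_mod_cast Finset.card_pos.2 ⟨_, hmemC φ₀ hφ₀⟩
    have hsplit : I \ D = insert v (I \ insert v D) := by
      ext w
      simp only [Finset.mem_sdiff, Finset.mem_insert]
      by_cases hw : w = v
      · subst hw
        simp [hvI, hvD]
      · simp [hw]
    have hnotin : v ∉ I \ insert v D := by simp
    have hlt : (I \ insert v D).card < n := by
      rw [← hn, hsplit, Finset.card_insert_of_notMem hnotin]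
      omega
    have hstep : ∀ c ∈ C, (((S.filter fun φ => φ v = c).image (proj (E ∪ I))).card : ℝ)
        ≤ B / C.card := by
      intro c _
      refine ih _ hlt (insert v D) rfl (Finset.mem_insert_of_mem hxD)
        (Finset.insert_subset hvI hDI) ?_ _ _ (div_nonneg hB hCpos.le) ?_ ?_ ?_
      · intro u hu
        rcases Finset.mem_insert.1 hu with rfl | hu
        · exact Finset.mem_insert_of_mem hpD
        · exact Finset.mem_insert_of_mem (hDpar u hu)
      · intro φ hφ φ' hφ' y hy
        obtain ⟨hφS, hφc⟩ := Finset.mem_filter.1 hφ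
        obtain ⟨hφS', hφc'⟩ := Finset.mem_filter.1 hφ'
        rcases Finset.mem_union.1 hy with h | h
        · exact hagree φ hφS φ' hφS' y (Finset.mem_union_left _ h)
        · rcases Finset.mem_insert.1 h with rfl | h
          · rw [hφc, hφc']
          · exact hagree φ hφS φ' hφS' y (Finset.mem_union_right _ h)
      · intro φ hφ w hw
        have hφS := (Finset.mem_filter.1 hφ).1
        refine hcand φ hφS w ?_
        rw [hsplit]
        exact Finset.mem_insert_of_mem hw
      · intro φ hφ
        have hφS := (Finset.mem_filter.1 hφ).1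
        have h := hprod φ hφS
        rw [hsplit, Finset.prod_insert hnotin, hpv φ hφS, hppv φ hφS] at h
        rw [le_div_iff₀ hCpos, mul_comm]
        exact h
    have hsub : S.image (proj (E ∪ I)) ⊆
        C.biUnion fun c => (S.filter fun φ => φ v = c).image (proj (E ∪ I)) := by
      intro a ha
      obtain ⟨φ, hφ, rfl⟩ := Finset.mem_image.1 ha
      refine Finset.mem_biUnion.2 ⟨φ v, hmemC φ hφ, ?_⟩
      exact Finset.mem_image.2 ⟨φ, Finset.mem_filter.2 ⟨hφ, rfl⟩, rfl⟩
    calc ((S.image (proj (E ∪ I))).card : ℝ)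
        ≤ ((C.biUnion fun c => (S.filter fun φ => φ v = c).image (proj (E ∪ I))).card : ℝ) := by
          exact_mod_cast Finset.card_le_card hsub
      _ ≤ ∑ c ∈ C, (((S.filter fun φ => φ v = c).image (proj (E ∪ I))).card : ℝ) := by
          exact_mod_cast Finset.card_biUnion_le
      _ ≤ ∑ _c ∈ C, (B / C.card) := Finset.sum_le_sum hstep
      _ = B := by
          rw [Finset.sum_const, nsmul_eq_mul]
          field_simp

end Vale.Agent.Lib.P064
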