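import Vale.Agent.Lib.P064S.Base

/-!
The covering count with a pinned bound.
-/

open Finset

namespace Vale.Agent.Lib.P064

open scoped Classical

variable {V α : Type} [Fintype V] [Fintype α] {H : SimpleGraph V} {F : SimpleGraph α} {n : ℕ}
  {q : ℝ}

/-- The count over a set `I`, with a bound for members through one pinned vertex. -/
theorem cover_pinned (hG : GoodDensity n q H) (hq0 : 0 < q) (hq1 : q ≤ 1) (hn : 1 ≤ n)
    {E I : Finset α} (hne : I.Nonempty) (hdisj : Disjoint I E) (hm : 1 ≤ (newE F E I).card)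
    (S : Finset (α → V)) (hS : S.Nonempty) (hinj : ∀ φ ∈ S, Function.Injective φ)
    (hhom : ∀ φ ∈ S, ∀ u v, F.Adj u v → H.Adj (φ u) (φ v))
    {φ₀ : α → V} (hagree : ∀ φ ∈ S, ∀ x ∈ E, φ x = φ₀ x)
    {P : ℝ} (hP0 : 0 ≤ P)
    (hP : ∀ x ∈ I, ∀ y, (((S.filter (fun φ => φ x = y)).image (proj (E ∪ I))).card : ℝ) ≤ P) :
    ∃ t : ℕ, 1 ≤ t ∧ ((t : ℝ) ≤ (core F E I).card * Real.log n ∨
        (t : ℝ) ≤ Real.exp 2 * ((n : ℝ) ^ I.card * q ^ (newE F E I).card)) ∧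
      ((S.image (proj (E ∪ I))).card : ℝ) ≤ I.card * (t * I.card) * P := by
  have hn1 : (1 : ℝ) ≤ n := by exact_mod_cast hn
  have hn0 : (0 : ℝ) < n := by linarith
  obtain ⟨𝓜, hsub, hne𝓜, hdisj', hcov⟩ := exists_max_family S hS hne
  obtain ⟨φ₁, hφ₁⟩ := hne𝓜
  have hag' : ∀ φ ∈ 𝓜, ∀ x ∈ E, φ x = φ₁ x := by
    intro φ hφ x hx
    rw [hagree φ (hsub hφ) x hx, hagree φ₁ (hsub hφ₁) x hx]
  have hfac := sun_factorial hG hq0 hq1 hne hdisj 𝓜 hφ₁ (fun φ hφ => hinj φ (hsub hφ))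
    (fun φ hφ => hhom φ (hsub hφ)) hag' hdisj' hm
  have hρ0 : 0 < (n : ℝ) ^ I.card * q ^ (newE F E I).card := by positivity
  have ht1 : 1 ≤ 𝓜.card := Finset.card_pos.2 ⟨φ₁, hφ₁⟩
  refine ⟨𝓜.card, ht1, t_bound hn1 hρ0 ht1 hfac, ?_⟩
  let Z : Finset V := 𝓜.biUnion (fun φ' => I.image φ')
  have hZ : Z.card ≤ 𝓜.card * I.card := by
    refine Finset.card_biUnion_le.trans ?_
    calc ∑ φ' ∈ 𝓜, (I.image φ').card ≤ ∑ _φ' ∈ 𝓜, I.card :=
          Finset.sum_le_sum fun _ _ => Finset.card_image_le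
      _ = 𝓜.card * I.card := by simp
  let Sx : α × V → Finset (α → V) := fun p => S.filter (fun φ => φ p.1 = p.2)
  have hsub' : S.image (proj (E ∪ I)) ⊆
      (I ×ˢ Z).biUnion (fun p => (Sx p).image (proj (E ∪ I))) := by
    intro ψ hψ
    obtain ⟨φ, hφ, rfl⟩ := Finset.mem_image.1 hψ
    obtain ⟨x, hx, φ', hφ', y, hy, hxy⟩ := hcov φ hφ
    refine Finset.mem_biUnion.2 ⟨(x, φ x), Finset.mem_product.2 ⟨hx, ?_⟩, ?_⟩
    · refine Finset.mem_biUnion.2 ⟨φ', hφ', ?_⟩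
      rw [hxy]
      exact Finset.mem_image_of_mem _ hy
    · exact Finset.mem_image_of_mem _ (Finset.mem_filter.2 ⟨hφ, rfl⟩)
  have hI0 : (0 : ℝ) ≤ I.card := Nat.cast_nonneg _
  calc ((S.image (proj (E ∪ I))).card : ℝ)
      ≤ (((I ×ˢ Z).biUnion (fun p => (Sx p).image (proj (E ∪ I)))).card : ℝ) := by
        exact_mod_cast Finset.card_le_card hsub'
    _ ≤ ((∑ p ∈ I ×ˢ Z, ((Sx p).image (proj (E ∪ I))).card : ℕ) : ℝ) := by
        exact_mod_cast Finset.card_biUnion_le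
    _ = ∑ p ∈ I ×ˢ Z, (((Sx p).image (proj (E ∪ I))).card : ℝ) := by
        push_cast
        rfl
    _ ≤ ∑ _p ∈ I ×ˢ Z, P := by
        apply Finset.sum_le_sum
        rintro ⟨x, z⟩ hp
        exact hP x (Finset.mem_product.1 hp).1 z
    _ = ((I ×ˢ Z).card : ℝ) * P := by simp
    _ ≤ (I.card * (𝓜.card * I.card) : ℝ) * P := by
        apply mul_le_mul_of_nonneg_right _ hP0
        rw [Finset.card_product]
        push_cast
        have hZ' : (Z.card : ℝ) ≤ 𝓜.card * I.card := by exact_mod_cast hZ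
        exact mul_le_mul_of_nonneg_left hZ' hI0

end Vale.Agent.Lib.P064
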