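import Vale.Agent.Lib.P064.Sharp

/-!
Basic definitions for the sparse side count.
-/

open Finset

namespace Vale.Agent.Lib.P064S

open Vale.Agent.Lib.P064

open scoped Classical

variable {α : Type} [Fintype α]

/-- The number of edges of `F[W]` touching `J`. -/
noncomputable def eT (F : SimpleGraph α) (W J : Finset α) : ℕ := (newE F (W \ J) J).card

/-- The quantity `n ^ |J| * (e q) ^ eT(J)`. -/
noncomputable def tau1 (n : ℕ) (q : ℝ) (F : SimpleGraph α) (W J : Finset α) : ℝ :=
  (n : ℝ) ^ J.card * (Real.exp 1 * q) ^ eT F W J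

end Vale.Agent.Lib.P064S
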