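import Vale.Agent.Lib.P064S.HWalkMain
import Vale.Agent.Lib.P064S.Defs

/-!
The pinned bound in the form used by the piece count.
-/

open Finset

namespace Vale.Agent.Lib.P064S

open Vale.Agent.Lib.P064
open scoped Classical

variable {V α : Type} [Fintype V] [Fintype α] {F : SimpleGraph α} {H : SimpleGraph V} {n : ℕ}
  {q : ℝ}

omit [Fintype V] in
/-- Restrictions to `W` are determined by restrictions to `I` when the maps agree on `W \ I`. -/
lemma card_image_proj_le {S : Finset (α → V)} {I W : Finset α} (hIW : I ⊆ W)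
    (hag : ∀ φ ∈ S, ∀ φ' ∈ S, ∀ z ∈ W \ I, φ z = φ' z) :
    (S.image (proj W)).card ≤ (S.image (proj I)).card := by
  refine Finset.card_le_card_of_injOn (res I) ?_ ?_
  · intro ψ hψ
    obtain ⟨φ, hφ, rfl⟩ := Finset.mem_image.1 (Finset.mem_coe.1 hψ)
    rw [res_proj hIW]
    exact Finset.mem_coe.2 (Finset.mem_image_of_mem _ hφ)
  · intro ψ hψ ψ' hψ' h
    obtain ⟨φ, hφ, rfl⟩ := Finset.mem_image.1 (Finset.mem_coe.1 hψ)
    obtain ⟨φ', hφ', rfl⟩ := Finset.mem_image.1 (Finset.mem_coe.1 hψ')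
    rw [res_proj hIW, res_proj hIW] at h
    funext z
    by_cases hzW : z ∈ W
    · by_cases hzI : z ∈ I
      · exact (by
          have := congrFun h z
          simpa [proj, hzI, hIW hzI] using this)
      · have := hag φ hφ φ' hφ' z (Finset.mem_sdiff.2 ⟨hzW, hzI⟩)
        simp [proj, hzW, this]
    · simp [proj, hzW]

omit [Fintype V] in
/-- Degrees from lowness of singletons. -/
lemma two_le_nbW (h1 : 1 ≤ (n : ℝ) * q) (hq0 : 0 < q) (hqe : Real.exp 1 * q ≤ 1) {W : Finset α}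
    {v : α} (hvW : v ∈ W) (hlow : tau1 n q F W {v} < 1) : 2 ≤ (nbW F W v).card := by
  unfold tau1 at hlow
  have h2 : eT F W {v} = (nbW F W v).card := card_tI_single hvW
  rw [h2, Finset.card_singleton, pow_one] at hlow
  by_contra hcon
  have hd : (nbW F W v).card = 0 ∨ (nbW F W v).card = 1 := by omega
  have he1 : (1 : ℝ) ≤ Real.exp 1 := Real.one_le_exp (by norm_num)
  have hq1 : q ≤ 1 := by nlinarith
  have hn0 : (0 : ℝ) ≤ n := Nat.cast_nonneg _
  rcases hd with hd | hd
  · rw [hd, pow_zero, mul_one] at hlow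
    nlinarith
  · rw [hd, pow_one] at hlow
    nlinarith

/-- The pinned bound. -/
theorem pinned (hG : GoodDensity n q H) (hq0 : 0 < q) (hqe : q ≤ Real.exp (-1)) (hn : 1 ≤ n)
    {W I : Finset α} (hIW : I ⊆ W) (hI2 : 2 ≤ I.card)
    (hlow : ∀ J, J ⊂ I → J.Nonempty → tau1 n q F W J < 1)
    (hconn : ∀ D, D ⊂ I → D.Nonempty → ∃ u ∈ D, ∃ v ∈ I \ D, F.Adj u v)
    (S : Finset (α → V)) (hinj : ∀ φ ∈ S, Function.Injective φ)
    (hhom : ∀ φ ∈ S, ∀ u v, F.Adj u v → H.Adj (φ u) (φ v))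
    {φ₀ : α → V} (hagree : ∀ φ ∈ S, ∀ z ∈ W \ I, φ z = φ₀ z)
    {x : α} (hx : x ∈ I) {y : V} (hxy : ∀ φ ∈ S, φ x = y)
    {Δ : ℝ} (hΔ1 : 1 ≤ Δ) (hΔ : ∀ v, ((univ.filter fun z => H.Adj v z).card : ℝ) ≤ Δ)
    (h1 : 1 ≤ (n : ℝ) * q) (hQ : Real.log n ≤ 2 * (- Real.log q)) :
    ((S.image (proj W)).card : ℝ) ≤
      Real.exp (2 * (2 * (((core F (W \ I) I).card : ℝ) + 1) *
        (1 + (Real.log n + Real.log q)))) * Δ ^ (2 + 4 * (eT F W I - I.card)) := by
  have hn1 : (1 : ℝ) ≤ n := by exact_mod_cast hn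
  have hn0 : (0 : ℝ) < n := by linarith
  have hqe' : Real.exp 1 * q ≤ 1 := by
    have h2 : Real.exp 1 * Real.exp (-1) = 1 := by
      rw [← Real.exp_add]
      simp
    calc Real.exp 1 * q ≤ Real.exp 1 * Real.exp (-1) :=
          mul_le_mul_of_nonneg_left hqe (Real.exp_pos _).le
      _ = 1 := h2
  have hq1 : q ≤ 1 := hqe.trans (by rw [Real.exp_le_one_iff]; norm_num)
  by_cases hS : S.Nonempty
  swap
  · rw [Finset.not_nonempty_iff_eq_empty] at hS
    rw [hS]
    simp only [Finset.image_empty, Finset.card_empty, Nat.cast_zero]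
    have : 0 < Δ := by linarith
    positivity
  obtain ⟨φ₁, hφ₁⟩ := hS
  set J := I.erase x with hJ
  have hxJ : x ∉ J := Finset.notMem_erase _ _
  have hins : insert x J = I := Finset.insert_erase hx
  have hJI : J ⊂ I := Finset.erase_ssubset hx
  have hag : ∀ φ ∈ S, ∀ u ∈ W \ J, φ u = φ₁ u := by
    intro φ hφ u hu
    obtain ⟨hu1, hu2⟩ := Finset.mem_sdiff.1 hu
    by_cases hux : u = x
    · rw [hux, hxy φ hφ, hxy φ₁ hφ₁]
    · have huI : u ∉ I := fun h => hu2 (Finset.mem_erase.2 ⟨hux, h⟩)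
      have hm : u ∈ W \ I := Finset.mem_sdiff.2 ⟨hu1, huI⟩
      rw [hagree φ hφ u hm, hagree φ₁ hφ₁ u hm]
  have hP : Pin n q F H W J S φ₁ := by
    refine ⟨?_, hinj, hhom, hag, ?_, hn, hq0, hqe'⟩
    · exact (Finset.erase_subset _ _).trans hIW
    · intro J' hJ' hne
      exact hlow J' (lt_of_le_of_lt hJ' hJI) hne
  have hxW : x ∈ W := hIW hx
  have hdeg : ∀ u ∈ insert x J, 2 ≤ (nbW F W u).card := by
    intro u hu
    rw [hins] at hu
    apply two_le_nbW h1 hq0 hqe' (hIW hu)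
    apply hlow
    · refine Finset.ssubset_iff_subset_ne.2 ⟨Finset.singleton_subset_iff.2 hu, ?_⟩
      intro h
      rw [← h, Finset.card_singleton] at hI2
      omega
    · exact Finset.singleton_nonempty _
  have hconn' : ∀ D : Finset α, x ∈ D → D ⊆ insert x J → D ≠ insert x J →
      ∃ u ∈ D, ∃ v ∈ insert x J \ D, F.Adj u v := by
    intro D hxD hD hne
    rw [hins] at hD hne ⊢
    exact hconn D (Finset.ssubset_iff_subset_ne.2 ⟨hD, hne⟩) ⟨x, hxD⟩
  have hΔ' : ∀ z, ((nb (UU F W J S) z).card : ℝ) ≤ Δ := by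
    intro z
    refine le_trans ?_ (hΔ z)
    have : nb (UU F W J S) z ⊆ univ.filter fun z' => H.Adj z z' := by
      intro z' hz'
      have h2 := UU_edges hP subset_rfl _ (mem_nb.1 hz')
      exact Finset.mem_filter.2 ⟨Finset.mem_univ _, (SimpleGraph.mem_edgeSet H).1 h2⟩
    exact_mod_cast Finset.card_le_card this
  have hw := pinned_walk hP hxW hxJ hconn' hdeg hΔ1 hΔ'
  rw [hins] at hw
  have hg : 0 ≤ Real.log n + Real.log q := by
    have := Real.log_le_log (by norm_num) h1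
    rw [Real.log_one, Real.log_mul hn0.ne' hq0.ne'] at this
    exact this
  obtain ⟨hv, hex, hsum⟩ := excess_bound hP hG hq1 (fun u hu => hdeg u (Finset.mem_insert_of_mem hu)) hg
  -- the root count
  have hroots : ((roots F W J φ₁).card : ℝ) ≤ ((core F (W \ I) I).card : ℝ) + 1 := by
    have h2 : core F (W \ J) J ⊆ insert x (core F (W \ I) I) := by
      intro u hu
      obtain ⟨hu1, c, hc, hadj⟩ := Finset.mem_filter.1 hu
      obtain ⟨hu2, hu3⟩ := Finset.mem_sdiff.1 hu1
      by_cases hux : u = x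
      · rw [hux]
        exact Finset.mem_insert_self _ _
      · refine Finset.mem_insert_of_mem (Finset.mem_filter.2 ⟨Finset.mem_sdiff.2 ⟨hu2, ?_⟩,
          c, Finset.mem_of_mem_erase hc, hadj⟩)
        exact fun h => hu3 (Finset.mem_erase.2 ⟨hux, h⟩)
    have h3 : (roots F W J φ₁).card ≤ (core F (W \ I) I).card + 1 :=
      Finset.card_image_le.trans ((Finset.card_le_card h2).trans (Finset.card_insert_le _ _))
    exact_mod_cast h3
  set L := Real.log n with hL
  set lq := Real.log q with hlq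
  have hL0 : 0 ≤ L := Real.log_nonneg hn1
  have hQ1 : 1 ≤ - lq := by
    have := Real.log_le_log hq0 hqe
    rw [Real.log_exp] at this
    linarith
  set X := (UU F W J S).card - ((ZZ J S).card : ℝ) with hX
  set b : ℝ := ((core F (W \ I) I).card : ℝ) with hb
  have hb0 : 0 ≤ b := Nat.cast_nonneg _
  have hr0 : (0 : ℝ) ≤ ((roots F W J φ₁).card : ℝ) := Nat.cast_nonneg _
  have hXbound : X ≤ 2 * (b + 1) * (1 + (L + lq)) := by
    have h3 : X * (- lq) ≤ (2 * (b + 1) * (1 + (L + lq))) * (- lq) := by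
      calc X * (- lq) ≤ ((roots F W J φ₁).card : ℝ) * L * (1 + (L + lq)) := hex
        _ ≤ (b + 1) * (2 * (- lq)) * (1 + (L + lq)) := by
            gcongr
        _ = _ := by ring
    exact le_of_mul_le_mul_right h3 (by linarith)
  have hfinal : ((S.image (proj I)).card : ℝ) ≤
      Real.exp (2 * (2 * (b + 1) * (1 + (L + lq)))) * Δ ^ (2 + 4 * (eT F W I - I.card)) := by
    refine hw.trans ?_
    have hpow : (0 : ℝ) ≤ Δ ^ (2 + 4 * (eT F W I - I.card)) := by
      have : 0 < Δ := by linarith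
      positivity
    refine mul_le_mul_of_nonneg_right ?_ hpow
    apply Real.exp_le_exp.2
    linarith
  have hcard := card_image_proj_le (S := S) (I := I) (W := W) hIW (by
    intro φ hφ φ' hφ' z hz
    rw [hagree φ hφ z hz, hagree φ' hφ' z hz])
  have hcard' : ((S.image (proj W)).card : ℝ) ≤ (S.image (proj I)).card := by
    exact_mod_cast hcard
  exact hcard'.trans hfinal

end Vale.Agent.Lib.P064S
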