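import Vale.Agent.Lib.P064S.Base
import Vale.Agent.Lib.P064S.HPinned

/-!
The count of members through one pinned vertex.
-/

open Finset

namespace Vale.Agent.Lib.P064

open scoped Classical

variable {V α : Type} [Fintype V] [Fintype α] {F : SimpleGraph α}

/-- The general pinned count. -/
theorem pinned_general {E I : Finset α} (hdisj : Disjoint I E) {x : α} (hx : x ∈ I)
    (hconn : ∀ D : Finset α, D.Nonempty → D ⊆ I → D ≠ I → ∃ u ∈ D, ∃ v ∈ I \ D, F.Adj u v)
    (hdeg : ∀ w ∈ I, 2 ≤ dW F (E ∪ I) w) {xI : ℕ} (hm : (newE F E I).card = I.card + xI)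
    {S : Finset (α → V)} (hinj : ∀ φ ∈ S, Function.Injective φ)
    {φ₀ : α → V} (hagree : ∀ φ ∈ S, ∀ y ∈ insert x E, φ y = φ₀ y)
    {U : Finset (Sym2 V)} (hU : U = pinU F (insert x E) (I.erase x) S)
    {Z : Finset V} (hZ : Z = pinV F (insert x E) (I.erase x) φ₀ S \ pinR F (insert x E) (I.erase x) φ₀)
    (hZ2 : ∀ z ∈ Z, 2 ≤ udeg U z)
    {Ξ : ℝ} (hΞ : ∑ z ∈ Z, ((udeg U z : ℝ) - 2) ≤ Ξ)
    {Δ : ℝ} (hΔ1 : 1 ≤ Δ) (hΔ : ∀ z, (udeg U z : ℝ) ≤ Δ) :
    ((S.image (proj (E ∪ I))).card : ℝ) ≤ Real.exp Ξ * Δ ^ (4 * xI + 2) := by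
  have hIW : I ⊆ E ∪ I := Finset.subset_union_right
  set W := E ∪ I with hW
  set J := I.erase x with hJ
  have hins : insert x J = I := Finset.insert_erase hx
  have hxW : x ∈ W := hIW hx
  have hxJ : x ∉ J := Finset.notMem_erase _ _
  have hJW : J ⊆ W := (Finset.erase_subset _ _).trans hIW
  have hxE : x ∉ E := Finset.disjoint_left.1 hdisj hx
  have hWJ : W \ J = insert x E := by
    ext y
    simp only [hW, hJ, Finset.mem_sdiff, Finset.mem_union, Finset.mem_erase, Finset.mem_insert]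
    constructor
    · rintro ⟨h1 | h1, h2⟩
      · exact Or.inr h1
      · by_cases hyx : y = x
        · exact Or.inl hyx
        · exact absurd ⟨hyx, h1⟩ h2
    · rintro (h1 | h1)
      · subst h1
        exact ⟨Or.inr hx, fun h => h.1 rfl⟩
      · refine ⟨Or.inl h1, fun h => ?_⟩
        exact Finset.disjoint_left.1 hdisj h.2 h1
  have hWI : W \ I = E := by
    ext y
    simp only [hW, Finset.mem_sdiff, Finset.mem_union]
    constructor
    · rintro ⟨h1 | h1, h2⟩
      · exact h1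
      · exact absurd h1 h2
    · intro h
      exact ⟨Or.inl h, fun h2 => Finset.disjoint_left.1 hdisj h2 h⟩
  have hag : ∀ φ ∈ S, ∀ u ∈ W \ J, φ u = φ₀ u := by
    rw [hWJ]
    exact hagree
  have hconn' : ∀ D : Finset α, x ∈ D → D ⊆ insert x J → D ≠ insert x J →
      ∃ u ∈ D, ∃ v ∈ insert x J \ D, F.Adj u v := by
    intro D hxD hD hne
    rw [hins] at hD hne ⊢
    exact hconn D ⟨x, hxD⟩ hD hne
  have hdeg' : ∀ u ∈ insert x J, 2 ≤ (P064S.nbW F W u).card := by
    intro u hu
    rw [hins] at hu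
    have h1 := hdeg u hu
    have h2 : dW F W u = (P064S.nbW F W u).card := P064S.card_tI_single (hIW hu)
    rwa [h2] at h1
  have hU' : U = P064S.UU F W J S := by
    rw [hU]
    unfold pinU P064S.UU P064S.tI
    rw [hWJ]
  have hΔ' : ∀ z, ((P064S.nb (P064S.UU F W J S) z).card : ℝ) ≤ Δ := by
    intro z
    rw [← hU']
    exact hΔ z
  have hw := P064S.pinned_walk' hJW hinj hag hxW hxJ hconn' hdeg' hΔ1 hΔ'
  rw [hins, ← hU'] at hw
  have hZZ : P064S.ZZ J S = Z := by
    rw [hZ]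
    unfold pinV
    refine (Finset.union_sdiff_cancel_left ?_).symm
    rw [Finset.disjoint_left]
    intro z hz hz2
    obtain ⟨a, ha, rfl⟩ := Finset.mem_image.1 hz
    obtain ⟨φ, hφ, h2⟩ := Finset.mem_biUnion.1 hz2
    obtain ⟨b, hb, hab⟩ := Finset.mem_image.1 h2
    have haY : a ∈ insert x E := (Finset.mem_filter.1 ha).1
    rw [← hagree φ hφ a haY] at hab
    have := hinj φ hφ hab
    subst this
    rcases Finset.mem_insert.1 haY with h3 | h3
    · rw [h3] at hb
      exact hxJ hb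
    · exact Finset.disjoint_left.1 hdisj (Finset.mem_of_mem_erase hb) h3
  rw [hZZ] at hw
  have htI : (P064S.tI F W I).card = I.card + xI := by
    unfold P064S.tI
    rw [hWI]
    exact hm
  have hexp : 2 + 4 * ((P064S.tI F W I).card - I.card) = 4 * xI + 2 := by
    rw [htI]
    omega
  rw [hexp] at hw
  have hcard := P064S.card_image_proj_le (S := S) (I := I) (W := W) hIW (by
    intro φ hφ φ' hφ' z hz
    rw [hWI] at hz
    have hz' : z ∈ insert x E := Finset.mem_insert_of_mem hz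
    rw [hagree φ hφ z hz', hagree φ' hφ' z hz'])
  have hcard' : ((S.image (proj W)).card : ℝ) ≤ (S.image (proj I)).card := by
    exact_mod_cast hcard
  refine hcard'.trans (hw.trans ?_)
  have hΔ0 : 0 < Δ := by linarith
  exact mul_le_mul_of_nonneg_right (Real.exp_le_exp.2 hΞ) (by positivity)

end Vale.Agent.Lib.P064
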