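import Vale.Agent.Lib.P064S.CycleSame
import Vale.Agent.Lib.P064S.Excess
import Vale.Agent.Lib.P064S.Pinned
import Vale.Agent.Lib.P064S.Degree

/-!
A short closed cycle: all images through one pinned vertex have the same edges.
-/

open Finset

namespace Vale.Agent.Lib.P064

open scoped Classical

variable {V α : Type} [Fintype V] [Fintype α] {H : SimpleGraph V} {F : SimpleGraph α} {n : ℕ}
  {q : ℝ}

/-- The edges touching `I - x` above `E + x` are new edges above `E`. -/
private lemma newE_erase_subset {E I : Finset α} {x : α} (hx : x ∈ I) :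
    newE F (insert x E) (I.erase x) ⊆ newE F E I := by
  intro e he
  induction e using Sym2.ind with
  | _ u v =>
    obtain ⟨h1, h2, h3, h4⟩ := mem_newE_pair.1 he
    refine mem_newE_pair.2 ⟨h1, ?_, ?_, ?_⟩
    · rcases h2 with h | h
      · rcases Finset.mem_insert.1 h with h | h
        · subst h; exact Or.inr hx
        · exact Or.inl h
      · exact Or.inr (Finset.mem_of_mem_erase h)
    · rcases h3 with h | h
      · rcases Finset.mem_insert.1 h with h | h
        · subst h; exact Or.inr hx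
        · exact Or.inl h
      · exact Or.inr (Finset.mem_of_mem_erase h)
    · rintro ⟨h5, h6⟩
      exact h4 ⟨Finset.mem_insert_of_mem h5, Finset.mem_insert_of_mem h6⟩

/-- The degree of a vertex of `I` in `F[E ∪ I]` counts the edges at it. -/
private lemma card_nb_le_dW {W : Finset α} {u : α} (hu : u ∈ W) :
    (W.filter (fun v => F.Adj u v)).card ≤ dW F W u := by
  unfold dW eT
  refine Finset.card_le_card_of_injOn (fun v => s(u, v)) ?_ ?_
  · intro v hv
    have hv' := Finset.mem_filter.1 (Finset.mem_coe.1 hv)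
    have hne : v ≠ u := (F.ne_of_adj hv'.2).symm
    refine Finset.mem_coe.2 (mem_newE_pair.2 ⟨hv'.2, Or.inr (Finset.mem_singleton_self u), ?_, ?_⟩)
    · exact Or.inl (Finset.mem_sdiff.2 ⟨hv'.1, by simpa using hne⟩)
    · rintro ⟨h5, _⟩
      exact (Finset.mem_sdiff.1 h5).2 (Finset.mem_singleton_self u)
  · intro a ha b hb hab
    have hab' : s(u, a) = s(u, b) := hab
    rcases Sym2.eq_iff.1 hab' with h | h
    · exact h.2
    · rw [h.2, ← h.1]

/-- On a short closed cycle the pinned count is at most four. -/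
theorem cycle_pinned (hG : GoodDensity n q H) (hn : 1 ≤ n) (hq0 : 0 < q)
    (hqe : q ≤ Real.exp (-1)) (hD : 1 ≤ (n : ℝ) * q)
    {E I : Finset α} (hdisj : Disjoint I E) {x : α} (hx : x ∈ I)
    (hconn : ∀ D : Finset α, D.Nonempty → D ⊆ I → D ≠ I → ∃ u ∈ D, ∃ v ∈ I \ D, F.Adj u v)
    (hmin : ∀ J ⊆ I, J.Nonempty → J ≠ I → Low n q F (E ∪ I) J)
    (hdeg : ∀ w ∈ I, dW F (E ∪ I) w = 2)
    (hcore : core F E I = ∅)
    (hm : (newE F E I).card = I.card)
    (hsmall : ((n : ℝ) * q) ^ (2 * I.card) * q < 1)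
    {S : Finset (α → V)} (hinj : ∀ φ ∈ S, Function.Injective φ)
    (hhom : ∀ φ ∈ S, ∀ u v, F.Adj u v → H.Adj (φ u) (φ v))
    {φ₀ : α → V} (hagree : ∀ φ ∈ S, ∀ y ∈ insert x E, φ y = φ₀ y) :
    ((S.image (proj (E ∪ I))).card : ℝ) ≤ 4 := by
  by_cases hS : S.Nonempty
  swap
  · rw [Finset.not_nonempty_iff_eq_empty] at hS
    subst hS
    simp
  obtain ⟨φ₁, hφ₁⟩ := hS
  have hsame : ∀ φ ∈ S, (newE F E I).image (Sym2.map φ) = (newE F E I).image (Sym2.map φ₁) := by
    intro φ hφ
    refine cycle_same_edges hG hn hq0 hqe hD hdisj hx hmin hcore hm hsmall (hinj φ₁ hφ₁) (hinj φ hφ)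
      (hhom φ₁ hφ₁) (hhom φ hφ) ?_
    intro y hy
    rw [hagree φ₁ hφ₁ y hy, hagree φ hφ y hy]
  set Y := insert x E with hY
  set J := I.erase x with hJ
  set U := pinU F Y J S with hU
  set Z := pinV F Y J φ₀ S \ pinR F Y J φ₀ with hZ
  have hUsub : ∀ e ∈ U, e ∈ (newE F E I).image (Sym2.map φ₁) := by
    intro e he
    obtain ⟨φ, hφ, he'⟩ := Finset.mem_biUnion.1 he
    rw [← hsame φ hφ]
    obtain ⟨c, hc, rfl⟩ := Finset.mem_image.1 he'
    exact Finset.mem_image.2 ⟨c, newE_erase_subset hx hc, rfl⟩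
  have hYJ : Y ∪ J = E ∪ I := insert_union_erase hx
  have hdisjJ : Disjoint J Y := by
    rw [Finset.disjoint_left]
    intro a ha hb
    rcases Finset.mem_insert.1 hb with h | h
    · exact (Finset.mem_erase.1 ha).1 h
    · exact Finset.disjoint_left.1 hdisj (Finset.mem_of_mem_erase ha) h
  have hdegJ : ∀ w ∈ J, 2 ≤ dW F (Y ∪ J) w := by
    intro w hw
    rw [hYJ, hdeg w (Finset.mem_of_mem_erase hw)]
  have hZ2 : ∀ z ∈ Z, 2 ≤ udeg U z := fun z hz =>
    two_le_udeg hdisjJ hdegJ hinj hz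
  have hdisjs : ∀ u v, F.Adj u v → s(u, v) ∈ newE F E I → u ∈ I ∧ v ∈ I := by
    intro u v _ h
    obtain ⟨_, h2, h3, _⟩ := newE_spec h
    rw [hcore] at h2 h3
    simpa using And.intro h2 h3
  have hudeg : ∀ z, udeg U z ≤ 2 := by
    intro z
    by_cases hz : ∃ u ∈ I, φ₁ u = z
    · obtain ⟨u, hu, rfl⟩ := hz
      have h1 : (univ.filter fun b => s(φ₁ u, b) ∈ U) ⊆
          ((E ∪ I).filter (fun v => F.Adj u v)).image φ₁ := by
        intro b hb
        have hb' := hUsub _ (Finset.mem_filter.1 hb).2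
        obtain ⟨c, hc, hcb⟩ := Finset.mem_image.1 hb'
        induction c using Sym2.ind with
        | _ p r =>
          have hpr := (mem_newE_pair.1 hc).1
          obtain ⟨hp, hr⟩ := hdisjs p r hpr hc
          have hcb' : s(φ₁ p, φ₁ r) = s(φ₁ u, b) := hcb
          rcases Sym2.eq_iff.1 hcb' with ⟨h3, h4⟩ | ⟨h3, h4⟩
          · have := hinj φ₁ hφ₁ h3
            subst this
            exact Finset.mem_image.2 ⟨r, Finset.mem_filter.2
              ⟨Finset.mem_union_right _ hr, hpr⟩, h4⟩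
          · have := hinj φ₁ hφ₁ h4
            subst this
            exact Finset.mem_image.2 ⟨p, Finset.mem_filter.2
              ⟨Finset.mem_union_right _ hp, hpr.symm⟩, h3⟩
      calc udeg U (φ₁ u) ≤ (((E ∪ I).filter (fun v => F.Adj u v)).image φ₁).card :=
            Finset.card_le_card h1
        _ ≤ ((E ∪ I).filter (fun v => F.Adj u v)).card := Finset.card_image_le
        _ ≤ dW F (E ∪ I) u := card_nb_le_dW (Finset.mem_union_right _ hu)
        _ = 2 := hdeg u hu
    · have h0 : udeg U z = 0 := by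
        unfold udeg
        rw [Finset.card_eq_zero, Finset.filter_eq_empty_iff]
        intro b _ hb
        have hb' := hUsub _ hb
        obtain ⟨c, hc, hcb⟩ := Finset.mem_image.1 hb'
        induction c using Sym2.ind with
        | _ p r =>
          have hpr := (mem_newE_pair.1 hc).1
          obtain ⟨hp, hr⟩ := hdisjs p r hpr hc
          have hcb' : s(φ₁ p, φ₁ r) = s(z, b) := hcb
          rcases Sym2.eq_iff.1 hcb' with ⟨h3, _⟩ | ⟨_, h4⟩
          · exact hz ⟨p, hp, h3⟩
          · exact hz ⟨r, hr, h4⟩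
      omega
  have hΞ : ∑ z ∈ Z, ((udeg U z : ℝ) - 2) ≤ 0 := by
    refine Finset.sum_nonpos fun z _ => ?_
    have : (udeg U z : ℝ) ≤ 2 := by exact_mod_cast hudeg z
    linarith
  have hP := pinned_general (F := F) hdisj hx hconn
    (fun w hw => (hdeg w hw).ge) (xI := 0) (by simpa using hm) hinj hagree (U := U) hU
    (Z := Z) hZ hZ2 hΞ (Δ := 2) (by norm_num)
    (fun z => by exact_mod_cast hudeg z)
  norm_num at hP
  exact_mod_cast hP

end Vale.Agent.Lib.P064
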