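import Vale.Agent.Lib.P064S.LowProps

/-!
A short closed cycle: all images through one pinned vertex have the same edges.
-/

open Finset

namespace Vale.Agent.Lib.P064

open scoped Classical

variable {V α : Type} [Fintype V] [Fintype α] {H : SimpleGraph V} {F : SimpleGraph α} {n : ℕ}
  {q : ℝ}

/-- Two members through `(x, y)` on a short cycle have the same images of edges. -/
theorem cycle_same_edges (hG : GoodDensity n q H) (hn : 1 ≤ n) (hq0 : 0 < q)
    (hqe : q ≤ Real.exp (-1)) (hD : 1 ≤ (n : ℝ) * q)
    {E I : Finset α} (hdisj : Disjoint I E) {x : α} (hx : x ∈ I)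
    (hmin : ∀ J ⊆ I, J.Nonempty → J ≠ I → Low n q F (E ∪ I) J)
    (hcore : core F E I = ∅)
    (hm : (newE F E I).card = I.card)
    (hsmall : ((n : ℝ) * q) ^ (2 * I.card) * q < 1)
    {φ φ' : α → V} (hφ : Function.Injective φ) (hφ' : Function.Injective φ')
    (hhom : ∀ u v, F.Adj u v → H.Adj (φ u) (φ v))
    (hhom' : ∀ u v, F.Adj u v → H.Adj (φ' u) (φ' v))
    (hagree : ∀ y ∈ insert x E, φ y = φ' y) :
    (newE F E I).image (Sym2.map φ') = (newE F E I).image (Sym2.map φ) := by
  classical
  by_contra hne
  set N := newE F E I with hN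
  have hq1 : q ≤ 1 := hqe.trans (Real.exp_le_one_iff.2 (by norm_num))
  have hnI : ∀ u v, s(u, v) ∈ N → u ∈ I ∧ v ∈ I ∧ F.Adj u v := by
    intro u v h
    obtain ⟨h1, h2, h3, _⟩ := newE_spec h
    rw [hcore] at h2 h3
    simp only [Finset.notMem_empty, or_false] at h2 h3
    exact ⟨h2, h3, h1⟩
  set A := N.image (Sym2.map φ) with hA
  set B := N.image (Sym2.map φ') with hB
  have hAc : A.card = I.card := by
    rw [hA, Finset.card_image_of_injective _ (Sym2.map.injective hφ), hm]
  have hBc : B.card = I.card := by
    rw [hB, Finset.card_image_of_injective _ (Sym2.map.injective hφ'), hm]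
  have hnot : ¬ B ⊆ A := fun hsub =>
    hne (Finset.eq_of_subset_of_card_le hsub (by rw [hAc, hBc]))
  obtain ⟨e', he'B, he'A⟩ := Finset.not_subset.1 hnot
  set J' := I.filter (fun v => φ' v ∉ I.image φ) with hJ'
  have hJsub : J' ⊆ I := Finset.filter_subset _ _
  have hxJ : x ∉ J' := by
    intro h
    have h2 := (Finset.mem_filter.1 h).2
    apply h2
    rw [← hagree x (Finset.mem_insert_self _ _)]
    exact Finset.mem_image_of_mem _ hx
  have hJne : J' ≠ I := fun h => hxJ (h ▸ hx)
  -- elements of `A` have both ends in the image of `I`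
  have hAv : ∀ e ∈ A, ∀ z ∈ e, z ∈ I.image φ := by
    intro e he z hz
    obtain ⟨d, hd, rfl⟩ := Finset.mem_image.1 he
    induction d using Sym2.ind with
    | _ u v =>
      obtain ⟨hu, hv, _⟩ := hnI u v hd
      rw [Sym2.map_mk, Sym2.mem_iff] at hz
      rcases hz with rfl | rfl
      · exact Finset.mem_image_of_mem _ hu
      · exact Finset.mem_image_of_mem _ hv
  have hnew : J'.card + 1 ≤ (B \ A).card := by
    rcases J'.eq_empty_or_nonempty with h0 | hne'
    · rw [h0, Finset.card_empty, zero_add]
      exact Finset.card_pos.2 ⟨e', Finset.mem_sdiff.2 ⟨he'B, he'A⟩⟩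
    · have hlow := hmin J' hJsub hne' hJne
      have h1 := low_card_lt hq0 hqe hD hlow
      refine h1.trans ?_
      unfold eT
      rw [← Finset.card_image_of_injective _ (Sym2.map.injective hφ')]
      apply Finset.card_le_card
      intro d hd
      obtain ⟨c, hc, rfl⟩ := Finset.mem_image.1 hd
      induction c using Sym2.ind with
      | _ u v =>
        obtain ⟨h2, h3, h4, h5⟩ := mem_newE_pair.1 hc
        have hEI : ∀ w, (w ∈ (E ∪ I) \ J' ∨ w ∈ J') → w ∈ E ∨ w ∈ I := by
          intro w hw
          rcases hw with hw | hw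
          · exact Finset.mem_union.1 (Finset.mem_sdiff.1 hw).1
          · exact Or.inr (hJsub hw)
        have hinN : s(u, v) ∈ N := by
          refine mem_newE_pair.2 ⟨h2, hEI u h3, hEI v h4, ?_⟩
          rintro ⟨huE, hvE⟩
          exact h5 ⟨Finset.mem_sdiff.2 ⟨Finset.mem_union_left _ huE, fun huJ =>
              Finset.disjoint_left.1 hdisj (hJsub huJ) huE⟩,
            Finset.mem_sdiff.2 ⟨Finset.mem_union_left _ hvE, fun hvJ =>
              Finset.disjoint_left.1 hdisj (hJsub hvJ) hvE⟩⟩
        refine Finset.mem_sdiff.2 ⟨Finset.mem_image_of_mem _ hinN, ?_⟩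
        intro hinA
        have hw : ∃ w ∈ J', w = u ∨ w = v := by
          by_contra hcon
          push Not at hcon
          apply h5
          constructor
          · rcases h3 with h3 | h3
            · exact h3
            · exact absurd rfl (hcon u h3).1
          · rcases h4 with h4 | h4
            · exact h4
            · exact absurd rfl (hcon v h4).2
        obtain ⟨w, hwJ, hw⟩ := hw
        have hwA : φ' w ∈ I.image φ := by
          refine hAv _ hinA _ ?_
          rw [Sym2.map_mk, Sym2.mem_iff]
          rcases hw with rfl | rfl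
          · exact Or.inl rfl
          · exact Or.inr rfl
        exact (Finset.mem_filter.1 hwJ).2 hwA
  -- the union
  set T := A ∪ B with hT
  have hTc : I.card + (J'.card + 1) ≤ T.card := by
    have h1 : T = A ∪ (B \ A) := by
      rw [hT]
      ext e
      simp only [Finset.mem_union, Finset.mem_sdiff]
      tauto
    rw [h1, Finset.card_union_of_disjoint Finset.disjoint_sdiff, hAc]
    omega
  have hTe : ∀ e ∈ T, e ∈ H.edgeSet := by
    intro e he
    rcases Finset.mem_union.1 he with he | he
    · obtain ⟨d, hd, rfl⟩ := Finset.mem_image.1 he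
      induction d using Sym2.ind with
      | _ u v =>
        obtain ⟨_, _, hadj⟩ := hnI u v hd
        rw [Sym2.map_mk]
        exact (SimpleGraph.mem_edgeSet H).2 (hhom u v hadj)
    · obtain ⟨d, hd, rfl⟩ := Finset.mem_image.1 he
      induction d using Sym2.ind with
      | _ u v =>
        obtain ⟨_, _, hadj⟩ := hnI u v hd
        rw [Sym2.map_mk]
        exact (SimpleGraph.mem_edgeSet H).2 (hhom' u v hadj)
  have hTne : T.Nonempty := ⟨e', Finset.mem_union_right _ he'B⟩
  have hdens := density_of_good hG hq0 hq1 T hTe hTne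
  have hVc : (T.biUnion fun e => e.toFinset).card ≤ I.card + J'.card := by
    have hsub : (T.biUnion fun e => e.toFinset) ⊆ I.image φ ∪ J'.image φ' := by
      intro z hz
      obtain ⟨e, he, hze⟩ := Finset.mem_biUnion.1 hz
      have hze' : z ∈ e := Sym2.mem_toFinset.1 hze
      rcases Finset.mem_union.1 he with he | he
      · exact Finset.mem_union_left _ (hAv e he z hze')
      · obtain ⟨d, hd, rfl⟩ := Finset.mem_image.1 he
        induction d using Sym2.ind with
        | _ u v =>
          obtain ⟨hu, hv, _⟩ := hnI u v hd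
          rw [Sym2.map_mk, Sym2.mem_iff] at hze'
          have key : ∀ w ∈ I, φ' w ∈ I.image φ ∪ J'.image φ' := by
            intro w hw
            by_cases hwJ : φ' w ∈ I.image φ
            · exact Finset.mem_union_left _ hwJ
            · exact Finset.mem_union_right _ (Finset.mem_image_of_mem _
                (Finset.mem_filter.2 ⟨hw, hwJ⟩))
          rcases hze' with rfl | rfl
          · exact key u hu
          · exact key v hv
    refine (Finset.card_le_card hsub).trans ((Finset.card_union_le _ _).trans ?_)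
    exact add_le_add Finset.card_image_le Finset.card_image_le
  have hn1 : (1 : ℝ) ≤ n := by exact_mod_cast hn
  set a := I.card with ha
  set j := J'.card with hj
  have hja : j ≤ a := Finset.card_le_card hJsub
  have h1 : (1 : ℝ) ≤ (n : ℝ) ^ (a + j) * q ^ (a + j + 1) := by
    refine hdens.trans ?_
    apply mul_le_mul
    · exact pow_le_pow_right₀ hn1 hVc
    · exact pow_le_pow_of_le_one hq0.le hq1 (by omega)
    · positivity
    · positivity
  have h2 : (1 : ℝ) ≤ ((n : ℝ) * q) ^ (a + j) * q := by
    calc (1 : ℝ) ≤ _ := h1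
      _ = _ := by rw [mul_pow, pow_succ]; ring
  have h3 : ((n : ℝ) * q) ^ (a + j) ≤ ((n : ℝ) * q) ^ (2 * a) :=
    pow_le_pow_right₀ hD (by omega)
  have h4 : ((n : ℝ) * q) ^ (a + j) * q ≤ ((n : ℝ) * q) ^ (2 * a) * q :=
    mul_le_mul_of_nonneg_right h3 hq0.le
  linarith

end Vale.Agent.Lib.P064
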