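import Vale.Agent.Lib.P064S.Main

/-!
The bound on embeddings.
-/

open Finset

namespace Vale.Agent.Lib.P064

open scoped Classical

variable {V α : Type} [Fintype V] [Fintype α] {H : SimpleGraph V} {F : SimpleGraph α} {n : ℕ}
  {q : ℝ}

/-- The embedding bound. -/
theorem embBound_sparse (hG : GoodDensity n q H) (hn : 2 ≤ n) (hV : Fintype.card V ≤ n)
    (hq0 : 0 < q) (hqe : q ≤ Real.exp (-1)) (hL4 : 4 ≤ Real.log n) (hD : 1 ≤ (n : ℝ) * q)
    (hD2 : (Real.exp 1 * ((n : ℝ) * q)) ^ 2 < n) :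
    EmbBound n H ((spA * Real.exp 1) ^ 2 * spK n q * q) := by
  intro β _ F hiso hvn
  have h := sp_main (α := β) (F := F) hG hn hV hq0 hqe hL4 hD hD2 (Fintype.card β) univ (emb F H)
    (by simp) (fun φ hφ => (mem_emb.1 hφ).1) (fun φ hφ => (mem_emb.1 hφ).2)
  have hcard : ((emb F H).image (proj (univ : Finset β))).card = (emb F H).card :=
    Finset.card_image_of_injective _ proj_univ_injective
  rw [hcard, Finset.card_univ] at h
  refine h.trans ?_
  set e := (eIn F univ).card with he
  set v := Fintype.card β with hv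
  have hve : v ≤ 2 * e := (vertices_le_darts hiso).trans darts_card_le
  have hnd := pow_le_exp_descFactorial hvn
  set d : ℝ := (n.descFactorial v : ℝ) with hd
  have hd0 : 0 ≤ d := Nat.cast_nonneg _
  set E := Real.exp 1 with hE
  have hE1 : 1 ≤ E := Real.one_le_exp (by norm_num)
  have hA1 : 1 ≤ spA := spA_one_le
  have hL0 : 0 ≤ Real.log n := by linarith
  have hnq0 : 0 < (n : ℝ) * q := by linarith
  have hK0 : 0 ≤ spK n q := by
    unfold spK
    have : 0 ≤ Real.log n / ((n : ℝ) * q) := div_nonneg hL0 hnq0.le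
    positivity
  have hb : (1 : ℝ) ≤ spA * E := by nlinarith
  have hpow : (spA * E) ^ v ≤ (spA * E) ^ (2 * e) := pow_le_pow_right₀ hb hve
  have hA0 : 0 ≤ spA := by linarith
  calc spA ^ v * spK n q ^ e * ((n : ℝ) ^ v * q ^ e)
      ≤ spA ^ v * spK n q ^ e * ((E ^ v * d) * q ^ e) := by
        gcongr
    _ = (spA * E) ^ v * (spK n q ^ e * q ^ e * d) := by
        rw [mul_pow]
        ring
    _ ≤ (spA * E) ^ (2 * e) * (spK n q ^ e * q ^ e * d) := by
        gcongr
    _ = ((spA * E) ^ 2 * spK n q * q) ^ e * d := by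
        rw [pow_mul (spA * E) 2 e, mul_pow, mul_pow]
        ring

end Vale.Agent.Lib.P064
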