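import Vale.Agent.Lib.P064S.Top

/-!
Properties of a minimal piece and the cover count.
-/

open Finset

namespace Vale.Agent.Lib.P064S

open Vale.Agent.Lib.P064

open scoped Classical

variable {V α : Type} [Fintype V] [Fintype α] {H : SimpleGraph V} {F : SimpleGraph α} {n : ℕ}
  {q : ℝ}

/-- Membership in the edges of `F[W]` touching `J`. -/
lemma mem_newE_touch {W J : Finset α} (hJ : J ⊆ W) {u v : α} :
    s(u, v) ∈ newE F (W \ J) J ↔ F.Adj u v ∧ u ∈ W ∧ v ∈ W ∧ (u ∈ J ∨ v ∈ J) := by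
  rw [mem_newE_pair]
  simp only [Finset.mem_sdiff]
  constructor
  · rintro ⟨h1, h2, h3, h4⟩
    refine ⟨h1, ?_, ?_, ?_⟩
    · rcases h2 with h | h
      · exact h.1
      · exact hJ h
    · rcases h3 with h | h
      · exact h.1
      · exact hJ h
    · by_contra hcon
      push Not at hcon
      apply h4
      constructor
      · rcases h2 with h | h
        · exact h
        · exact absurd h hcon.1
      · rcases h3 with h | h
        · exact h
        · exact absurd h hcon.2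
  · rintro ⟨h1, h2, h3, h4⟩
    refine ⟨h1, ?_, ?_, ?_⟩
    · by_cases hu : u ∈ J
      · exact Or.inr hu
      · exact Or.inl ⟨h2, hu⟩
    · by_cases hv : v ∈ J
      · exact Or.inr hv
      · exact Or.inl ⟨h3, hv⟩
    · rintro ⟨⟨_, h5⟩, ⟨_, h6⟩⟩
      rcases h4 with h | h
      · exact h5 h
      · exact h6 h

/-- (e): a low set has more edges than vertices. -/
lemma low_edges {W J : Finset α} (hq0 : 0 < q) (heq : Real.exp 1 * q ≤ 1)
    (hD : 1 ≤ Real.exp 1 * ((n : ℝ) * q)) (hlow : tau1 n q F W J < 1) :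
    J.card + 1 ≤ eT F W J := by
  by_contra hcon
  have hle : eT F W J ≤ J.card := by omega
  apply absurd hlow
  rw [not_lt]
  unfold tau1
  have h0 : 0 ≤ Real.exp 1 * q := by positivity
  calc (1 : ℝ) ≤ (Real.exp 1 * ((n : ℝ) * q)) ^ J.card := one_le_pow₀ hD
    _ = (n : ℝ) ^ J.card * (Real.exp 1 * q) ^ J.card := by
        rw [← mul_pow]
        ring_nf
    _ ≤ _ := by
        apply mul_le_mul_of_nonneg_left (pow_le_pow_of_le_one h0 heq hle) (by positivity)

/-- (b): a minimal piece is connected. -/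
lemma piece_conn {W I : Finset α} (hIW : I ⊆ W) (hq0 : 0 < q) (heq : Real.exp 1 * q ≤ 1)
    (hI : 1 ≤ tau1 n q F W I) (hlow : ∀ J, J ⊂ I → J.Nonempty → tau1 n q F W J < 1)
    {D : Finset α} (hD : D ⊂ I) (hne : D.Nonempty) :
    ∃ u ∈ D, ∃ v ∈ I \ D, F.Adj u v := by
  by_contra hcon
  push Not at hcon
  have hDW : D ⊆ W := hD.subset.trans hIW
  set D' := I \ D with hD'
  have hD'W : D' ⊆ W := Finset.sdiff_subset.trans hIW
  have hD'ss : D' ⊂ I := by
    refine ⟨Finset.sdiff_subset, ?_⟩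
    obtain ⟨z, hz⟩ := hne
    intro h
    exact (Finset.mem_sdiff.1 (h (hD.subset hz))).2 hz
  have hD'ne : D'.Nonempty := by
    obtain ⟨z, hz, hz'⟩ := Finset.exists_of_ssubset hD
    exact ⟨z, Finset.mem_sdiff.2 ⟨hz, hz'⟩⟩
  have h1 := hlow D hD hne
  have h2 := hlow D' hD'ss hD'ne
  have hdisj : Disjoint (newE F (W \ D) D) (newE F (W \ D') D') := by
    rw [Finset.disjoint_left]
    intro e he he'
    induction e using Sym2.ind with
    | _ u v =>
      obtain ⟨h3, _, _, h4⟩ := (mem_newE_touch hDW).1 he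
      obtain ⟨_, _, _, h5⟩ := (mem_newE_touch hD'W).1 he'
      rcases h4 with h4 | h4 <;> rcases h5 with h5 | h5
      · exact (Finset.mem_sdiff.1 h5).2 h4
      · exact hcon u h4 v h5 h3
      · exact hcon v h4 u h5 h3.symm
      · exact (Finset.mem_sdiff.1 h5).2 h4
  have hsub : newE F (W \ D) D ∪ newE F (W \ D') D' ⊆ newE F (W \ I) I := by
    intro e he
    induction e using Sym2.ind with
    | _ u v =>
      rw [mem_newE_touch hIW]
      rcases Finset.mem_union.1 he with he | he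
      · obtain ⟨h3, h4, h5, h6⟩ := (mem_newE_touch hDW).1 he
        refine ⟨h3, h4, h5, ?_⟩
        rcases h6 with h6 | h6
        · exact Or.inl (hD.subset h6)
        · exact Or.inr (hD.subset h6)
      · obtain ⟨h3, h4, h5, h6⟩ := (mem_newE_touch hD'W).1 he
        refine ⟨h3, h4, h5, ?_⟩
        rcases h6 with h6 | h6
        · exact Or.inl (Finset.mem_sdiff.1 h6).1
        · exact Or.inr (Finset.mem_sdiff.1 h6).1
  have hcard : eT F W D + eT F W D' ≤ eT F W I := by
    unfold eT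
    rw [← Finset.card_union_of_disjoint hdisj]
    exact Finset.card_le_card hsub
  have hcardI : I.card = D.card + D'.card := by
    rw [hD', Finset.card_sdiff_of_subset hD.subset]
    have := Finset.card_le_card hD.subset
    omega
  have h0 : 0 ≤ Real.exp 1 * q := by positivity
  have hmul : tau1 n q F W I ≤ tau1 n q F W D * tau1 n q F W D' := by
    unfold tau1
    calc (n : ℝ) ^ I.card * (Real.exp 1 * q) ^ eT F W I
        ≤ (n : ℝ) ^ I.card * (Real.exp 1 * q) ^ (eT F W D + eT F W D') :=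
          mul_le_mul_of_nonneg_left (pow_le_pow_of_le_one h0 heq hcard) (by positivity)
      _ = _ := by
          rw [hcardI, pow_add, pow_add]
          ring
  have h3 := tau1_nonneg (n := n) (F := F) hq0 W D
  have h4 := tau1_nonneg (n := n) (F := F) hq0 W D'
  have h5 : tau1 n q F W D * tau1 n q F W D' < 1 := by
    nlinarith
  linarith

/-- The edges of `I` are at least twice its vertices in degree count. -/
lemma sum_eT_single_le {W I : Finset α} (hIW : I ⊆ W) :
    ∑ z ∈ I, eT F W {z} ≤ 2 * eT F W I := by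
  have h1 := sum_newE_single_le (F := F) (W \ I) I
  have h2 : ∀ z ∈ I, (newE F ((W \ I) ∪ I.erase z) {z}).card = eT F W {z} := by
    intro z hz
    unfold eT
    have : (W \ I) ∪ I.erase z = W \ {z} := by
      ext y
      simp only [Finset.mem_union, Finset.mem_sdiff, Finset.mem_erase, Finset.mem_singleton]
      constructor
      · rintro (⟨h3, h4⟩ | ⟨h3, h4⟩)
        · refine ⟨h3, ?_⟩
          rintro rfl
          exact h4 hz
        · exact ⟨hIW h4, h3⟩
      · rintro ⟨h3, h4⟩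
        by_cases hy : y ∈ I
        · exact Or.inr ⟨h4, hy⟩
        · exact Or.inl ⟨h3, hy⟩
    rw [this]
  rw [Finset.sum_congr rfl h2] at h1
  exact h1

/-- (c): the edges touching a minimal piece with at least two vertices. -/
lemma piece_edges {W I : Finset α} (hIW : I ⊆ W) (hdeg : ∀ z ∈ I, 2 ≤ eT F W {z}) :
    I.card ≤ eT F W I := by
  have h1 := sum_eT_single_le (F := F) hIW
  have h2 : ∑ _z ∈ I, 2 ≤ ∑ z ∈ I, eT F W {z} := Finset.sum_le_sum hdeg
  simp only [Finset.sum_const, smul_eq_mul] at h2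
  omega

/-- (d): the attachments of a connected piece. -/
lemma piece_core {W I : Finset α} (hIW : I ⊆ W) (hI : I.Nonempty)
    (hconn : ∀ D, D ⊂ I → D.Nonempty → ∃ u ∈ D, ∃ v ∈ I \ D, F.Adj u v) :
    I.card + (core F (W \ I) I).card ≤ eT F W I + 1 := by
  let R : Finset (α × α) := univ.filter (fun p => F.Adj p.1 p.2 ∧ p.1 ∈ I ∧ p.2 ∈ I)
  have hb : IsBlock R (W \ I) I := by
    refine ⟨hI, Finset.disjoint_sdiff, ?_, ?_⟩
    · intro u v huv _
      exact Finset.mem_union_right _ (Finset.mem_filter.1 huv).2.2.2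
    · intro x hx D hxD hDI hDne
      obtain ⟨u, hu, v, hv, huv⟩ := hconn D (hDI.ssubset_of_ne hDne) ⟨x, hxD⟩
      refine ⟨u, hu, v, hv, Finset.mem_filter.2 ⟨mem_univ _, huv, hDI hu, (Finset.mem_sdiff.1 hv).1⟩⟩
  exact newE_card R (fun u v h => (Finset.mem_filter.1 h).2.1) hb

/-- The cover count. -/
lemma cover_pinned (hG : GoodDensity n q H) (hq0 : 0 < q) (hq1 : q ≤ 1) (hn : 1 ≤ n)
    {E I : Finset α} (hIne : I.Nonempty) (hdis : Disjoint I E)
    (S : Finset (α → V)) (hS : S.Nonempty) (hinj : ∀ φ ∈ S, Function.Injective φ)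
    (hhom : ∀ φ ∈ S, ∀ u v, F.Adj u v → H.Adj (φ u) (φ v))
    {φ₀ : α → V} (hagree : ∀ φ ∈ S, ∀ x ∈ E, φ x = φ₀ x)
    (hm : 1 ≤ (newE F E I).card) {P : ℝ} (hP0 : 0 ≤ P)
    (hP : ∀ x ∈ I, ∀ y, (((S.filter (fun φ => φ x = y)).image (proj (E ∪ I))).card : ℝ) ≤ P) :
    ∃ t : ℕ, 1 ≤ t ∧ ((t : ℝ) ≤ (core F E I).card * Real.log n ∨
        (t : ℝ) ≤ Real.exp 2 * ((n : ℝ) ^ I.card * q ^ (newE F E I).card)) ∧
      t * I.card ≤ Fintype.card V ∧
      ((S.image (proj (E ∪ I))).card : ℝ) ≤ I.card * (t * I.card) * P := by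
  have hn1 : (1 : ℝ) ≤ n := by exact_mod_cast hn
  have hn0 : (0 : ℝ) < n := by linarith
  obtain ⟨𝓜, hsub, hne𝓜, hdisj, hcov⟩ := exists_max_family S hS hIne
  obtain ⟨φ₁, hφ₁⟩ := hne𝓜
  have hag' : ∀ φ ∈ 𝓜, ∀ x ∈ E, φ x = φ₁ x := by
    intro φ hφ x hx
    rw [hagree φ (hsub hφ) x hx, hagree φ₁ (hsub hφ₁) x hx]
  have hfac := sun_factorial hG hq0 hq1 hIne hdis 𝓜 hφ₁ (fun φ hφ => hinj φ (hsub hφ))
    (fun φ hφ => hhom φ (hsub hφ)) hag' hdisj hm
  have hρ0 : 0 < (n : ℝ) ^ I.card * q ^ (newE F E I).card := by positivity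
  have ht1 : 1 ≤ 𝓜.card := Finset.card_pos.2 ⟨φ₁, hφ₁⟩
  refine ⟨𝓜.card, ht1, t_bound hn1 hρ0 ht1 hfac, ?_, ?_⟩
  · have h1 : (𝓜.biUnion fun φ => I.image φ).card = ∑ φ ∈ 𝓜, (I.image φ).card := by
      apply Finset.card_biUnion
      intro φ hφ φ' hφ' hne
      change Disjoint (I.image φ) (I.image φ')
      rw [Finset.disjoint_left]
      intro v hv hv'
      obtain ⟨x, hx, rfl⟩ := Finset.mem_image.1 hv
      obtain ⟨y, hy, hxy⟩ := Finset.mem_image.1 hv'
      exact hdisj φ hφ φ' hφ' hne x hx y hy hxy.symm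
    have h2 : ∑ φ ∈ 𝓜, (I.image φ).card = 𝓜.card * I.card := by
      rw [Finset.sum_congr rfl (fun φ hφ => Finset.card_image_of_injective I (hinj φ (hsub hφ)))]
      simp
    rw [← h2, ← h1]
    exact Finset.card_le_univ _
  · let Z : Finset V := 𝓜.biUnion (fun φ' => I.image φ')
    have hZ : Z.card ≤ 𝓜.card * I.card := by
      refine Finset.card_biUnion_le.trans ?_
      calc ∑ φ' ∈ 𝓜, (I.image φ').card ≤ ∑ _φ' ∈ 𝓜, I.card :=
            Finset.sum_le_sum fun _ _ => Finset.card_image_le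
        _ = 𝓜.card * I.card := by simp
    let Sx : α × V → Finset (α → V) := fun p => S.filter (fun φ => φ p.1 = p.2)
    have hcovS : S.image (proj (E ∪ I)) ⊆
        (I ×ˢ Z).biUnion (fun p => (Sx p).image (proj (E ∪ I))) := by
      intro ψ hψ
      obtain ⟨φ, hφ, rfl⟩ := Finset.mem_image.1 hψ
      obtain ⟨x, hx, φ', hφ', y, hy, hxy⟩ := hcov φ hφ
      refine Finset.mem_biUnion.2 ⟨(x, φ x), Finset.mem_product.2 ⟨hx, ?_⟩, ?_⟩
      · refine Finset.mem_biUnion.2 ⟨φ', hφ', ?_⟩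
        rw [hxy]
        exact Finset.mem_image_of_mem _ hy
      · exact Finset.mem_image_of_mem _ (Finset.mem_filter.2 ⟨hφ, rfl⟩)
    have h1 : ((S.image (proj (E ∪ I))).card : ℝ) ≤
        ∑ p ∈ I ×ˢ Z, (((Sx p).image (proj (E ∪ I))).card : ℝ) := by
      have := (Finset.card_le_card hcovS).trans Finset.card_biUnion_le
      exact_mod_cast this
    have h2 : ∑ p ∈ I ×ˢ Z, (((Sx p).image (proj (E ∪ I))).card : ℝ) ≤ ∑ _p ∈ I ×ˢ Z, P := by
      apply Finset.sum_le_sum
      rintro ⟨x, y⟩ hp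
      exact hP x (Finset.mem_product.1 hp).1 y
    have h3 : ∑ _p ∈ I ×ˢ Z, P = (I.card : ℝ) * Z.card * P := by
      simp [Finset.card_product]
    have h4 : (Z.card : ℝ) ≤ 𝓜.card * I.card := by exact_mod_cast hZ
    calc ((S.image (proj (E ∪ I))).card : ℝ) ≤ (I.card : ℝ) * Z.card * P := by
          rw [← h3]
          exact h1.trans h2
      _ ≤ _ := by
          gcongr

/-- A vertex which is alone in its piece. -/
lemma piece_singleton (hG : GoodDensity n q H) (hq0 : 0 < q) (hq1 : q ≤ 1) (hn : 1 ≤ n)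
    (hV : Fintype.card V ≤ n) (heq : Real.exp 1 * q ≤ 1)
    (hq2 : (n : ℝ) * (Real.exp 1 * q) ^ 2 < 1) {K : ℝ} (hK1 : 1 ≤ K)
    (hLK : Real.log n ≤ Real.exp 2 * K * ((n : ℝ) * q))
    {W : Finset α} {z : α} (hz : z ∈ W) (htau : 1 ≤ tau1 n q F W {z})
    (S : Finset (α → V)) (hinj : ∀ φ ∈ S, Function.Injective φ)
    (hhom : ∀ φ ∈ S, ∀ u v, F.Adj u v → H.Adj (φ u) (φ v))
    {φ₀ : α → V} (hagree : ∀ φ ∈ S, ∀ x ∈ W \ {z}, φ x = φ₀ x) :
    ((S.image (proj W)).card : ℝ) ≤
      Real.exp 2 * K ^ eT F W {z} * ((n : ℝ) * q ^ eT F W {z}) := by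
  have hn1 : (1 : ℝ) ≤ n := by exact_mod_cast hn
  have hn0 : (0 : ℝ) < n := by linarith
  have hzD : z ∉ W \ {z} := by simp
  have hU : (W \ {z}) ∪ {z} = W := Finset.sdiff_union_of_subset (Finset.singleton_subset_iff.2 hz)
  have h0 : 0 ≤ Real.exp 1 * q := by positivity
  have hd : eT F W {z} < 2 := by
    by_contra hcon
    push Not at hcon
    unfold tau1 at htau
    rw [Finset.card_singleton, pow_one] at htau
    have h1 : (Real.exp 1 * q) ^ eT F W {z} ≤ (Real.exp 1 * q) ^ 2 :=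
      pow_le_pow_of_le_one h0 heq hcon
    have h2 : (n : ℝ) * (Real.exp 1 * q) ^ eT F W {z} ≤ (n : ℝ) * (Real.exp 1 * q) ^ 2 :=
      mul_le_mul_of_nonneg_left h1 hn0.le
    linarith
  have hE2 : (1 : ℝ) ≤ Real.exp 2 := Real.one_le_exp (by norm_num)
  by_cases hd0 : eT F W {z} = 0
  · have h1 := peel_light (F := F) hG hq0 hq1 hn hV (A := Real.exp 2) le_rfl (κ := 1) le_rfl 1
      (fun d h1 h2 => absurd h2 (by omega)) hzD
      (by
        have : (newE F (W \ {z}) {z}).card = 0 := hd0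
        omega) S hinj hhom hagree
    rw [hU] at h1
    have h2 : (newE F (W \ {z}) {z}).card = eT F W {z} := rfl
    rw [h2, hd0] at h1
    rw [hd0]
    simpa using h1
  · have hd1 : eT F W {z} = 1 := by omega
    have hA : Real.exp 2 ≤ Real.exp 2 * K := by nlinarith
    have h1 := peel_light (F := F) hG hq0 hq1 hn hV (A := Real.exp 2 * K) hA (κ := 1) le_rfl 2
      (by
        intro d h1 h2
        have hd' : d = 1 := by omega
        subst hd'
        simpa using hLK) hzD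
      (by
        have h2 : (newE F (W \ {z}) {z}).card = eT F W {z} := rfl
        omega) S hinj hhom hagree
    rw [hU] at h1
    have h2 : (newE F (W \ {z}) {z}).card = eT F W {z} := rfl
    rw [h2, hd1] at h1
    rw [hd1]
    simpa using h1

end Vale.Agent.Lib.P064S
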