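import Vale.Agent.Lib.P064S.Num

/-!
The count over a minimal set, numerics.
-/

open Finset

namespace Vale.Agent.Lib.P064

open scoped Classical

variable {n : ℕ} {q : ℝ}

/-- The base numerics: the factor `a ^ 2` and the power of `spK` in terms of `κ`. -/
private lemma exp_mul_kap_le (hD : 1 ≤ (n : ℝ) * q) (hL : 0 ≤ Real.log n) (hQ : 1 < - Real.log q)
    (a : ℕ) : Real.exp (a * spKap n q) ≤ spK n q ^ a := by
  have hk := spKap_nonneg hD hL hQ
  have hnq : 0 < (n : ℝ) * q := by linarith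
  have h1 : Real.exp (a * spKap n q) = Real.exp (spKap n q) ^ a := by
    rw [← Real.exp_nat_mul]
  rw [h1]
  apply pow_le_pow_left₀ (Real.exp_pos _).le
  unfold spK
  have he : (1 : ℝ) ≤ Real.exp 1 := Real.one_le_exp (by norm_num)
  have hfr : 0 ≤ Real.log n / ((n : ℝ) * q) := div_nonneg hL hnq.le
  have h2 : Real.exp (spKap n q) ≤ Real.exp (2 * spKap n q) := by
    apply Real.exp_le_exp.2
    linarith
  have h3 : (1 : ℝ) ≤ Real.exp 1 * (1 + Real.log n / ((n : ℝ) * q)) := by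
    nlinarith
  have h4 : 0 < Real.exp (2 * spKap n q) := Real.exp_pos _
  nlinarith

private lemma sq_mul_le_pow {a : ℕ} (ha : 1 ≤ a) : ((a : ℝ)) ^ 2 * Real.exp 2 ≤ spA ^ a := by
  have h1 := sq_le_four_pow a
  have hE : (1 : ℝ) ≤ Real.exp 2 := Real.one_le_exp (by norm_num)
  have h2 : Real.exp 2 ≤ Real.exp 2 ^ a := by
    calc Real.exp 2 = Real.exp 2 ^ 1 := (pow_one _).symm
      _ ≤ Real.exp 2 ^ a := pow_le_pow_right₀ hE ha
  have h3 : (4 : ℝ) ^ a ≤ 64 ^ a := pow_le_pow_left₀ (by norm_num) (by norm_num) _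
  unfold spA
  rw [mul_pow]
  have h4 : (0 : ℝ) ≤ (a : ℝ) ^ 2 := by positivity
  have h5 : (0 : ℝ) ≤ Real.exp 2 := by positivity
  have h6 : (0 : ℝ) ≤ Real.exp 2 ^ a := by positivity
  exact mul_le_mul (h1.trans h3) h2 h5 (by positivity)

/-- Final inequality, first alternative. -/
lemma sp_final_A (hD : 1 ≤ (n : ℝ) * q) (hL : 0 ≤ Real.log n) (hQ : 1 < - Real.log q)
    {a m t : ℕ} {ρ P : ℝ} (ha : 1 ≤ a) (ham : a ≤ m) (hρ : 0 ≤ ρ)
    (ht : (t : ℝ) ≤ Real.exp 2 * ρ) (hP : P ≤ Real.exp (a * spKap n q)) (hP0 : 0 ≤ P) :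
    (a : ℝ) * (t * a) * P ≤ spA ^ a * spK n q ^ m * ρ := by
  have hK1 := one_le_spK hD hL hQ
  have hK0 : 0 < spK n q := by linarith
  have h1 := exp_mul_kap_le hD hL hQ a
  have h2 := sq_mul_le_pow ha
  have hP2 : P ≤ spK n q ^ m := hP.trans (h1.trans (pow_le_pow_right₀ hK1 ham))
  have hA0 : (0 : ℝ) ≤ spA ^ a := by
    have := spA_one_le
    positivity
  calc (a : ℝ) * (t * a) * P = ((a : ℝ) ^ 2 * t) * P := by ring
    _ ≤ ((a : ℝ) ^ 2 * (Real.exp 2 * ρ)) * P := by gcongr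
    _ = ((a : ℝ) ^ 2 * Real.exp 2) * P * ρ := by ring
    _ ≤ spA ^ a * spK n q ^ m * ρ := by
        apply mul_le_mul_of_nonneg_right _ hρ
        exact mul_le_mul h2 hP2 hP0 hA0

/-- Final inequality, second alternative. -/
lemma sp_final_B (hD : 1 ≤ (n : ℝ) * q) (hL4 : 4 ≤ Real.log n)
    (hQ2 : Real.log n / 2 ≤ - Real.log q)
    {a x b t : ℕ} {ρ P : ℝ} (ha : 1 ≤ a) (hx : 1 ≤ x) (hb : b ≤ x + 1) (hρ : 0 ≤ ρ)
    (hxa : (x : ℝ) * (- Real.log q - 1) ≤ a * (spG n q + 1))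
    (ht : (t : ℝ) ≤ b * Real.log n) (hP : P ≤ Real.exp (a * spKap n q)) (hP0 : 0 ≤ P)
    (hρ' : Real.exp (-((a + x : ℕ) : ℝ)) ≤ ρ) :
    (a : ℝ) * (t * a) * P ≤ spA ^ a * spK n q ^ (a + x) * ρ := by
  have hL0 : 0 ≤ Real.log n := by linarith
  have hQ : 1 < - Real.log q := by linarith
  have hQ1 : 0 < - Real.log q - 1 := by linarith
  have hnq : 0 < (n : ℝ) * q := by linarith
  have hg := spG_nonneg hD
  have hK1 := one_le_spK hD hL0 hQ
  have hK0 : 0 < spK n q := by linarith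
  have hk := spKap_nonneg hD hL0 hQ
  have hLam := spLam_nonneg hD hL0
  set L := Real.log n with hLdef
  have hlogL : 0 ≤ Real.log (L + 2) := Real.log_nonneg (by linarith)
  -- the excess against the exponent
  set M := 12 * (1 + spG n q) + 6 * spLam n q with hM
  have hM1 : 1 + Real.log (L + 2) ≤ M := by
    rw [hM]
    unfold spLam
    nlinarith
  have hkap : spKap n q = (spG n q + 1) * M / (- Real.log q - 1) := rfl
  have hax : (x : ℝ) * M ≤ a * spKap n q := by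
    rw [hkap]
    have h1 : (x : ℝ) ≤ a * (spG n q + 1) / (- Real.log q - 1) := by
      rw [le_div_iff₀ hQ1]
      exact hxa
    have hM0 : 0 ≤ M := by linarith
    calc (x : ℝ) * M ≤ (a * (spG n q + 1) / (- Real.log q - 1)) * M :=
          mul_le_mul_of_nonneg_right h1 hM0
      _ = _ := by ring
  have hx1 : (1 : ℝ) ≤ x := by exact_mod_cast hx
  have hexp : (x : ℝ) + Real.log (L + 2) ≤ a * spKap n q := by
    have : (x : ℝ) + Real.log (L + 2) ≤ (x : ℝ) * M := by nlinarith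
    linarith
  -- `b * L` is at most the exponential
  have hbL : (b : ℝ) * L ≤ Real.exp (a * spKap n q) := by
    have h1 : (b : ℝ) ≤ x + 1 := by exact_mod_cast hb
    have h2 : (x : ℝ) + 1 ≤ Real.exp x := by
      have := Real.add_one_le_exp (x : ℝ)
      linarith
    have h3 : Real.exp (Real.log (L + 2)) = L + 2 := Real.exp_log (by linarith)
    have h4 : Real.exp ((x : ℝ) + Real.log (L + 2)) ≤ Real.exp (a * spKap n q) :=
      Real.exp_le_exp.2 hexp
    rw [Real.exp_add, h3] at h4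
    have h5 : 0 < Real.exp (x : ℝ) := Real.exp_pos _
    calc (b : ℝ) * L ≤ Real.exp x * (L + 2) := by
          apply mul_le_mul (h1.trans h2) (by linarith) hL0 h5.le
      _ ≤ _ := h4
  -- the factor `exp m` from `ρ`
  set m := a + x with hmdef
  have hρ1 : 1 ≤ Real.exp (m : ℝ) * ρ := by
    have h1 := mul_le_mul_of_nonneg_left hρ' (Real.exp_pos (m : ℝ)).le
    rw [← Real.exp_add] at h1
    simpa using h1
  have hfr : 0 ≤ L / ((n : ℝ) * q) := div_nonneg hL0 hnq.le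
  have hE1 : (1 : ℝ) ≤ Real.exp 1 := Real.one_le_exp (by norm_num)
  have hK2 : Real.exp 1 * Real.exp (2 * spKap n q) ≤ spK n q := by
    unfold spK
    have h0 : 0 ≤ Real.exp 1 * Real.exp (2 * spKap n q) := by positivity
    calc Real.exp 1 * Real.exp (2 * spKap n q)
        = 1 * (Real.exp 1 * Real.exp (2 * spKap n q)) := (one_mul _).symm
      _ ≤ (1 + Real.log n / ((n : ℝ) * q)) * (Real.exp 1 * Real.exp (2 * spKap n q)) := by
          apply mul_le_mul_of_nonneg_right _ h0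
          linarith
      _ = _ := by ring
  have hma : a ≤ m := Nat.le_add_right _ _
  -- the power of `spK`
  have hpow : Real.exp (m : ℝ) * (Real.exp (a * spKap n q)) ^ 2 ≤ spK n q ^ m := by
    have h1 : Real.exp (m : ℝ) = Real.exp 1 ^ m := by
      rw [← Real.exp_nat_mul]
      simp
    have h2 : (Real.exp (a * spKap n q)) ^ 2 ≤ Real.exp (2 * spKap n q) ^ m := by
      rw [← Real.exp_nat_mul, ← Real.exp_nat_mul]
      apply Real.exp_le_exp.2
      have : (a : ℝ) ≤ m := by exact_mod_cast hma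
      push_cast
      nlinarith
    calc Real.exp (m : ℝ) * (Real.exp (a * spKap n q)) ^ 2
        ≤ Real.exp 1 ^ m * Real.exp (2 * spKap n q) ^ m := by
          rw [h1]
          exact mul_le_mul_of_nonneg_left h2 (by positivity)
      _ = (Real.exp 1 * Real.exp (2 * spKap n q)) ^ m := (mul_pow _ _ _).symm
      _ ≤ spK n q ^ m := pow_le_pow_left₀ (by positivity) hK2 _
  have hsq := sq_le_four_pow a
  have hA : (4 : ℝ) ^ a ≤ spA ^ a := by
    apply pow_le_pow_left₀ (by norm_num)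
    unfold spA
    have : (1 : ℝ) ≤ Real.exp 2 := Real.one_le_exp (by norm_num)
    linarith
  have hA0 : (0 : ℝ) ≤ (a : ℝ) ^ 2 := by positivity
  have hte : (t : ℝ) ≤ Real.exp (a * spKap n q) := ht.trans hbL
  have ht0 : (0 : ℝ) ≤ t := Nat.cast_nonneg _
  have hE0 : 0 < Real.exp (a * spKap n q) := Real.exp_pos _
  calc (a : ℝ) * (t * a) * P = (a : ℝ) ^ 2 * (t * P) := by ring
    _ ≤ (a : ℝ) ^ 2 * (Real.exp (a * spKap n q) * Real.exp (a * spKap n q)) := by
        apply mul_le_mul_of_nonneg_left _ hA0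
        exact mul_le_mul hte hP hP0 hE0.le
    _ = (a : ℝ) ^ 2 * (Real.exp (a * spKap n q)) ^ 2 := by ring
    _ ≤ (a : ℝ) ^ 2 * (Real.exp (a * spKap n q)) ^ 2 * (Real.exp (m : ℝ) * ρ) :=
        le_mul_of_one_le_right (by positivity) hρ1
    _ = (a : ℝ) ^ 2 * (Real.exp (m : ℝ) * (Real.exp (a * spKap n q)) ^ 2) * ρ := by ring
    _ ≤ spA ^ a * spK n q ^ m * ρ := by
        apply mul_le_mul_of_nonneg_right _ hρ
        exact mul_le_mul (hsq.trans hA) hpow (by positivity) (by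
          have := spA_one_le
          positivity)

/-- Final inequality, short cycle. -/
lemma sp_final_C (hD : 1 ≤ (n : ℝ) * q) (hL : 0 ≤ Real.log n) (hQ : 1 < - Real.log q)
    {a t : ℕ} {ρ P : ℝ} (ha : 1 ≤ a) (hρ : 0 ≤ ρ)
    (ht : (t : ℝ) ≤ Real.exp 2 * ρ) (hP : P ≤ 4) (hP0 : 0 ≤ P) :
    (a : ℝ) * (t * a) * P ≤ spA ^ a * spK n q ^ a * ρ := by
  have hK1 := one_le_spK hD hL hQ
  have hKa : (1 : ℝ) ≤ spK n q ^ a := one_le_pow₀ hK1
  have hsq := sq_le_four_pow a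
  have hE : (1 : ℝ) ≤ Real.exp 2 := Real.one_le_exp (by norm_num)
  have h2 : Real.exp 2 ≤ Real.exp 2 ^ a := by
    calc Real.exp 2 = Real.exp 2 ^ 1 := (pow_one _).symm
      _ ≤ Real.exp 2 ^ a := pow_le_pow_right₀ hE ha
  have h4 : (4 : ℝ) ≤ 4 ^ a := by
    calc (4 : ℝ) = 4 ^ 1 := (pow_one _).symm
      _ ≤ 4 ^ a := pow_le_pow_right₀ (by norm_num) ha
  have h16 : (4 : ℝ) ^ a * 4 ^ a ≤ 64 ^ a := by
    rw [← mul_pow]
    exact pow_le_pow_left₀ (by norm_num) (by norm_num) _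
  have hA : ((a : ℝ)) ^ 2 * 4 * Real.exp 2 ≤ spA ^ a := by
    unfold spA
    rw [mul_pow]
    have h5 : ((a : ℝ)) ^ 2 * 4 ≤ 64 ^ a := by
      calc ((a : ℝ)) ^ 2 * 4 ≤ 4 ^ a * 4 ^ a :=
            mul_le_mul hsq h4 (by norm_num) (by positivity)
        _ ≤ 64 ^ a := h16
    exact mul_le_mul h5 h2 (by positivity) (by positivity)
  have hA0 : (0 : ℝ) ≤ (a : ℝ) ^ 2 := by positivity
  have hA1 : (0 : ℝ) ≤ spA ^ a := by
    have := spA_one_le
    positivity
  calc (a : ℝ) * (t * a) * P = (a : ℝ) ^ 2 * t * P := by ring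
    _ ≤ (a : ℝ) ^ 2 * (Real.exp 2 * ρ) * 4 := by gcongr
    _ = ((a : ℝ) ^ 2 * 4 * Real.exp 2) * ρ := by ring
    _ ≤ spA ^ a * ρ := mul_le_mul_of_nonneg_right hA hρ
    _ ≤ spA ^ a * spK n q ^ a * ρ := by
        apply mul_le_mul_of_nonneg_right _ hρ
        exact le_mul_of_one_le_right hA1 hKa

end Vale.Agent.Lib.P064
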