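import Vale.Agent.Lib.P064S.Num

/-!
The pinned count, numerics.
-/

open Finset

namespace Vale.Agent.Lib.P064

open scoped Classical

variable {n : ℕ} {q : ℝ}

/-- The pinned count when the excess is positive. -/
lemma sp_P_large (hD : 1 ≤ (n : ℝ) * q) (hL : 0 ≤ Real.log n) (hQ : 1 < - Real.log q)
    {a x b : ℕ} (hx : 1 ≤ x) (hb : b ≤ x + 1)
    (hxa : (x : ℝ) * (- Real.log q - 1) ≤ a * (spG n q + 1)) :
    Real.exp (4 * ((b : ℝ) + 1) * (1 + spG n q)) * Real.exp (spLam n q) ^ (4 * x + 2) ≤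
      Real.exp (a * spKap n q) := by
  have hg := spG_nonneg hD
  have hlam := spLam_nonneg hD hL
  have hQ1 : 0 < - Real.log q - 1 := by linarith
  rw [← Real.exp_nat_mul, ← Real.exp_add]
  apply Real.exp_le_exp.2
  have hx1 : (1 : ℝ) ≤ x := by exact_mod_cast hx
  have hb1 : (b : ℝ) ≤ x + 1 := by exact_mod_cast hb
  have hW : 0 ≤ 12 * (1 + spG n q) + 6 * spLam n q := by positivity
  have h1 : 4 * ((b : ℝ) + 1) * (1 + spG n q) + ((4 * x + 2 : ℕ) : ℝ) * spLam n q ≤
      x * (12 * (1 + spG n q) + 6 * spLam n q) := by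
    push_cast
    have h2 : 4 * ((b : ℝ) + 1) * (1 + spG n q) ≤ 12 * x * (1 + spG n q) := by
      apply mul_le_mul_of_nonneg_right _ (by linarith)
      linarith
    have h3 : (4 * (x : ℝ) + 2) * spLam n q ≤ 6 * x * spLam n q := by
      apply mul_le_mul_of_nonneg_right _ hlam
      linarith
    nlinarith
  refine h1.trans ?_
  unfold spKap
  rw [mul_div_assoc', le_div_iff₀ hQ1]
  have h4 : (x : ℝ) * (- Real.log q - 1) * (12 * (1 + spG n q) + 6 * spLam n q) ≤
      (a * (spG n q + 1)) * (12 * (1 + spG n q) + 6 * spLam n q) :=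
    mul_le_mul_of_nonneg_right hxa hW
  nlinarith

/-- The pinned count on a long closed cycle. -/
lemma sp_P_cycle (hq0 : 0 < q) (hD : 1 ≤ (n : ℝ) * q) (hL : 0 ≤ Real.log n) (hQ : 1 < - Real.log q)
    {a : ℕ} (hlong : 1 ≤ ((n : ℝ) * q) ^ (2 * a) * q) :
    Real.exp (4 * (((0 : ℕ) : ℝ) + 1) * (1 + spG n q)) * Real.exp (spLam n q) ^ (4 * 0 + 2) ≤
      Real.exp (a * spKap n q) := by
  have hg := spG_nonneg hD
  have hlam := spLam_nonneg hD hL
  have hQ1 : 0 < - Real.log q - 1 := by linarith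
  have hnq : 0 < (n : ℝ) * q := by linarith
  have hlog : 0 ≤ ((2 * a : ℕ) : ℝ) * spG n q + Real.log q := by
    have h1 := Real.log_le_log one_pos hlong
    rw [Real.log_one, Real.log_mul (by positivity) hq0.ne', Real.log_pow] at h1
    exact h1
  have hag : - Real.log q ≤ 2 * (a : ℝ) * spG n q := by
    push_cast at hlog
    linarith
  rw [← Real.exp_nat_mul, ← Real.exp_add]
  apply Real.exp_le_exp.2
  have hW : 0 ≤ 12 * (1 + spG n q) + 6 * spLam n q := by positivity
  unfold spKap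
  rw [mul_div_assoc', le_div_iff₀ hQ1]
  push_cast
  simp only [zero_add, mul_one]
  have ha0 : (0 : ℝ) ≤ a := Nat.cast_nonneg _
  have h5 : - Real.log q - 1 ≤ 2 * ((a : ℝ) * (spG n q + 1)) := by nlinarith
  have h6 : (- Real.log q - 1) * (6 * (1 + spG n q) + 3 * spLam n q) ≤
      2 * ((a : ℝ) * (spG n q + 1)) * (6 * (1 + spG n q) + 3 * spLam n q) :=
    mul_le_mul_of_nonneg_right h5 (by positivity)
  have h7 : 0 ≤ (- Real.log q - 1) * (2 * (1 + spG n q) + spLam n q) := by positivity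
  nlinarith

end Vale.Agent.Lib.P064
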