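import Vale.Agent.Lib.P064S.Cycle
import Vale.Agent.Lib.P064S.Cover
import Vale.Agent.Lib.P064S.NumP
import Vale.Agent.Lib.P064S.NumF

/-!
The pinned bound for a minimal set.
-/

open Finset

namespace Vale.Agent.Lib.P064

open scoped Classical

variable {V α : Type} [Fintype V] [Fintype α] {H : SimpleGraph V} {F : SimpleGraph α} {n : ℕ}
  {q : ℝ}

/-- The pinned bound for a minimal set. -/
theorem sp_pinned (hG : GoodDensity n q H) (hn : 2 ≤ n) (hV : Fintype.card V ≤ n) (hq0 : 0 < q)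
    (hqe : q ≤ Real.exp (-1)) (hL : 0 ≤ Real.log n) (hD : 1 ≤ (n : ℝ) * q)
    (hQ : Real.log n / 2 ≤ - Real.log q)
    {E I : Finset α} (hdisj : Disjoint I E)
    (hconn : ∀ D : Finset α, D.Nonempty → D ⊆ I → D ≠ I → ∃ u ∈ D, ∃ v ∈ I \ D, F.Adj u v)
    (hmin : ∀ J ⊆ I, J.Nonempty → J ≠ I → Low n q F (E ∪ I) J)
    (hdeg : ∀ w ∈ I, 2 ≤ dW F (E ∪ I) w) {xI : ℕ} (hm : (newE F E I).card = I.card + xI)
    {S : Finset (α → V)} (hinj : ∀ φ ∈ S, Function.Injective φ)
    (hhom : ∀ φ ∈ S, ∀ u v, F.Adj u v → H.Adj (φ u) (φ v))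
    {φ₀ : α → V} (hagree : ∀ φ ∈ S, ∀ x ∈ E, φ x = φ₀ x) {x : α} (hx : x ∈ I) (y : V) :
    (((S.filter (fun φ => φ x = y)).image (proj (E ∪ I))).card : ℝ) ≤
      Real.exp (4 * (((core F E I).card : ℝ) + 1) * (1 + spG n q)) *
        Real.exp (spLam n q) ^ (4 * xI + 2) := by
  have hn' : 1 ≤ n := by omega
  have hq1 : q ≤ 1 := hqe.trans (by rw [Real.exp_le_one_iff]; norm_num)
  by_cases hS' : (S.filter (fun φ => φ x = y)).Nonempty
  swap
  · rw [Finset.not_nonempty_iff_eq_empty] at hS'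
    rw [hS']
    simp only [Finset.image_empty, Finset.card_empty, Nat.cast_zero]
    positivity
  obtain ⟨φ₁, hφ₁⟩ := hS'
  have hφ₁' := Finset.mem_filter.1 hφ₁
  have hinj' : ∀ φ ∈ S.filter (fun φ => φ x = y), Function.Injective φ :=
    fun φ hφ => hinj φ (Finset.mem_filter.1 hφ).1
  have hhom' : ∀ φ ∈ S.filter (fun φ => φ x = y), ∀ u v, F.Adj u v → H.Adj (φ u) (φ v) :=
    fun φ hφ => hhom φ (Finset.mem_filter.1 hφ).1
  have hag : ∀ φ ∈ S.filter (fun φ => φ x = y), ∀ y' ∈ insert x E, φ y' = φ₁ y' := by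
    intro φ hφ y' hy'
    have hφ' := Finset.mem_filter.1 hφ
    rcases Finset.mem_insert.1 hy' with rfl | hy''
    · rw [hφ'.2, hφ₁'.2]
    · rw [hagree φ hφ'.1 y' hy'', hagree φ₁ hφ₁'.1 y' hy'']
  have hJY : Disjoint (I.erase x) (insert x E) := by
    rw [Finset.disjoint_left]
    intro a ha hb
    rcases Finset.mem_insert.1 hb with rfl | h
    · exact (Finset.mem_erase.1 ha).1 rfl
    · exact Finset.disjoint_left.1 hdisj (Finset.mem_erase.1 ha).2 h
  have hlow : ∀ J' ⊆ I.erase x, J'.Nonempty → Low n q F (insert x E ∪ I.erase x) J' := by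
    intro J' hJ' hne
    rw [insert_union_erase hx]
    refine hmin J' (hJ'.trans (Finset.erase_subset _ _)) hne ?_
    intro h
    have h2 := hJ' (h ▸ hx)
    exact (Finset.mem_erase.1 h2).1 rfl
  have hdeg' : ∀ w ∈ I.erase x, 2 ≤ dW F (insert x E ∪ I.erase x) w := by
    intro w hw
    rw [insert_union_erase hx]
    exact hdeg w (Finset.mem_erase.1 hw).2
  have hex := pin_excess hG hn' hq0 hqe hD hQ hJY hlow hdeg' hinj' hhom' hag
  have hR := pinR_card_le (F := F) (φ₀ := φ₁) hx hdisj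
  have hg := spG_nonneg hD
  have hR' : ((pinR F (insert x E) (I.erase x) φ₁).card : ℝ) ≤ ((core F E I).card : ℝ) + 1 := by
    exact_mod_cast hR
  have hΞ : ∑ z ∈ pinV F (insert x E) (I.erase x) φ₁ (S.filter (fun φ => φ x = y)) \
        pinR F (insert x E) (I.erase x) φ₁,
        ((udeg (pinU F (insert x E) (I.erase x) (S.filter (fun φ => φ x = y))) z : ℝ) - 2) ≤
      4 * (((core F E I).card : ℝ) + 1) * (1 + spG n q) := by
    refine hex.trans ?_
    have h1 : 0 ≤ 1 + Real.log ((n : ℝ) * q) := by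
      have : 0 ≤ Real.log ((n : ℝ) * q) := hg
      linarith
    have h2 : 4 * ((pinR F (insert x E) (I.erase x) φ₁).card : ℝ) ≤
        4 * (((core F E I).card : ℝ) + 1) := by linarith
    exact mul_le_mul_of_nonneg_right h2 h1
  refine pinned_general hdisj hx hconn hdeg hm hinj' hag rfl rfl ?_ hΞ
    (Real.one_le_exp (spLam_nonneg hD hL)) ?_
  · intro z hz
    exact two_le_udeg hJY hdeg' hinj' hz
  · intro z
    have hU : ∀ e ∈ pinU F (insert x E) (I.erase x) (S.filter (fun φ => φ x = y)),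
        e ∈ H.edgeSet := by
      intro e he
      obtain ⟨φ, hφ, he'⟩ := Finset.mem_biUnion.1 he
      obtain ⟨e', he'', rfl⟩ := Finset.mem_image.1 he'
      induction e' using Sym2.ind with
      | _ u v =>
        have h1 := (newE_spec he'').1
        exact (SimpleGraph.mem_edgeSet H).2 (hhom' φ hφ u v h1)
    have h1 := udeg_le_degree _ hU z
    have h2 := degree_bound hG hq0 hq1 hn' hV hD z
    have h3 := degree_le_exp_lam hD hL
    have h4 : ((udeg (pinU F (insert x E) (I.erase x) (S.filter (fun φ => φ x = y))) z : ℕ) : ℝ) ≤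
        (((univ : Finset V).filter (fun b => H.Adj z b)).card : ℝ) := by exact_mod_cast h1
    linarith

end Vale.Agent.Lib.P064
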