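import Vale.Agent.Lib.P064S.HPin

/-!
Degrees in the union of a pinned family, and the bound on the excess.
-/

open Finset

namespace Vale.Agent.Lib.P064S

open Vale.Agent.Lib.P064
open scoped Classical

variable {V α : Type} [Fintype V] [Fintype α] {F : SimpleGraph α} {H : SimpleGraph V} {n : ℕ}
  {q : ℝ} {W J : Finset α} {S : Finset (α → V)} {φ₁ : α → V}

/-- Neighbours in a set of edges. -/
noncomputable def nb (U : Finset (Sym2 V)) (z : V) : Finset V :=
  univ.filter (fun z' => s(z, z') ∈ U)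

/-- Neighbours of `u` in `F[W]`. -/
noncomputable def nbW (F : SimpleGraph α) (W : Finset α) (u : α) : Finset α :=
  W.filter (fun w => F.Adj u w)

lemma mem_nb {U : Finset (Sym2 V)} {z z' : V} : z' ∈ nb U z ↔ s(z, z') ∈ U := by
  simp [nb]

lemma mem_nbW {u w : α} : w ∈ nbW F W u ↔ w ∈ W ∧ F.Adj u w := by
  simp [nbW]

/-- Degree sum in a set of edges. -/
lemma sum_card_nb_le (U : Finset (Sym2 V)) (Z : Finset V) :
    ∑ z ∈ Z, (nb U z).card ≤ 2 * U.card := by
  rw [← Finset.card_sigma]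
  have h1 := Finset.card_le_mul_card_image
    (f := fun p : (Σ _ : V, V) => s(p.1, p.2)) (Z.sigma (nb U)) 2 ?_
  · refine h1.trans (Nat.mul_le_mul_left _ (Finset.card_le_card ?_))
    intro e he
    obtain ⟨p, hp, rfl⟩ := Finset.mem_image.1 he
    exact mem_nb.1 (Finset.mem_sigma.1 hp).2
  · intro e he
    obtain ⟨p, _, rfl⟩ := Finset.mem_image.1 he
    obtain ⟨a, b⟩ := p
    have : (Z.sigma (nb U)).filter (fun p : (Σ _ : V, V) => s(p.1, p.2) = s(a, b)) ⊆
        {⟨a, b⟩, ⟨b, a⟩} := by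
      intro d hd
      obtain ⟨c, d'⟩ := d
      have h2 := (Finset.mem_filter.1 hd).2
      rcases Sym2.eq_iff.1 h2 with ⟨h3, h4⟩ | ⟨h3, h4⟩
      · subst h3 h4
        simp
      · subst h3 h4
        simp
    exact (Finset.card_le_card this).trans Finset.card_le_two

/-- The edges at `u`. -/
lemma card_tI_single {u : α} (hu : u ∈ W) :
    (tI F W {u}).card = (nbW F W u).card := by
  have hsub : ({u} : Finset α) ⊆ W := Finset.singleton_subset_iff.2 hu
  have h1 : tI F W {u} = (nbW F W u).image (fun w => s(u, w)) := by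
    ext e
    induction e using Sym2.ind with
    | _ a b =>
      rw [mem_tI_pair hsub, Finset.mem_image]
      simp only [Finset.mem_singleton]
      constructor
      · rintro ⟨h1, h2, h3, h4 | h4⟩
        · subst h4
          exact ⟨b, mem_nbW.2 ⟨h3, h1⟩, rfl⟩
        · subst h4
          exact ⟨a, mem_nbW.2 ⟨h2, h1.symm⟩, Sym2.eq_swap⟩
      · rintro ⟨w, hw, hs⟩
        obtain ⟨h2, h3⟩ := mem_nbW.1 hw
        rcases Sym2.eq_iff.1 hs with ⟨h4, h5⟩ | ⟨h4, h5⟩
        · subst h4 h5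
          exact ⟨h3, hu, h2, Or.inl rfl⟩
        · subst h4 h5
          exact ⟨h3.symm, h2, hu, Or.inr rfl⟩
  rw [h1, Finset.card_image_of_injective]
  intro a b h
  have h2 := Sym2.eq_iff.1 h
  rcases h2 with ⟨_, h3⟩ | ⟨h3, h4⟩
  · exact h3
  · rw [← h3, h4]

/-- Degree of the image of a vertex of `J`. -/
lemma card_nbW_le_nb' (hJW : J ⊆ W) {φ : α → V} (hφ : φ ∈ S) (hinj : Function.Injective φ)
    {u : α} (hu : u ∈ J) :
    (nbW F W u).card ≤ (nb (UU F W J S) (φ u)).card := by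
  have h1 : (nbW F W u).image φ ⊆ nb (UU F W J S) (φ u) := by
    intro z hz
    obtain ⟨w, hw, rfl⟩ := Finset.mem_image.1 hz
    obtain ⟨h2, h3⟩ := mem_nbW.1 hw
    refine mem_nb.2 (Finset.mem_biUnion.2 ⟨φ, hφ, Finset.mem_image.2 ⟨s(u, w), ?_, ?_⟩⟩)
    · exact (mem_tI_pair hJW).2 ⟨h3, hJW hu, h2, Or.inl hu⟩
    · rfl
  calc (nbW F W u).card = ((nbW F W u).image φ).card :=
        (Finset.card_image_of_injective _ hinj).symm
    _ ≤ _ := Finset.card_le_card h1

/-- Degree of the image of a vertex of `J`. -/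
lemma card_nbW_le_nb (hP : Pin n q F H W J S φ₁) {φ : α → V} (hφ : φ ∈ S) {u : α} (hu : u ∈ J) :
    (nbW F W u).card ≤ (nb (UU F W J S) (φ u)).card :=
  card_nbW_le_nb' hP.hJW hφ (hP.inj φ hφ) hu

/-- The roots are not hit by `J`. -/
lemma roots_disjoint_ZZ (hP : Pin n q F H W J S φ₁) :
    Disjoint (roots F W J φ₁) (ZZ J S) := by
  rw [Finset.disjoint_left]
  intro z hz hz2
  obtain ⟨a, ha, rfl⟩ := Finset.mem_image.1 hz
  obtain ⟨φ, hφ, h2⟩ := Finset.mem_biUnion.1 hz2
  obtain ⟨b, hb, hab⟩ := Finset.mem_image.1 h2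
  have haW : a ∈ W \ J := (Finset.mem_filter.1 ha).1
  rw [← hP.agree φ hφ a haW] at hab
  have := hP.inj φ hφ hab
  subst this
  exact (Finset.mem_sdiff.1 haW).2 hb

/-- The excess bound: with `E = |U|`, `v = |Z|`, `r = |roots|`, `L = log n`, `Q = -log q`,
`g = L - Q >= 0`: `v ≤ E` and `(E - v) Q ≤ r L (1 + g)`, and the degrees outside the roots sum to
at most `2 (E - v)` above `2` each. -/
theorem excess_bound (hP : Pin n q F H W J S φ₁) (hG : GoodDensity n q H) (hq1 : q ≤ 1)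
    (hdeg : ∀ u ∈ J, 2 ≤ (nbW F W u).card)
    (hg : 0 ≤ Real.log n + Real.log q) :
    ((ZZ J S).card : ℝ) ≤ (UU F W J S).card ∧
    (((UU F W J S).card : ℝ) - (ZZ J S).card) * (- Real.log q) ≤
      (roots F W J φ₁).card * Real.log n * (1 + (Real.log n + Real.log q)) ∧
    ∑ z ∈ ZZ J S, (((nb (UU F W J S) z).card : ℝ) - 2) ≤
      2 * (((UU F W J S).card : ℝ) - (ZZ J S).card) := by
  have hn1 : (1 : ℝ) ≤ n := by exact_mod_cast hP.n1
  have hn0 : (0 : ℝ) < n := by linarith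
  set U := UU F W J S with hU
  set Z := ZZ J S with hZ
  have hL0 : 0 ≤ Real.log n := Real.log_nonneg hn1
  have hsum : (∑ z ∈ Z, ((nb U z).card : ℝ)) ≤ 2 * U.card := by
    exact_mod_cast sum_card_nb_le U Z
  have hdZ : ∀ z ∈ Z, 2 ≤ (nb U z).card := by
    intro z hz
    obtain ⟨φ, hφ, h2⟩ := Finset.mem_biUnion.1 hz
    obtain ⟨b, hb, rfl⟩ := Finset.mem_image.1 h2
    exact (hdeg b hb).trans (card_nbW_le_nb hP hφ hb)
  have h2v : (2 : ℝ) * Z.card ≤ ∑ z ∈ Z, ((nb U z).card : ℝ) := by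
    have : (∑ z ∈ Z, (2 : ℝ)) ≤ ∑ z ∈ Z, ((nb U z).card : ℝ) := by
      apply Finset.sum_le_sum
      intro z hz
      exact_mod_cast hdZ z hz
    simpa [mul_comm] using this
  have hvE : (Z.card : ℝ) ≤ U.card := by linarith
  have hE := UU_card_le hP hG hq1 (T := S) subset_rfl
  have hdens := density_UU hP hG hq1 (T := S) subset_rfl
  have hVcard : (VV F W J φ₁ S).card ≤ (roots F W J φ₁).card + Z.card :=
    Finset.card_union_le _ _
  have hlog := Real.log_le_log (by norm_num) hdens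
  rw [Real.log_one, Real.log_mul (by positivity) (pow_ne_zero _ hP.q0.ne'),
    Real.log_pow, Real.log_pow] at hlog
  have hVcard' : ((VV F W J φ₁ S).card : ℝ) ≤ (roots F W J φ₁).card + Z.card := by
    exact_mod_cast hVcard
  set L := Real.log n with hL
  set lq := Real.log q with hlq
  set r : ℝ := ((roots F W J φ₁).card : ℝ) with hr
  have h3 : ((VV F W J φ₁ S).card : ℝ) * L ≤ (r + Z.card) * L :=
    mul_le_mul_of_nonneg_right hVcard' hL0
  have hrL : 0 ≤ r * L := by positivity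
  refine ⟨hvE, ?_, ?_⟩
  · have h4 : (Z.card : ℝ) * (L + lq) ≤ r * L * (L + lq) := by
      apply mul_le_mul_of_nonneg_right _ hg
      exact hvE.trans hE
    have h5 : 0 ≤ (r + Z.card) * L + (U.card : ℝ) * lq := by linarith
    nlinarith
  · have : ∑ z ∈ Z, (((nb U z).card : ℝ) - 2) = ∑ z ∈ Z, ((nb U z).card : ℝ) - 2 * Z.card := by
      rw [Finset.sum_sub_distrib]
      simp [mul_comm]
    rw [this]
    linarith

end Vale.Agent.Lib.P064S
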