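import Vale.Agent.Lib.P064.Emb

/-!
Pinned families: the union of the edges of a family of embeddings of a low piece, with one vertex
pinned, has few edges (potential argument), and few excess edges.
-/

open Finset

namespace Vale.Agent.Lib.P064S

open Vale.Agent.Lib.P064
open scoped Classical

variable {V α : Type} [Fintype V] [Fintype α] {F : SimpleGraph α} {H : SimpleGraph V} {n : ℕ}
  {q : ℝ} {W J : Finset α} {S : Finset (α → V)} {φ₁ : α → V}

/-- Edges of `F[W]` touching `J`. -/
noncomputable def tI (F : SimpleGraph α) (W J : Finset α) : Finset (Sym2 α) := newE F (W \ J) J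

lemma mem_tI_pair (hJ : J ⊆ W) {u v : α} :
    s(u, v) ∈ tI F W J ↔ F.Adj u v ∧ u ∈ W ∧ v ∈ W ∧ (u ∈ J ∨ v ∈ J) := by
  unfold tI
  rw [mem_newE_pair]
  simp only [Finset.mem_sdiff]
  constructor
  · rintro ⟨h1, h2, h3, h4⟩
    refine ⟨h1, ?_, ?_, ?_⟩
    · rcases h2 with h | h
      · exact h.1
      · exact hJ h
    · rcases h3 with h | h
      · exact h.1
      · exact hJ h
    · by_contra hcon
      push Not at hcon
      apply h4
      refine ⟨?_, ?_⟩
      · rcases h2 with h | h
        · exact h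
        · exact absurd h hcon.1
      · rcases h3 with h | h
        · exact h
        · exact absurd h hcon.2
  · rintro ⟨h1, h2, h3, h4⟩
    refine ⟨h1, ?_, ?_, ?_⟩
    · by_cases h : u ∈ J
      · exact Or.inr h
      · exact Or.inl ⟨h2, h⟩
    · by_cases h : v ∈ J
      · exact Or.inr h
      · exact Or.inl ⟨h3, h⟩
    · rintro ⟨⟨_, h5⟩, ⟨_, h6⟩⟩
      rcases h4 with h | h
      · exact h5 h
      · exact h6 h

lemma tI_empty : tI F W (∅ : Finset α) = ∅ := by
  ext e
  induction e using Sym2.ind with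
  | _ u v =>
    rw [mem_tI_pair (Finset.empty_subset _)]
    simp

/-- The pinned data. -/
structure Pin (n : ℕ) (q : ℝ) (F : SimpleGraph α) (H : SimpleGraph V) (W J : Finset α)
    (S : Finset (α → V)) (φ₁ : α → V) : Prop where
  hJW : J ⊆ W
  inj : ∀ φ ∈ S, Function.Injective φ
  hom : ∀ φ ∈ S, ∀ u v, F.Adj u v → H.Adj (φ u) (φ v)
  agree : ∀ φ ∈ S, ∀ u ∈ W \ J, φ u = φ₁ u
  low : ∀ J' ⊆ J, J'.Nonempty →
    (n : ℝ) ^ J'.card * (Real.exp 1 * q) ^ (tI F W J').card < 1
  n1 : 1 ≤ n
  q0 : 0 < q
  qe : Real.exp 1 * q ≤ 1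

/-- The roots: images of the attachments of `J`. -/
noncomputable def roots (F : SimpleGraph α) (W J : Finset α) (φ₁ : α → V) : Finset V :=
  (core F (W \ J) J).image φ₁

/-- The union of the edges. -/
noncomputable def UU (F : SimpleGraph α) (W J : Finset α) (T : Finset (α → V)) : Finset (Sym2 V) :=
  T.biUnion (fun φ => (tI F W J).image (Sym2.map φ))

/-- The non-root vertices. -/
noncomputable def ZZ (J : Finset α) (T : Finset (α → V)) : Finset V :=
  T.biUnion (fun φ => J.image φ)

/-- All vertices. -/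
noncomputable def VV (F : SimpleGraph α) (W J : Finset α) (φ₁ : α → V) (T : Finset (α → V)) :
    Finset V :=
  roots F W J φ₁ ∪ ZZ J T

lemma UU_insert (φ : α → V) (T : Finset (α → V)) :
    UU F W J (insert φ T) = (tI F W J).image (Sym2.map φ) ∪ UU F W J T := by
  unfold UU
  rw [Finset.biUnion_insert]

lemma ZZ_insert (φ : α → V) (T : Finset (α → V)) :
    ZZ J (insert φ T) = J.image φ ∪ ZZ J T := by
  unfold ZZ
  rw [Finset.biUnion_insert]

/-- Edges of the union live on its vertices. -/
lemma mem_VV_of_mem_UU (hP : Pin n q F H W J S φ₁) {T : Finset (α → V)} (hT : T ⊆ S)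
    {e : Sym2 V} (he : e ∈ UU F W J T) {z : V} (hz : z ∈ e) : z ∈ VV F W J φ₁ T := by
  obtain ⟨φ, hφ, he'⟩ := Finset.mem_biUnion.1 he
  obtain ⟨e', he'', rfl⟩ := Finset.mem_image.1 he'
  induction e' using Sym2.ind with
  | _ u v =>
    obtain ⟨h1, h2, h3, h4⟩ := (mem_tI_pair hP.hJW).1 he''
    have key : ∀ a b : α, F.Adj a b → a ∈ W → (a ∈ J ∨ b ∈ J) → φ a ∈ VV F W J φ₁ T := by
      intro a b hab haW hor
      by_cases ha : a ∈ J
      · exact Finset.mem_union_right _
          (Finset.mem_biUnion.2 ⟨φ, hφ, Finset.mem_image_of_mem _ ha⟩)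
      · have hb : b ∈ J := hor.resolve_left ha
        have ham : a ∈ W \ J := Finset.mem_sdiff.2 ⟨haW, ha⟩
        rw [hP.agree φ (hT hφ) a ham]
        refine Finset.mem_union_left _ (Finset.mem_image_of_mem _ ?_)
        exact Finset.mem_filter.2 ⟨ham, b, hb, hab.symm⟩
    rw [Sym2.map_mk, Sym2.mem_iff] at hz
    rcases hz with rfl | rfl
    · exact key u v h1 h2 h4
    · exact key v u h1.symm h3 h4.symm

/-- The potential inequality: inserting an embedding never increases it. -/
theorem potential (hP : Pin n q F H W J S φ₁) {T : Finset (α → V)} (hT : T ⊆ S) :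
    (n : ℝ) ^ (VV F W J φ₁ T).card * (Real.exp 1 * q) ^ (UU F W J T).card
      ≤ (n : ℝ) ^ (roots F W J φ₁).card := by
  have hn1 : (1 : ℝ) ≤ n := by exact_mod_cast hP.n1
  have hn0 : (0 : ℝ) < n := by linarith
  have heq0 : 0 < Real.exp 1 * q := mul_pos (Real.exp_pos _) hP.q0
  induction T using Finset.induction_on with
  | empty =>
    have h1 : VV F W J φ₁ (∅ : Finset (α → V)) = roots F W J φ₁ := by
      simp [VV, ZZ]
    have h2 : UU F W J (∅ : Finset (α → V)) = ∅ := by
      simp [UU]
    rw [h1, h2]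
    simp
  | insert φ T hφT ih =>
    have hTS : T ⊆ S := fun a ha => hT (Finset.mem_insert_of_mem ha)
    have hφS : φ ∈ S := hT (Finset.mem_insert_self _ _)
    have ih' := ih hTS
    have hinj := hP.inj φ hφS
    set J' := J.filter (fun v => φ v ∉ VV F W J φ₁ T) with hJ'
    have hJ'J : J' ⊆ J := Finset.filter_subset _ _
    -- vertices
    have hV : VV F W J φ₁ (insert φ T) = VV F W J φ₁ T ∪ J'.image φ := by
      ext z
      simp only [VV, ZZ_insert, Finset.mem_union, Finset.mem_image, hJ', Finset.mem_filter]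
      constructor
      · rintro (h | ⟨a, ha, rfl⟩ | h)
        · exact Or.inl (Or.inl h)
        · by_cases h2 : φ a ∈ roots F W J φ₁ ∪ ZZ J T
          · exact Or.inl (by simpa [Finset.mem_union] using h2)
          · exact Or.inr ⟨a, ⟨ha, by simpa [VV] using h2⟩, rfl⟩
        · exact Or.inl (Or.inr h)
      · rintro (h | ⟨a, ⟨ha, _⟩, rfl⟩)
        · rcases h with h | h
          · exact Or.inl h
          · exact Or.inr (Or.inr h)
        · exact Or.inr (Or.inl ⟨a, ha, rfl⟩)
    have hVdisj : Disjoint (VV F W J φ₁ T) (J'.image φ) := by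
      rw [Finset.disjoint_left]
      intro z hz hz2
      obtain ⟨a, ha, rfl⟩ := Finset.mem_image.1 hz2
      exact (Finset.mem_filter.1 ha).2 hz
    have hVcard : (VV F W J φ₁ (insert φ T)).card = (VV F W J φ₁ T).card + J'.card := by
      rw [hV, Finset.card_union_of_disjoint hVdisj, Finset.card_image_of_injective _ hinj]
    -- edges
    have hUsub : UU F W J T ∪ (tI F W J').image (Sym2.map φ) ⊆ UU F W J (insert φ T) := by
      rw [UU_insert]
      intro e he
      rcases Finset.mem_union.1 he with h | h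
      · exact Finset.mem_union_right _ h
      · obtain ⟨e', he', rfl⟩ := Finset.mem_image.1 h
        refine Finset.mem_union_left _ (Finset.mem_image_of_mem _ ?_)
        induction e' using Sym2.ind with
        | _ u v =>
          obtain ⟨h1, h2, h3, h4⟩ := (mem_tI_pair (hJ'J.trans hP.hJW)).1 he'
          refine (mem_tI_pair hP.hJW).2 ⟨h1, h2, h3, ?_⟩
          rcases h4 with h | h
          · exact Or.inl (hJ'J h)
          · exact Or.inr (hJ'J h)
    have hUdisj : Disjoint (UU F W J T) ((tI F W J').image (Sym2.map φ)) := by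
      rw [Finset.disjoint_left]
      intro e he he2
      obtain ⟨e', he', rfl⟩ := Finset.mem_image.1 he2
      induction e' using Sym2.ind with
      | _ u v =>
        obtain ⟨h1, h2, h3, h4⟩ := (mem_tI_pair (hJ'J.trans hP.hJW)).1 he'
        rw [Sym2.map_mk] at he
        rcases h4 with h | h
        · exact (Finset.mem_filter.1 h).2
            (mem_VV_of_mem_UU hP hTS he (by simp))
        · exact (Finset.mem_filter.1 h).2
            (mem_VV_of_mem_UU hP hTS he (by simp))
    have hUcard : (UU F W J T).card + (tI F W J').card ≤ (UU F W J (insert φ T)).card := by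
      have h1 := Finset.card_le_card hUsub
      rw [Finset.card_union_of_disjoint hUdisj,
        Finset.card_image_of_injective _ (Sym2.map.injective hinj)] at h1
      exact h1
    -- the step
    have hstep : (n : ℝ) ^ J'.card * (Real.exp 1 * q) ^ (tI F W J').card ≤ 1 := by
      by_cases hne : J'.Nonempty
      · exact (hP.low J' hJ'J hne).le
      · rw [Finset.not_nonempty_iff_eq_empty] at hne
        rw [hne, tI_empty]
        simp
    have hpow : (Real.exp 1 * q) ^ (UU F W J (insert φ T)).card ≤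
        (Real.exp 1 * q) ^ ((UU F W J T).card + (tI F W J').card) :=
      pow_le_pow_of_le_one heq0.le hP.qe hUcard
    calc (n : ℝ) ^ (VV F W J φ₁ (insert φ T)).card *
          (Real.exp 1 * q) ^ (UU F W J (insert φ T)).card
        ≤ (n : ℝ) ^ ((VV F W J φ₁ T).card + J'.card) *
          (Real.exp 1 * q) ^ ((UU F W J T).card + (tI F W J').card) := by
          rw [hVcard]
          exact mul_le_mul_of_nonneg_left hpow (by positivity)
      _ = ((n : ℝ) ^ (VV F W J φ₁ T).card * (Real.exp 1 * q) ^ (UU F W J T).card) *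
          ((n : ℝ) ^ J'.card * (Real.exp 1 * q) ^ (tI F W J').card) := by
          rw [pow_add, pow_add]
          ring
      _ ≤ ((n : ℝ) ^ (VV F W J φ₁ T).card * (Real.exp 1 * q) ^ (UU F W J T).card) * 1 :=
          mul_le_mul_of_nonneg_left hstep (by positivity)
      _ ≤ _ := by rw [mul_one]; exact ih'

/-- The edges of the union are edges of `H`. -/
lemma UU_edges (hP : Pin n q F H W J S φ₁) {T : Finset (α → V)} (hT : T ⊆ S) :
    ∀ e ∈ UU F W J T, e ∈ H.edgeSet := by
  intro e he
  obtain ⟨φ, hφ, he'⟩ := Finset.mem_biUnion.1 he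
  obtain ⟨e', he'', rfl⟩ := Finset.mem_image.1 he'
  induction e' using Sym2.ind with
  | _ u v =>
    obtain ⟨h1, _, _, _⟩ := (mem_tI_pair hP.hJW).1 he''
    rw [Sym2.map_mk]
    exact hP.hom φ (hT hφ) u v h1

/-- Density of the union. -/
lemma density_UU (hP : Pin n q F H W J S φ₁) (hG : GoodDensity n q H) (hq1 : q ≤ 1)
    {T : Finset (α → V)} (hT : T ⊆ S) :
    (1 : ℝ) ≤ (n : ℝ) ^ (VV F W J φ₁ T).card * q ^ (UU F W J T).card := by
  have hn1 : (1 : ℝ) ≤ n := by exact_mod_cast hP.n1
  by_cases hne : (UU F W J T).Nonempty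
  · have h1 := density_of_good hG hP.q0 hq1 (UU F W J T) (UU_edges hP hT) hne
    refine h1.trans ?_
    refine mul_le_mul_of_nonneg_right ?_ (pow_nonneg hP.q0.le _)
    refine pow_le_pow_right₀ hn1 (Finset.card_le_card ?_)
    intro z hz
    obtain ⟨e, he, hze⟩ := Finset.mem_biUnion.1 hz
    exact mem_VV_of_mem_UU hP hT he (by simpa using hze)
  · rw [Finset.not_nonempty_iff_eq_empty] at hne
    rw [hne]
    simp only [Finset.card_empty, pow_zero, mul_one]
    exact one_le_pow₀ hn1

/-- Few edges: `|U| ≤ r log n`. -/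
theorem UU_card_le (hP : Pin n q F H W J S φ₁) (hG : GoodDensity n q H) (hq1 : q ≤ 1)
    {T : Finset (α → V)} (hT : T ⊆ S) :
    ((UU F W J T).card : ℝ) ≤ (roots F W J φ₁).card * Real.log n := by
  have hn1 : (1 : ℝ) ≤ n := by exact_mod_cast hP.n1
  have hn0 : (0 : ℝ) < n := by linarith
  have h1 := potential hP hT
  have h2 := density_UU hP hG hq1 hT
  rw [mul_pow, mul_left_comm] at h1
  set E := (UU F W J T).card with hE
  set A := (n : ℝ) ^ (VV F W J φ₁ T).card * q ^ E with hA
  have h3 : Real.exp 1 ^ E ≤ (n : ℝ) ^ (roots F W J φ₁).card := by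
    have h4 : Real.exp 1 ^ E * 1 ≤ Real.exp 1 ^ E * A :=
      mul_le_mul_of_nonneg_left h2 (by positivity)
    rw [mul_one] at h4
    exact h4.trans h1
  have h5 := Real.log_le_log (by positivity) h3
  rw [Real.log_pow, Real.log_pow, Real.log_exp, mul_one] at h5
  exact h5

end Vale.Agent.Lib.P064S
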