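import Vale.Agent.Lib.P064S.HDegree

/-!
Walking over a spanning tree of a connected piece: the number of maps is at most the maximum over
the maps of the product of the numbers of candidates.
-/

open Finset

namespace Vale.Agent.Lib.P064S

open Vale.Agent.Lib.P064
open scoped Classical

variable {V α : Type} [Fintype V] [Fintype α] {F : SimpleGraph α}

/-- A growth order with parents. -/
def Chain (F : SimpleGraph α) (par : α → α) : Finset α → List α → Prop
  | _, [] => True
  | D, v :: r => v ∉ D ∧ par v ∈ D ∧ F.Adj (par v) v ∧ Chain F par (insert v D) r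

lemma Chain.not_mem {par : α → α} : ∀ {r : List α} {D : Finset α}, Chain F par D r →
    ∀ v ∈ D, v ∉ r
  | [], _, _, _, _ => by simp
  | a :: r, D, h, v, hv => by
    obtain ⟨h1, _, _, h4⟩ := h
    intro hmem
    rcases List.mem_cons.1 hmem with rfl | h5
    · exact h1 hv
    · exact Chain.not_mem h4 v (Finset.mem_insert_of_mem hv) h5

lemma Chain.congr {par par' : α → α} : ∀ {r : List α} {D : Finset α}, Chain F par D r →
    (∀ v ∈ r, par' v = par v) → Chain F par' D r
  | [], _, _, _ => by simp [Chain]
  | a :: r, D, h, h2 => by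
    obtain ⟨h1, h3, h4, h5⟩ := h
    refine ⟨h1, ?_, ?_, Chain.congr h5 (fun v hv => h2 v (List.mem_cons_of_mem _ hv))⟩
    · rw [h2 a List.mem_cons_self]
      exact h3
    · rw [h2 a List.mem_cons_self]
      exact h4

/-- Existence of a growth order for a connected piece. -/
lemma exists_chain {I : Finset α} {x : α}
    (hconn : ∀ D : Finset α, x ∈ D → D ⊆ I → D ≠ I → ∃ u ∈ D, ∃ v ∈ I \ D, F.Adj u v) :
    ∀ (k : ℕ) (D : Finset α), (I \ D).card = k → x ∈ D → D ⊆ I → ∀ par₀ : α → α,
      ∃ (par : α → α) (r : List α), (∀ u ∈ D, par u = par₀ u) ∧ Chain F par D r ∧ r.Nodup ∧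
        D ∪ r.toFinset = I := by
  intro k
  induction k with
  | zero =>
    intro D h0 hx hDI par₀
    have hDeq : D = I := by
      apply Finset.Subset.antisymm hDI
      intro y hy
      by_contra hyD
      have : y ∈ I \ D := Finset.mem_sdiff.2 ⟨hy, hyD⟩
      rw [Finset.card_eq_zero.1 h0] at this
      simp at this
    refine ⟨par₀, [], fun _ _ => rfl, trivial, List.nodup_nil, ?_⟩
    simp [hDeq]
  | succ k ih =>
    intro D h0 hx hDI par₀
    have hne : D ≠ I := by
      rintro rfl
      simp at h0
    obtain ⟨u, hu, v, hv, huv⟩ := hconn D hx hDI hne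
    obtain ⟨hvI, hvD⟩ := Finset.mem_sdiff.1 hv
    have hcard : (I \ insert v D).card = k := by
      have : I \ insert v D = (I \ D).erase v := by
        ext y
        simp only [Finset.mem_sdiff, Finset.mem_insert, Finset.mem_erase]
        tauto
      rw [this, Finset.card_erase_of_mem hv, h0]
      simp
    obtain ⟨par, r, h1, h2, h3, h4⟩ := ih (insert v D) hcard (Finset.mem_insert_of_mem hx)
      (Finset.insert_subset hvI hDI) (Function.update par₀ v u)
    have hpv : par v = u := by
      rw [h1 v (Finset.mem_insert_self _ _)]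
      simp
    refine ⟨par, v :: r, ?_, ⟨hvD, ?_, ?_, h2⟩, ?_, ?_⟩
    · intro w hw
      rw [h1 w (Finset.mem_insert_of_mem hw), Function.update_of_ne]
      rintro rfl
      exact hvD hw
    · rw [hpv]
      exact hu
    · rw [hpv]
      exact huv
    · exact List.nodup_cons.2 ⟨h2.not_mem v (Finset.mem_insert_self _ _), h3⟩
    · rw [← h4]
      ext y
      simp only [Finset.mem_union, Finset.mem_insert, List.mem_toFinset, List.mem_cons]
      tauto

/-- Parents stay in the set. -/
def ParInv (x : α) (par : α → α) (D : Finset α) : Prop := ∀ u ∈ D, u ≠ x → par u ∈ D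

lemma ParInv.insert {x : α} {par : α → α} {D : Finset α} (h : ParInv x par D) {v : α}
    (hv : par v ∈ D) : ParInv x par (insert v D) := by
  intro u hu hux
  rcases Finset.mem_insert.1 hu with rfl | h2
  · exact Finset.mem_insert_of_mem hv
  · exact Finset.mem_insert_of_mem (h u h2 hux)

lemma union_insert_toFinset (D : Finset α) (v : α) (r : List α) :
    D ∪ (v :: r).toFinset = insert v D ∪ r.toFinset := by
  ext y
  simp only [Finset.mem_union, Finset.mem_insert, List.mem_toFinset, List.mem_cons]
  tauto

/-- What a chain says about parents. -/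
lemma chain_facts {x : α} {par : α → α} : ∀ {r : List α} {D : Finset α}, ParInv x par D →
    Chain F par D r → ∀ v ∈ r, par v ∈ D ∪ r.toFinset ∧ F.Adj (par v) v ∧
      (par v ≠ x → par (par v) ∈ D ∪ r.toFinset ∧ par (par v) ≠ v)
  | [], _, _, _, _, hv => by simp at hv
  | a :: r, D, hI, h, v, hv => by
    obtain ⟨h1, h3, h4, h5⟩ := h
    rcases List.mem_cons.1 hv with rfl | hv2
    · refine ⟨Finset.mem_union_left _ h3, h4, fun hne => ⟨Finset.mem_union_left _ (hI _ h3 hne), ?_⟩⟩
      intro h6
      exact h1 (h6 ▸ hI _ h3 hne)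
    · have := chain_facts (x := x) (hI.insert h3) h5 v hv2
      rw [union_insert_toFinset]
      exact this


/-- Candidates for the image of `v`. -/
noncomputable def Cand (U : Finset (Sym2 V)) (par : α → α) (x v : α) (φ : α → V) : Finset V :=
  if par v = x then nb U (φ x) else (nb U (φ (par v))).erase (φ (par (par v)))

/-- The walk count. -/
theorem walk_count (U : Finset (Sym2 V)) (par : α → α) (x : α) :
    ∀ (r : List α) (D : Finset α) (S' : Finset (α → V)) (B : ℝ), ParInv x par D →
      Chain F par D r → x ∈ D →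
      (∀ φ ∈ S', ∀ φ' ∈ S', ∀ u ∈ D, φ u = φ' u) →
      (∀ φ ∈ S', ∀ v ∈ r, φ v ∈ Cand U par x v φ) → 0 ≤ B →
      (∀ φ ∈ S', (r.map (fun v => ((Cand U par x v φ).card : ℝ))).prod ≤ B) →
      ((S'.image (proj (D ∪ r.toFinset))).card : ℝ) ≤ B := by
  intro r
  induction r with
  | nil =>
    intro D S' B _ _ _ hag _ hB hprod
    by_cases hS : S'.Nonempty
    · obtain ⟨φ₀, hφ₀⟩ := hS
      have h1 : S'.image (proj (D ∪ ([] : List α).toFinset)) ⊆
          {proj (D ∪ ([] : List α).toFinset) φ₀} := by
        intro ψ hψ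
        obtain ⟨φ, hφ, rfl⟩ := Finset.mem_image.1 hψ
        rw [Finset.mem_singleton]
        funext y
        unfold proj
        by_cases hyD : y ∈ D
        · simp [hyD, hag φ hφ φ₀ hφ₀ y hyD]
        · simp [hyD]
      have h2 := Finset.card_le_card h1
      rw [Finset.card_singleton] at h2
      have h3 := hprod φ₀ hφ₀
      simp only [List.map_nil, List.prod_nil] at h3
      have h4 : ((S'.image (proj (D ∪ ([] : List α).toFinset))).card : ℝ) ≤ 1 := by
        exact_mod_cast h2
      linarith
    · rw [Finset.not_nonempty_iff_eq_empty] at hS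
      rw [hS]
      simpa using hB
  | cons v r ih =>
    intro D S' B hI hC hx hag hmem hB hprod
    by_cases hS : S'.Nonempty
    swap
    · rw [Finset.not_nonempty_iff_eq_empty] at hS
      rw [hS]
      simpa using hB
    obtain ⟨φ₀, hφ₀⟩ := hS
    obtain ⟨hvD, hpD, _, hC'⟩ := hC
    have hsame : ∀ φ ∈ S', Cand U par x v φ = Cand U par x v φ₀ := by
      intro φ hφ
      unfold Cand
      by_cases hp : par v = x
      · rw [if_pos hp, if_pos hp, hag φ hφ φ₀ hφ₀ x hx]
      · rw [if_neg hp, if_neg hp, hag φ hφ φ₀ hφ₀ _ hpD, hag φ hφ φ₀ hφ₀ _ (hI _ hpD hp)]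
    set Z := Cand U par x v φ₀ with hZ
    have hZmem : φ₀ v ∈ Z := hmem φ₀ hφ₀ v List.mem_cons_self
    have hZpos : (0 : ℝ) < Z.card := by
      exact_mod_cast Finset.card_pos.2 ⟨_, hZmem⟩
    set T : V → Finset (α → V) := fun b => S'.filter (fun φ => φ v = b) with hT
    have hTsub : ∀ b, T b ⊆ S' := fun b => Finset.filter_subset _ _
    have hIH : ∀ b ∈ Z, (((T b).image (proj (insert v D ∪ r.toFinset))).card : ℝ) ≤ B / Z.card := by
      intro b _
      apply ih (insert v D) (T b) (B / Z.card) (hI.insert hpD) hC' (Finset.mem_insert_of_mem hx)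
      · intro φ hφ φ' hφ' u hu
        rcases Finset.mem_insert.1 hu with rfl | h2
        · rw [(Finset.mem_filter.1 hφ).2, (Finset.mem_filter.1 hφ').2]
        · exact hag φ (hTsub b hφ) φ' (hTsub b hφ') u h2
      · intro φ hφ u hu
        exact hmem φ (hTsub b hφ) u (List.mem_cons_of_mem _ hu)
      · positivity
      · intro φ hφ
        have h1 := hprod φ (hTsub b hφ)
        rw [List.map_cons, List.prod_cons, hsame φ (hTsub b hφ)] at h1
        rw [le_div_iff₀ hZpos, mul_comm]
        exact h1
    have hsub : S'.image (proj (D ∪ (v :: r).toFinset)) ⊆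
        Z.biUnion (fun b => (T b).image (proj (insert v D ∪ r.toFinset))) := by
      intro ψ hψ
      obtain ⟨φ, hφ, rfl⟩ := Finset.mem_image.1 hψ
      rw [union_insert_toFinset]
      refine Finset.mem_biUnion.2 ⟨φ v, ?_, Finset.mem_image_of_mem _ ?_⟩
      · have h7 := hmem φ hφ v List.mem_cons_self
        rw [hsame φ hφ] at h7
        exact h7
      · exact Finset.mem_filter.2 ⟨hφ, rfl⟩
    have h1 : ((S'.image (proj (D ∪ (v :: r).toFinset))).card : ℝ) ≤
        ∑ b ∈ Z, (((T b).image (proj (insert v D ∪ r.toFinset))).card : ℝ) := by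
      have := (Finset.card_le_card hsub).trans Finset.card_biUnion_le
      exact_mod_cast this
    refine h1.trans ?_
    calc ∑ b ∈ Z, (((T b).image (proj (insert v D ∪ r.toFinset))).card : ℝ)
        ≤ ∑ _b ∈ Z, B / Z.card := Finset.sum_le_sum hIH
      _ = B := by
        rw [Finset.sum_const, nsmul_eq_mul]
        field_simp

end Vale.Agent.Lib.P064S
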