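import Vale.Agent.Lib.P064S.HWalk
import Vale.Agent.Lib.P064.Peel

/-!
The pinned count: the number of restrictions of a pinned family to a connected piece is at most
`exp (Sum_Z (d_U - 2)) * Delta ^ (2 + 4 x)`.
-/

open Finset

namespace Vale.Agent.Lib.P064S

open Vale.Agent.Lib.P064
open scoped Classical

variable {V α : Type} [Fintype V] [Fintype α] {F : SimpleGraph α} {H : SimpleGraph V} {n : ℕ}
  {q : ℝ} {W J : Finset α} {S : Finset (α → V)} {φ₁ : α → V}

/-- Sum of the degrees in `F[W]` over a piece. -/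
lemma sum_nbW_le {I : Finset α} (hIW : I ⊆ W) :
    ∑ z ∈ I, (nbW F W z).card ≤ 2 * (tI F W I).card := by
  have h1 := sum_newE_single_le (F := F) (W \ I) I
  have h2 : ∀ z ∈ I, (newE F ((W \ I) ∪ I.erase z) {z}).card = (nbW F W z).card := by
    intro z hz
    rw [← card_tI_single (hIW hz)]
    unfold tI
    congr 2
    ext y
    simp only [Finset.mem_union, Finset.mem_sdiff, Finset.mem_erase, Finset.mem_singleton]
    constructor
    · rintro (⟨h3, h4⟩ | ⟨h3, h4⟩)
      · refine ⟨h3, ?_⟩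
        rintro rfl
        exact h4 hz
      · exact ⟨hIW h4, h3⟩
    · rintro ⟨h3, h4⟩
      by_cases h5 : y ∈ I
      · exact Or.inr ⟨h4, h5⟩
      · exact Or.inl ⟨h3, h5⟩
  calc ∑ z ∈ I, (nbW F W z).card = ∑ z ∈ I, (newE F ((W \ I) ∪ I.erase z) {z}).card :=
        Finset.sum_congr rfl (fun z hz => (h2 z hz).symm)
    _ ≤ _ := h1

/-- The tree facts in usable form. -/
structure TreeFacts (F : SimpleGraph α) (W J : Finset α) (x : α) (par : α → α) : Prop where
  par_mem : ∀ v ∈ J, par v = x ∨ par v ∈ J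
  adj : ∀ v ∈ J, F.Adj (par v) v
  pp : ∀ v ∈ J, par v ≠ x → par (par v) ≠ v

/-- Children of `w`. -/
noncomputable def children (J : Finset α) (par : α → α) (w : α) : Finset α :=
  J.filter (fun v => par v = w)

lemma card_children_le {x : α} {par : α → α} (hT : TreeFacts F W J x par) (hJW : J ⊆ W)
    (w : α) : (children J par w).card ≤ (nbW F W w).card := by
  refine Finset.card_le_card ?_
  intro v hv
  obtain ⟨h1, h2⟩ := Finset.mem_filter.1 hv
  exact mem_nbW.2 ⟨hJW h1, h2 ▸ hT.adj v h1⟩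

lemma card_children_succ_le {x : α} {par : α → α} (hT : TreeFacts F W J x par) (hJW : J ⊆ W)
    (hxW : x ∈ W) (hxJ : x ∉ J) {w : α} (hw : w ∈ J) :
    (children J par w).card + 1 ≤ (nbW F W w).card := by
  have hnot : par w ∉ children J par w := by
    intro h
    obtain ⟨h1, h2⟩ := Finset.mem_filter.1 h
    have hne : par w ≠ x := by
      intro h3
      rw [h3] at h1
      exact hxJ h1
    exact hT.pp w hw hne h2
  rw [← Finset.card_insert_of_notMem hnot]
  refine Finset.card_le_card ?_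
  intro v hv
  rcases Finset.mem_insert.1 hv with rfl | hv2
  · refine mem_nbW.2 ⟨?_, (hT.adj w hw).symm⟩
    rcases hT.par_mem w hw with h | h
    · rw [h]
      exact hxW
    · exact hJW h
  · obtain ⟨h1, h2⟩ := Finset.mem_filter.1 hv2
    exact mem_nbW.2 ⟨hJW h1, h2 ▸ hT.adj v h1⟩

/-- The vertices with a branching parent are few. -/
lemma card_branch_le {x : α} {par : α → α} (hT : TreeFacts F W J x par) (hJW : J ⊆ W)
    (hxW : x ∈ W) (hxJ : x ∉ J)
    (hdeg : ∀ u ∈ insert x J, 2 ≤ (nbW F W u).card) :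
    (J.filter (fun v => ¬ (par v ≠ x ∧ (nbW F W (par v)).card = 2))).card +
        4 * (insert x J).card ≤ 2 + 4 * (tI F W (insert x J)).card := by
  set I := insert x J with hI
  have hIW : I ⊆ W := Finset.insert_subset hxW hJW
  set M := I.filter (fun w => w = x ∨ (nbW F W w).card ≠ 2) with hM
  have hsub : J.filter (fun v => ¬ (par v ≠ x ∧ (nbW F W (par v)).card = 2)) ⊆
      M.biUnion (children J par) := by
    intro v hv
    obtain ⟨h1, h2⟩ := Finset.mem_filter.1 hv
    refine Finset.mem_biUnion.2 ⟨par v, Finset.mem_filter.2 ⟨?_, ?_⟩, Finset.mem_filter.2 ⟨h1, rfl⟩⟩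
    · rcases hT.par_mem v h1 with h | h
      · rw [h]
        exact Finset.mem_insert_self _ _
      · exact Finset.mem_insert_of_mem h
    · by_contra hcon
      push Not at hcon
      exact h2 ⟨hcon.1, hcon.2⟩
  have h1 := (Finset.card_le_card hsub).trans Finset.card_biUnion_le
  have h2 : ∑ w ∈ M, (children J par w).card + 4 * I.card ≤
      2 + 2 * ∑ w ∈ I, (nbW F W w).card := by
    rw [hM, Finset.sum_filter]
    have h3 : ∀ w ∈ I, (if w = x ∨ (nbW F W w).card ≠ 2 then (children J par w).card else 0) + 4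
        ≤ 2 * (nbW F W w).card + (if w = x then 2 else 0) := by
      intro w hw
      have h4 := hdeg w hw
      by_cases hwx : w = x
      · have h5 := card_children_le hT hJW w
        simp only [hwx, true_or, if_true]
        rw [hwx] at h4 h5
        omega
      · have hwJ : w ∈ J := (Finset.mem_insert.1 hw).resolve_left hwx
        have h5 := card_children_succ_le hT hJW hxW hxJ hwJ
        simp only [hwx, false_or, if_false]
        by_cases h6 : (nbW F W w).card = 2
        · simp only [h6, ne_eq, not_true_eq_false, if_false]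
          omega
        · simp only [h6, ne_eq, not_false_eq_true, if_true]
          omega
    have h4 := Finset.sum_le_sum h3
    rw [Finset.sum_add_distrib, Finset.sum_add_distrib, Finset.sum_const, smul_eq_mul,
      Finset.sum_ite_eq' I x, if_pos (Finset.mem_insert_self x J), ← Finset.mul_sum] at h4
    omega
  have h3 := sum_nbW_le (F := F) (W := W) hIW
  omega

/-- The main walk bound. -/
theorem pinned_walk' (hJW : J ⊆ W) (hinj : ∀ φ ∈ S, Function.Injective φ)
    (hagree : ∀ φ ∈ S, ∀ u ∈ W \ J, φ u = φ₁ u) {x : α} (hxW : x ∈ W) (hxJ : x ∉ J)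
    (hconn : ∀ D : Finset α, x ∈ D → D ⊆ insert x J → D ≠ insert x J →
      ∃ u ∈ D, ∃ v ∈ insert x J \ D, F.Adj u v)
    (hdeg : ∀ u ∈ insert x J, 2 ≤ (nbW F W u).card)
    {Δ : ℝ} (hΔ1 : 1 ≤ Δ) (hΔ : ∀ z, ((nb (UU F W J S) z).card : ℝ) ≤ Δ) :
    ((S.image (proj (insert x J))).card : ℝ) ≤
      Real.exp (∑ z ∈ ZZ J S, (((nb (UU F W J S) z).card : ℝ) - 2)) *
        Δ ^ (2 + 4 * ((tI F W (insert x J)).card - (insert x J).card)) := by
  set U := UU F W J S with hU
  set I := insert x J with hI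
  have hIW : I ⊆ W := Finset.insert_subset hxW hJW
  have hxI : x ∈ I := Finset.mem_insert_self _ _
  obtain ⟨par, r, _, hC, hnd, hun⟩ := exists_chain (F := F) (I := I) (x := x) hconn _ {x} rfl
    (Finset.mem_singleton_self x) (Finset.singleton_subset_iff.2 hxI) id
  have hxr : x ∉ r := hC.not_mem x (Finset.mem_singleton_self x)
  have hrJ : r.toFinset = J := by
    ext y
    have h1 : y ∈ ({x} : Finset α) ∪ r.toFinset ↔ y ∈ I := by rw [hun]
    simp only [Finset.mem_union, Finset.mem_singleton, List.mem_toFinset, hI,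
      Finset.mem_insert] at h1
    simp only [List.mem_toFinset]
    constructor
    · intro hy
      have hne : y ≠ x := by
        rintro rfl
        exact hxr hy
      exact (h1.1 (Or.inr hy)).resolve_left hne
    · intro hy
      have hne : y ≠ x := by
        rintro rfl
        exact hxJ hy
      exact (h1.2 (Or.inr hy)).resolve_left hne
  have hInv : ParInv x par ({x} : Finset α) := by
    intro u hu hux
    exact absurd (Finset.mem_singleton.1 hu) hux
  have hfacts := chain_facts hInv hC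
  have hmemI : ∀ y, y ∈ ({x} : Finset α) ∪ r.toFinset → y = x ∨ y ∈ J := by
    intro y hy
    rw [hrJ] at hy
    simpa using hy
  have hTF : TreeFacts F W J x par := by
    refine ⟨?_, ?_, ?_⟩
    · intro v hv
      have hvr : v ∈ r := by rw [← List.mem_toFinset, hrJ]; exact hv
      exact hmemI _ (hfacts v hvr).1
    · intro v hv
      have hvr : v ∈ r := by rw [← List.mem_toFinset, hrJ]; exact hv
      exact (hfacts v hvr).2.1
    · intro v hv hne
      have hvr : v ∈ r := by rw [← List.mem_toFinset, hrJ]; exact hv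
      exact ((hfacts v hvr).2.2 hne).2
  have hun' : ({x} : Finset α) ∪ r.toFinset = I := hun
  -- membership of candidates
  have hmem : ∀ φ ∈ S, ∀ v ∈ r, φ v ∈ Cand U par x v φ := by
    intro φ hφ v hvr
    have hvJ : v ∈ J := by rw [← hrJ]; exact List.mem_toFinset.2 hvr
    have hpW : par v ∈ W := by
      rcases hTF.par_mem v hvJ with h | h
      · rw [h]
        exact hxW
      · exact hJW h
    have hedge : φ v ∈ nb U (φ (par v)) := by
      refine mem_nb.2 (Finset.mem_biUnion.2 ⟨φ, hφ, Finset.mem_image.2 ⟨s(par v, v), ?_, rfl⟩⟩)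
      exact (mem_tI_pair hJW).2 ⟨hTF.adj v hvJ, hpW, hJW hvJ, Or.inr hvJ⟩
    unfold Cand
    by_cases hp : par v = x
    · rw [if_pos hp]
      rw [← hp]
      exact hedge
    · rw [if_neg hp]
      refine Finset.mem_erase.2 ⟨?_, hedge⟩
      intro h
      exact hTF.pp v hvJ hp (hinj φ hφ h).symm
  have hag : ∀ φ ∈ S, ∀ φ' ∈ S, ∀ u ∈ ({x} : Finset α), φ u = φ' u := by
    intro φ hφ φ' hφ' u hu
    rw [Finset.mem_singleton.1 hu]
    have hx' : x ∈ W \ J := Finset.mem_sdiff.2 ⟨hxW, hxJ⟩
    rw [hagree φ hφ x hx', hagree φ' hφ' x hx']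
  set Sg := ∑ z ∈ ZZ J S, (((nb U z).card : ℝ) - 2) with hSgd
  set m := 2 + 4 * ((tI F W I).card - I.card) with hm
  have hB0 : 0 ≤ Real.exp Sg * Δ ^ m := by positivity
  have hmain := walk_count (F := F) U par x r {x} S (Real.exp Sg * Δ ^ m) hInv hC
    (Finset.mem_singleton_self x) hag hmem hB0 ?_
  · rwa [hun'] at hmain
  intro φ hφ
  have hφinj := hinj φ hφ
  rw [← List.prod_toFinset _ hnd, hrJ]
  set A := J.filter (fun v => par v ≠ x ∧ (nbW F W (par v)).card = 2) with hA
  set B := J.filter (fun v => ¬ (par v ≠ x ∧ (nbW F W (par v)).card = 2)) with hB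
  rw [← Finset.prod_filter_mul_prod_filter_not J
    (fun v => par v ≠ x ∧ (nbW F W (par v)).card = 2)]
  -- degrees on Z are at least two
  have hdZ : ∀ z ∈ ZZ J S, (0 : ℝ) ≤ ((nb U z).card : ℝ) - 2 := by
    intro z hz
    obtain ⟨ψ, hψ, h2⟩ := Finset.mem_biUnion.1 hz
    obtain ⟨b, hb, rfl⟩ := Finset.mem_image.1 h2
    have h3 := (hdeg b (Finset.mem_insert_of_mem hb)).trans (card_nbW_le_nb' hJW hψ (hinj ψ hψ) hb)
    have h4 : (2 : ℝ) ≤ ((nb U (ψ b)).card : ℝ) := by exact_mod_cast h3
    linarith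
  have hAbound : ∏ v ∈ A, ((Cand U par x v φ).card : ℝ) ≤ Real.exp Sg := by
    have h1 : ∀ v ∈ A, ((Cand U par x v φ).card : ℝ) ≤
        Real.exp (((nb U (φ (par v))).card : ℝ) - 2) := by
      intro v hv
      obtain ⟨hvJ, hp, _⟩ := Finset.mem_filter.1 hv
      have hpJ : par v ∈ J := (hTF.par_mem v hvJ).resolve_left hp
      have hpos : φ (par (par v)) ∈ nb U (φ (par v)) := by
        refine mem_nb.2 (Finset.mem_biUnion.2
          ⟨φ, hφ, Finset.mem_image.2 ⟨s(par v, par (par v)), ?_, rfl⟩⟩)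
        refine (mem_tI_pair hJW).2 ⟨(hTF.adj _ hpJ).symm, hJW hpJ, ?_, Or.inl hpJ⟩
        rcases hTF.par_mem _ hpJ with h | h
        · rw [h]
          exact hxW
        · exact hJW h
      have hc : (Cand U par x v φ).card = (nb U (φ (par v))).card - 1 := by
        unfold Cand
        rw [if_neg hp, Finset.card_erase_of_mem hpos]
      have hd1 : 1 ≤ (nb U (φ (par v))).card := Finset.card_pos.2 ⟨_, hpos⟩
      have hc' : ((Cand U par x v φ).card : ℝ) = ((nb U (φ (par v))).card : ℝ) - 1 := by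
        rw [hc, Nat.cast_sub hd1]
        simp
      rw [hc']
      have := Real.add_one_le_exp (((nb U (φ (par v))).card : ℝ) - 2)
      linarith
    have h2 : ∏ v ∈ A, ((Cand U par x v φ).card : ℝ) ≤
        ∏ v ∈ A, Real.exp (((nb U (φ (par v))).card : ℝ) - 2) :=
      Finset.prod_le_prod (fun _ _ => Nat.cast_nonneg _) h1
    refine h2.trans ?_
    rw [← Real.exp_sum]
    apply Real.exp_le_exp.2
    have hinjA : Set.InjOn (fun v => φ (par v)) (A : Set α) := by
      intro v hv v' hv' h
      have hpp : par v = par v' := hφinj h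
      obtain ⟨hvJ, hp, hd⟩ := Finset.mem_filter.1 (Finset.mem_coe.1 hv)
      obtain ⟨hvJ', _, _⟩ := Finset.mem_filter.1 (Finset.mem_coe.1 hv')
      have hpJ : par v ∈ J := (hTF.par_mem v hvJ).resolve_left hp
      have h3 := card_children_succ_le hTF hJW hxW hxJ hpJ
      rw [hd] at h3
      have h4 : (children J par (par v)).card ≤ 1 := by omega
      exact Finset.card_le_one.1 h4 v (Finset.mem_filter.2 ⟨hvJ, rfl⟩) v'
        (Finset.mem_filter.2 ⟨hvJ', hpp.symm⟩)
    have h3 : ∑ v ∈ A, (((nb U (φ (par v))).card : ℝ) - 2) =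
        ∑ z ∈ A.image (fun v => φ (par v)), (((nb U z).card : ℝ) - 2) := by
      rw [Finset.sum_image hinjA]
    rw [h3]
    refine Finset.sum_le_sum_of_subset_of_nonneg ?_ (fun z hz _ => hdZ z hz)
    intro z hz
    obtain ⟨v, hv, rfl⟩ := Finset.mem_image.1 hz
    obtain ⟨hvJ, hp, _⟩ := Finset.mem_filter.1 hv
    have hpJ : par v ∈ J := (hTF.par_mem v hvJ).resolve_left hp
    exact Finset.mem_biUnion.2 ⟨φ, hφ, Finset.mem_image_of_mem _ hpJ⟩
  have hBbound : ∏ v ∈ B, ((Cand U par x v φ).card : ℝ) ≤ Δ ^ m := by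
    have h1 : ∀ v ∈ B, ((Cand U par x v φ).card : ℝ) ≤ Δ := by
      intro v _
      unfold Cand
      by_cases hp : par v = x
      · rw [if_pos hp]
        exact hΔ _
      · rw [if_neg hp]
        have h2 : (((nb U (φ (par v))).erase (φ (par (par v)))).card : ℝ) ≤
            ((nb U (φ (par v))).card : ℝ) := by
          exact_mod_cast Finset.card_erase_le
        exact h2.trans (hΔ _)
    have h2 : ∏ v ∈ B, ((Cand U par x v φ).card : ℝ) ≤ ∏ _v ∈ B, Δ :=
      Finset.prod_le_prod (fun _ _ => Nat.cast_nonneg _) h1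
    refine h2.trans ?_
    rw [Finset.prod_const]
    apply pow_le_pow_right₀ hΔ1
    have h3 : B.card + 4 * I.card ≤ 2 + 4 * (tI F W I).card :=
      card_branch_le hTF hJW hxW hxJ hdeg
    omega
  exact mul_le_mul hAbound hBbound (Finset.prod_nonneg (fun _ _ => Nat.cast_nonneg _))
    (Real.exp_pos _).le

/-- The main walk bound for a pinned family. -/
theorem pinned_walk (hP : Pin n q F H W J S φ₁) {x : α} (hxW : x ∈ W) (hxJ : x ∉ J)
    (hconn : ∀ D : Finset α, x ∈ D → D ⊆ insert x J → D ≠ insert x J →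
      ∃ u ∈ D, ∃ v ∈ insert x J \ D, F.Adj u v)
    (hdeg : ∀ u ∈ insert x J, 2 ≤ (nbW F W u).card)
    {Δ : ℝ} (hΔ1 : 1 ≤ Δ) (hΔ : ∀ z, ((nb (UU F W J S) z).card : ℝ) ≤ Δ) :
    ((S.image (proj (insert x J))).card : ℝ) ≤
      Real.exp (∑ z ∈ ZZ J S, (((nb (UU F W J S) z).card : ℝ) - 2)) *
        Δ ^ (2 + 4 * ((tI F W (insert x J)).card - (insert x J).card)) :=
  pinned_walk' hP.hJW hP.inj hP.agree hxW hxJ hconn hdeg hΔ1 hΔ

end Vale.Agent.Lib.P064S
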