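import Vale.Agent.Lib.P064S.Fiber

/-!
The induction over vertex sets and the bound on embeddings.
-/

open Finset

namespace Vale.Agent.Lib.P064

open scoped Classical

variable {V α : Type} [Fintype V] [Fintype α] {H : SimpleGraph V} {F : SimpleGraph α} {n : ℕ}
  {q : ℝ}

/-- A nonempty set which is not low has a minimal nonempty subset which is not low. -/
theorem exists_min_not_low {W : Finset α} (hne : W.Nonempty)
    (hτ : 1 ≤ (n : ℝ) ^ W.card * (Real.exp 1 * q) ^ eT F W W) :
    ∃ I ⊆ W, I.Nonempty ∧ 1 ≤ (n : ℝ) ^ I.card * (Real.exp 1 * q) ^ eT F W I ∧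
      ∀ J ⊆ I, J.Nonempty → J ≠ I → Low n q F W J := by
  set P : Finset (Finset α) := W.powerset.filter
    (fun I => I.Nonempty ∧ 1 ≤ (n : ℝ) ^ I.card * (Real.exp 1 * q) ^ eT F W I) with hP
  have hWP : W ∈ P := Finset.mem_filter.2 ⟨Finset.mem_powerset.2 subset_rfl, hne, hτ⟩
  obtain ⟨I, hI, hmin⟩ := Finset.exists_min_image P Finset.card ⟨W, hWP⟩
  obtain ⟨hI1, hI2, hI3⟩ := Finset.mem_filter.1 hI
  refine ⟨I, Finset.mem_powerset.1 hI1, hI2, hI3, ?_⟩
  intro J hJI hJne hJI'
  unfold Low
  by_contra hcon
  push Not at hcon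
  have hJP : J ∈ P := Finset.mem_filter.2
    ⟨Finset.mem_powerset.2 (hJI.trans (Finset.mem_powerset.1 hI1)), hJne, hcon⟩
  have h1 := hmin J hJP
  have h2 : J.card < I.card := Finset.card_lt_card (Finset.ssubset_iff_subset_ne.2 ⟨hJI, hJI'⟩)
  omega

/-- If a member exists then the whole set is not low. -/
theorem not_low_of_member (hG : GoodDensity n q H) (hn : 1 ≤ n) (hq0 : 0 < q)
    (hqe : q ≤ Real.exp (-1)) {W : Finset α} {φ : α → V} (hφ : Function.Injective φ)
    (hhom : ∀ u v, F.Adj u v → H.Adj (φ u) (φ v)) :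
    1 ≤ (n : ℝ) ^ W.card * (Real.exp 1 * q) ^ eT F W W := by
  have hn1 : (1 : ℝ) ≤ n := by exact_mod_cast hn
  have he1 : (1 : ℝ) ≤ Real.exp 1 := Real.one_le_exp (by norm_num)
  have hq1 : q ≤ 1 := hqe.trans (Real.exp_le_one_iff.2 (by norm_num))
  have hsd : W \ W = ∅ := Finset.sdiff_self W
  have hE : eT F W W = (eIn F W).card := by
    unfold eT
    rw [hsd]
    have h := eIn_union_card (F := F) (E := (∅ : Finset α)) (C := W)
    rw [Finset.empty_union, eIn_empty] at h
    simp only [Finset.card_empty, zero_add] at h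
    exact h.symm
  rw [hE]
  set T : Finset (Sym2 V) := (eIn F W).image (Sym2.map φ) with hT
  have hTcard : T.card = (eIn F W).card :=
    Finset.card_image_of_injective _ (Sym2.map.injective hφ)
  by_cases hTne : T.Nonempty
  · have hTedge : ∀ e ∈ T, e ∈ H.edgeSet := by
      intro e he
      obtain ⟨e', he', rfl⟩ := Finset.mem_image.1 he
      induction e' using Sym2.ind with
      | _ u v =>
        have h1 := (mem_eIn_pair.1 he').1
        simpa using hhom u v h1
    have h1 := density_of_good hG hq0 hq1 T hTedge hTne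
    have hsub : (T.biUnion fun e => e.toFinset) ⊆ W.image φ := by
      intro z hz
      obtain ⟨e, he, hz⟩ := Finset.mem_biUnion.1 hz
      obtain ⟨e', he', rfl⟩ := Finset.mem_image.1 he
      induction e' using Sym2.ind with
      | _ u v =>
        obtain ⟨_, hu, hv⟩ := mem_eIn_pair.1 he'
        rw [Sym2.mem_toFinset] at hz
        simp only [Sym2.map_pair_eq, Sym2.mem_iff] at hz
        rcases hz with rfl | rfl
        · exact Finset.mem_image_of_mem _ hu
        · exact Finset.mem_image_of_mem _ hv
    have hcard : (T.biUnion fun e => e.toFinset).card ≤ W.card :=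
      (Finset.card_le_card hsub).trans Finset.card_image_le
    rw [hTcard] at h1
    calc (1 : ℝ) ≤ (n : ℝ) ^ (T.biUnion fun e => e.toFinset).card * q ^ (eIn F W).card := h1
      _ ≤ (n : ℝ) ^ W.card * q ^ (eIn F W).card :=
          mul_le_mul_of_nonneg_right (pow_le_pow_right₀ hn1 hcard) (by positivity)
      _ ≤ (n : ℝ) ^ W.card * (Real.exp 1 * q) ^ (eIn F W).card := by
          refine mul_le_mul_of_nonneg_left ?_ (by positivity)
          refine pow_le_pow_left₀ hq0.le ?_ _
          nlinarith
  · rw [Finset.not_nonempty_iff_eq_empty] at hTne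
    rw [hTne] at hTcard
    rw [← hTcard]
    simp only [Finset.card_empty, pow_zero, mul_one]
    exact one_le_pow₀ hn1

/-- The main induction. -/
theorem sp_main (hG : GoodDensity n q H) (hn : 2 ≤ n) (hV : Fintype.card V ≤ n) (hq0 : 0 < q)
    (hqe : q ≤ Real.exp (-1)) (hL4 : 4 ≤ Real.log n) (hD : 1 ≤ (n : ℝ) * q)
    (hD2 : (Real.exp 1 * ((n : ℝ) * q)) ^ 2 < n) (k : ℕ) :
    ∀ (W : Finset α) (S : Finset (α → V)), W.card ≤ k →
      (∀ φ ∈ S, Function.Injective φ) →
      (∀ φ ∈ S, ∀ u v, F.Adj u v → H.Adj (φ u) (φ v)) →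
      ((S.image (proj W)).card : ℝ) ≤
        spA ^ W.card * spK n q ^ (eIn F W).card * ((n : ℝ) ^ W.card * q ^ (eIn F W).card) := by
  have hn0 : (0 : ℝ) < n := by
    have : 0 < n := by omega
    exact_mod_cast this
  have hn' : 1 ≤ n := by omega
  have hA0 : (0 : ℝ) ≤ spA := by
    have := spA_one_le
    linarith
  have hK0 : (0 : ℝ) ≤ spK n q := by
    unfold spK
    have h1 : (0 : ℝ) ≤ Real.log n / ((n : ℝ) * q) := div_nonneg (by linarith) (by positivity)
    have h2 : (0 : ℝ) ≤ 1 + Real.log n / ((n : ℝ) * q) := by linarith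
    positivity
  induction k with
  | zero =>
    intro W S hW _ _
    have hW0 : W = ∅ := Finset.card_eq_zero.1 (Nat.le_zero.1 hW)
    subst hW0
    have h1 : (S.image (proj (∅ : Finset α))).card ≤ 1 := by
      refine Finset.card_le_one.2 ?_
      intro a ha b hb
      obtain ⟨φ, _, rfl⟩ := Finset.mem_image.1 ha
      obtain ⟨φ', _, rfl⟩ := Finset.mem_image.1 hb
      funext x
      simp [proj]
    rw [eIn_empty]
    simp only [Finset.card_empty, pow_zero, mul_one]
    exact_mod_cast h1
  | succ k ih =>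
    intro W S hW hinj hhom
    by_cases hne : W.Nonempty
    swap
    · rw [Finset.not_nonempty_iff_eq_empty] at hne
      subst hne
      exact ih ∅ S (by simp) hinj hhom
    by_cases hS : S.Nonempty
    swap
    · rw [Finset.not_nonempty_iff_eq_empty] at hS
      subst hS
      simp only [Finset.image_empty, Finset.card_empty, Nat.cast_zero]
      positivity
    obtain ⟨φ₁, hφ₁⟩ := hS
    have hτ := not_low_of_member (W := W) hG hn' hq0 hqe (hinj φ₁ hφ₁) (hhom φ₁ hφ₁)
    obtain ⟨I, hIW, hIne, hIτ, hImin⟩ := exists_min_not_low (n := n) (q := q) (F := F) hne hτ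
    set E := W \ I with hE
    have hU : E ∪ I = W := Finset.sdiff_union_of_subset hIW
    have hdisj : Disjoint I E := Finset.disjoint_sdiff
    have hcard : W.card = E.card + I.card := by
      rw [← hU]
      exact Finset.card_union_of_disjoint hdisj.symm
    have hIc : 0 < I.card := Finset.card_pos.2 hIne
    set m := (newE F E I).card with hm
    have hcardE : (eIn F W).card = (eIn F E).card + m := by
      rw [← hU]
      exact eIn_union_card
    set B : ℝ := spA ^ I.card * spK n q ^ m * ((n : ℝ) ^ I.card * q ^ m) with hB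
    have hB0 : 0 ≤ B := by positivity
    have hstep := card_image_proj_step_real S (D := E) (D' := W) (B := B) Finset.sdiff_subset hB0 (by
      intro φ₂ _
      have hsub : S.filter (fun φ => proj E φ = proj E φ₂) ⊆ S := Finset.filter_subset _ _
      have := sp_fiber (F := F) hG hn hV hq0 hqe hL4 hD hD2 (E := E) (I := I) hdisj hIne
        (by rw [hU]; exact hIτ) (by rw [hU]; exact hImin)
        (S := S.filter (fun φ => proj E φ = proj E φ₂)) (φ₀ := φ₂)
        (fun φ hφ => hinj φ (hsub hφ)) (fun φ hφ => hhom φ (hsub hφ))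
        (fun φ hφ x hx => proj_eq_apply hx (Finset.mem_filter.1 hφ).2)
      rw [hU] at this
      exact this)
    have hih := ih E S (by omega) hinj hhom
    calc ((S.image (proj W)).card : ℝ) ≤ B * (S.image (proj E)).card := hstep
      _ ≤ B * (spA ^ E.card * spK n q ^ (eIn F E).card *
            ((n : ℝ) ^ E.card * q ^ (eIn F E).card)) := mul_le_mul_of_nonneg_left hih hB0
      _ = _ := by
          rw [hcard, hcardE, hB]
          ring

end Vale.Agent.Lib.P064
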