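import Vale.Agent.Lib.P064S.ProdA

/-!
The number of vertices of the spanning tree order with a free choice, and the product of the
branching numbers along one member.
-/

open Finset

namespace Vale.Agent.Lib.P064

open scoped Classical

variable {V α : Type} [Fintype V] [Fintype α] {F : SimpleGraph α}

/-- The candidates of a vertex: neighbours in `U` of the image of its parent, minus the image of
its grandparent unless the parent is the base point. -/
noncomputable def cand (U : Finset (Sym2 V)) (par : α → α) (x : α) (v : α) (a b : V) : Finset V :=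
  if par v = x then univ.filter (fun c => s(a, c) ∈ U)
  else (univ.filter (fun c => s(a, c) ∈ U)).erase b

/-- The product of the branching numbers along one member. -/
theorem prod_cand_le {E I : Finset α} (hdisj : Disjoint I E) {x : α} (hx : x ∈ I)
    {par : α → α} {r : α → ℕ}
    (hpar : ∀ v ∈ I, v ≠ x → par v ∈ I ∧ r (par v) < r v ∧ F.Adj (par v) v)
    (hdeg : ∀ w ∈ I, 2 ≤ dW F (E ∪ I) w) {xI : ℕ} (hm : (newE F E I).card = I.card + xI)
    {U : Finset (Sym2 V)} {Z : Finset V} {φ : α → V} (hφ : Function.Injective φ)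
    (hZ : ∀ w ∈ I, w ≠ x → φ w ∈ Z)
    (hedge : ∀ w ∈ I, w ≠ x → s(φ w, φ (par w)) ∈ U)
    (hZ2 : ∀ z ∈ Z, 2 ≤ udeg U z)
    {Ξ : ℝ} (hΞ : ∑ z ∈ Z, ((udeg U z : ℝ) - 2) ≤ Ξ)
    {Δ : ℝ} (hΔ1 : 1 ≤ Δ) (hΔ : ∀ z, (udeg U z : ℝ) ≤ Δ) :
    ∏ v ∈ I.erase x, ((cand U par x v (φ (par v)) (φ (par (par v)))).card : ℝ) ≤
      Real.exp Ξ * Δ ^ (4 * xI + 2) := by
  sorry

end Vale.Agent.Lib.P064
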