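import Vale.Agent.Lib.P064S.Base

/-!
Children in the spanning tree order.
-/

open Finset

namespace Vale.Agent.Lib.P064

open scoped Classical

variable {α : Type} [Fintype α] {F : SimpleGraph α}

/-- Vertices whose parent is the base point or of degree at least three are few. -/
theorem par_free_card {E I : Finset α} (hdisj : Disjoint I E) {x : α} (hx : x ∈ I)
    {par : α → α} {r : α → ℕ}
    (hpar : ∀ v ∈ I, v ≠ x → par v ∈ I ∧ r (par v) < r v ∧ F.Adj (par v) v)
    (hdeg : ∀ w ∈ I, 2 ≤ dW F (E ∪ I) w) {xI : ℕ} (hm : (newE F E I).card = I.card + xI) :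
    ((I.erase x).filter (fun v => par v = x ∨ dW F (E ∪ I) (par v) ≠ 2)).card ≤ 4 * xI + 2 := by
  sorry

/-- A vertex of degree two other than the base point has at most one child. -/
theorem par_injOn {E I : Finset α} (hdisj : Disjoint I E) {x : α} (hx : x ∈ I)
    {par : α → α} {r : α → ℕ}
    (hpar : ∀ v ∈ I, v ≠ x → par v ∈ I ∧ r (par v) < r v ∧ F.Adj (par v) v) :
    Set.InjOn par
      (((I.erase x).filter (fun v => par v ≠ x ∧ dW F (E ∪ I) (par v) = 2) : Finset α) : Set α) := by
  sorry

end Vale.Agent.Lib.P064
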