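import Vale.Agent.Lib.P064S.Defs

/-!
The induction from the top: a minimal subset `I` of the current vertex set with `tau1 I ≥ 1`
is peeled off.
-/

open Finset

namespace Vale.Agent.Lib.P064S

open Vale.Agent.Lib.P064

open scoped Classical

variable {V α : Type} [Fintype V] [Fintype α] {H : SimpleGraph V} {F : SimpleGraph α} {n : ℕ}
  {q : ℝ}

lemma eT_self (W : Finset α) : eT F W W = (eIn F W).card := by
  unfold eT newE
  rw [Finset.sdiff_self, eIn_empty, Finset.empty_union, Finset.sdiff_empty]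

lemma tau1_nonneg (hq0 : 0 < q) (W J : Finset α) : 0 ≤ tau1 n q F W J := by
  unfold tau1
  positivity

/-- An embedding shows that `tau1 W W ≥ 1`. -/
lemma tau1_self_ge (hG : GoodDensity n q H) (hq0 : 0 < q) (hq1 : q ≤ 1) (hn : 1 ≤ n)
    {φ : α → V} (hinj : Function.Injective φ) (hhom : ∀ u v, F.Adj u v → H.Adj (φ u) (φ v))
    (W : Finset α) : 1 ≤ tau1 n q F W W := by
  have hn1 : (1 : ℝ) ≤ n := by exact_mod_cast hn
  unfold tau1
  rw [eT_self]
  have he : (1 : ℝ) ≤ Real.exp 1 := Real.one_le_exp (by norm_num)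
  have hqe : q ≤ Real.exp 1 * q := by nlinarith
  set T := (eIn F W).image (Sym2.map φ) with hT
  have hTc : T.card = (eIn F W).card :=
    Finset.card_image_of_injective _ (Sym2.map.injective hinj)
  by_cases hne : T.Nonempty
  · have hTH : ∀ e ∈ T, e ∈ H.edgeSet := by
      intro e hey
      obtain ⟨e', he2, rfl⟩ := Finset.mem_image.1 hey
      induction e' using Sym2.ind with
      | _ u v =>
        have := (mem_eIn_pair.1 he2).1
        simpa using hhom u v this
    have hd := density_of_good hG hq0 hq1 T hTH hne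
    have hsub : (T.biUnion fun e => e.toFinset) ⊆ W.image φ := by
      intro y hy
      obtain ⟨e, he', hye⟩ := Finset.mem_biUnion.1 hy
      obtain ⟨e', he'', rfl⟩ := Finset.mem_image.1 he'
      induction e' using Sym2.ind with
      | _ u v =>
        obtain ⟨_, hu, hv⟩ := mem_eIn_pair.1 he''
        have hye' : y ∈ s(φ u, φ v) := by simpa using hye
        rcases Sym2.mem_iff.1 hye' with rfl | rfl
        · exact Finset.mem_image_of_mem _ hu
        · exact Finset.mem_image_of_mem _ hv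
    have hcard : (T.biUnion fun e => e.toFinset).card ≤ W.card :=
      (Finset.card_le_card hsub).trans Finset.card_image_le
    calc (1 : ℝ) ≤ (n : ℝ) ^ (T.biUnion fun e => e.toFinset).card * q ^ T.card := hd
      _ ≤ (n : ℝ) ^ W.card * (Real.exp 1 * q) ^ (eIn F W).card := by
          rw [hTc]
          apply mul_le_mul (pow_le_pow_right₀ hn1 hcard)
            (pow_le_pow_left₀ hq0.le hqe _) (by positivity) (by positivity)
  · rw [Finset.not_nonempty_iff_eq_empty] at hne
    have h0 : (eIn F W).card = 0 := by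
      rw [← hTc, hne]
      rfl
    rw [h0, pow_zero, mul_one]
    exact one_le_pow₀ hn1

/-- A minimal nonempty set with `tau1 ≥ 1`. -/
lemma exists_min_piece {W : Finset α} (hne : W.Nonempty) (hW : 1 ≤ tau1 n q F W W) :
    ∃ I ⊆ W, I.Nonempty ∧ 1 ≤ tau1 n q F W I ∧ ∀ J, J ⊂ I → J.Nonempty → tau1 n q F W J < 1 := by
  let 𝒞 := W.powerset.filter (fun I => I.Nonempty ∧ 1 ≤ tau1 n q F W I)
  have h𝒞 : 𝒞.Nonempty :=
    ⟨W, Finset.mem_filter.2 ⟨Finset.mem_powerset.2 (Finset.Subset.refl _), hne, hW⟩⟩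
  obtain ⟨I, hI, hmin⟩ := Finset.exists_min_image 𝒞 Finset.card h𝒞
  obtain ⟨h1, h2, h3⟩ := Finset.mem_filter.1 hI
  have hIW := Finset.mem_powerset.1 h1
  refine ⟨I, hIW, h2, h3, ?_⟩
  intro J hJ hJne
  by_contra hcon
  push Not at hcon
  have hJ𝒞 : J ∈ 𝒞 := Finset.mem_filter.2
    ⟨Finset.mem_powerset.2 (hJ.subset.trans hIW), hJne, hcon⟩
  have h4 := hmin J hJ𝒞
  have h5 := Finset.card_lt_card hJ
  omega

/-- The induction: a bound on each piece gives a bound on the family. -/
theorem top_main {A K : ℝ} (hA : 0 ≤ A) (hK : 0 ≤ K)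
    (hG : GoodDensity n q H) (hq0 : 0 < q) (hq1 : q ≤ 1) (hn : 1 ≤ n)
    (piece : ∀ (W I : Finset α) (S : Finset (α → V)) (φ₀ : α → V), I ⊆ W → I.Nonempty →
      1 ≤ tau1 n q F W I → (∀ J, J ⊂ I → J.Nonempty → tau1 n q F W J < 1) →
      (∀ φ ∈ S, Function.Injective φ) → (∀ φ ∈ S, ∀ u v, F.Adj u v → H.Adj (φ u) (φ v)) →
      (∀ φ ∈ S, ∀ x ∈ W \ I, φ x = φ₀ x) →
      ((S.image (proj W)).card : ℝ) ≤
        A ^ I.card * K ^ eT F W I * ((n : ℝ) ^ I.card * q ^ eT F W I))
    (k : ℕ) : ∀ (W : Finset α) (S : Finset (α → V)), W.card ≤ k →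
      (∀ φ ∈ S, Function.Injective φ) → (∀ φ ∈ S, ∀ u v, F.Adj u v → H.Adj (φ u) (φ v)) →
      ((S.image (proj W)).card : ℝ) ≤
        A ^ W.card * K ^ (eIn F W).card * ((n : ℝ) ^ W.card * q ^ (eIn F W).card) := by
  have hn1 : (1 : ℝ) ≤ n := by exact_mod_cast hn
  have hn0 : (0 : ℝ) < n := by linarith
  induction k with
  | zero =>
    intro W S hW _ _
    have hW0 : W = ∅ := Finset.card_eq_zero.1 (Nat.le_zero.1 hW)
    subst hW0
    have h1 : (S.image (proj (∅ : Finset α))).card ≤ 1 := by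
      refine Finset.card_le_one.2 ?_
      intro a ha b hb
      obtain ⟨φ, _, rfl⟩ := Finset.mem_image.1 ha
      obtain ⟨φ', _, rfl⟩ := Finset.mem_image.1 hb
      funext x
      simp [proj]
    rw [eIn_empty]
    simp only [Finset.card_empty, pow_zero, mul_one]
    exact_mod_cast h1
  | succ k ih =>
    intro W S hW hinj hhom
    by_cases hS : S.Nonempty
    swap
    · rw [Finset.not_nonempty_iff_eq_empty] at hS
      rw [hS]
      simp only [Finset.image_empty, Finset.card_empty, Nat.cast_zero]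
      positivity
    by_cases hne : W.Nonempty
    swap
    · rw [Finset.not_nonempty_iff_eq_empty] at hne
      subst hne
      exact ih ∅ S (by simp) hinj hhom
    obtain ⟨φ₁, hφ₁⟩ := hS
    have htop := tau1_self_ge hG hq0 hq1 hn (hinj φ₁ hφ₁) (hhom φ₁ hφ₁) W
    obtain ⟨I, hIW, hIne, hI1, hIlow⟩ := exists_min_piece hne htop
    set B : ℝ := A ^ I.card * K ^ eT F W I * ((n : ℝ) ^ I.card * q ^ eT F W I) with hB
    have hB0 : 0 ≤ B := by positivity
    have hstep := card_image_proj_step_real S (D := W \ I) (D' := W) Finset.sdiff_subset hB0 (by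
      intro φ₂ _
      have hsub : S.filter (fun φ => proj (W \ I) φ = proj (W \ I) φ₂) ⊆ S :=
        Finset.filter_subset _ _
      exact piece W I _ φ₂ hIW hIne hI1 hIlow (fun φ hφ => hinj φ (hsub hφ))
        (fun φ hφ => hhom φ (hsub hφ))
        (fun φ hφ x hx => proj_eq_apply hx (Finset.mem_filter.1 hφ).2))
    have hlt : (W \ I).card < W.card := by
      apply Finset.card_lt_card
      refine ⟨Finset.sdiff_subset, ?_⟩
      obtain ⟨z, hz⟩ := hIne
      intro h
      exact (Finset.mem_sdiff.1 (h (hIW hz))).2 hz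
    have hih := ih (W \ I) S (by omega) hinj hhom
    have hcardW : W.card = (W \ I).card + I.card := by
      rw [Finset.card_sdiff_add_card_eq_card hIW]
    have hedge : (eIn F W).card = (eIn F (W \ I)).card + eT F W I := by
      have h1 := eIn_union_card (F := F) (E := W \ I) (C := I)
      rw [Finset.sdiff_union_of_subset hIW] at h1
      exact h1
    calc ((S.image (proj W)).card : ℝ)
        ≤ B * (S.image (proj (W \ I))).card := hstep
      _ ≤ B * (A ^ (W \ I).card * K ^ (eIn F (W \ I)).card *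
            ((n : ℝ) ^ (W \ I).card * q ^ (eIn F (W \ I)).card)) :=
          mul_le_mul_of_nonneg_left hih hB0
      _ = _ := by
          rw [hcardW, hedge, hB]
          ring

/-- The bound on a whole family. -/
theorem fam_bound_top {A K : ℝ} (hA : 0 ≤ A) (hK : 0 ≤ K)
    (hG : GoodDensity n q H) (hq0 : 0 < q) (hq1 : q ≤ 1) (hn : 1 ≤ n)
    (piece : ∀ (W I : Finset α) (S : Finset (α → V)) (φ₀ : α → V), I ⊆ W → I.Nonempty →
      1 ≤ tau1 n q F W I → (∀ J, J ⊂ I → J.Nonempty → tau1 n q F W J < 1) →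
      (∀ φ ∈ S, Function.Injective φ) → (∀ φ ∈ S, ∀ u v, F.Adj u v → H.Adj (φ u) (φ v)) →
      (∀ φ ∈ S, ∀ x ∈ W \ I, φ x = φ₀ x) →
      ((S.image (proj W)).card : ℝ) ≤
        A ^ I.card * K ^ eT F W I * ((n : ℝ) ^ I.card * q ^ eT F W I))
    (S : Finset (α → V)) (hinj : ∀ φ ∈ S, Function.Injective φ)
    (hhom : ∀ φ ∈ S, ∀ u v, F.Adj u v → H.Adj (φ u) (φ v)) :
    (S.card : ℝ) ≤ A ^ Fintype.card α * K ^ (eIn F univ).card *
      ((n : ℝ) ^ Fintype.card α * q ^ (eIn F univ).card) := by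
  have h1 := top_main hA hK hG hq0 hq1 hn piece (Fintype.card α) univ S (by simp) hinj hhom
  have h2 : (S.image (proj (univ : Finset α))).card = S.card :=
    Finset.card_image_of_injective _ proj_univ_injective
  rw [h2, Finset.card_univ] at h1
  exact h1

end Vale.Agent.Lib.P064S
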