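import Vale.Agent.Lib.P064S.Base

/-!
The union of all images of the low part: its density.
-/

open Finset

namespace Vale.Agent.Lib.P064

open scoped Classical

variable {V α : Type} [Fintype V] [Fintype α] {H : SimpleGraph V} {F : SimpleGraph α} {n : ℕ}
  {q : ℝ}

/-- Endpoints of the union of the images lie in the vertex set. -/
lemma pinV_of_mem_pinU {Y J : Finset α} {T : Finset (α → V)} {φ₀ : α → V}
    (hagree : ∀ φ ∈ T, ∀ y ∈ Y, φ y = φ₀ y) {e : Sym2 V} (he : e ∈ pinU F Y J T) {z : V}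
    (hz : z ∈ e) : z ∈ pinV F Y J φ₀ T := by
  obtain ⟨φ, hφ, he'⟩ := Finset.mem_biUnion.1 he
  obtain ⟨e', he'', rfl⟩ := Finset.mem_image.1 he'
  induction e' using Sym2.ind with
  | _ u v =>
    obtain ⟨_, hu, hv, _⟩ := newE_spec he''
    have key : ∀ a : α, (a ∈ J ∨ a ∈ core F Y J) → φ a ∈ pinV F Y J φ₀ T := by
      intro a ha
      rcases ha with ha | ha
      · exact Finset.mem_union_right _
          (Finset.mem_biUnion.2 ⟨φ, hφ, Finset.mem_image_of_mem _ ha⟩)
      · have haY : a ∈ Y := (Finset.mem_filter.1 ha).1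
        rw [hagree φ hφ a haY]
        exact Finset.mem_union_left _ (Finset.mem_image_of_mem _ ha)
    rw [Sym2.map_mk, Sym2.mem_iff] at hz
    rcases hz with rfl | rfl
    · exact key u hu
    · exact key v hv

/-- The potential form of the key lemma. -/
lemma pin_potential (hn : 1 ≤ n) (hq0 : 0 < q) (hqe : q ≤ Real.exp (-1))
    {Y J : Finset α} (hdisj : Disjoint J Y)
    (hlow : ∀ J' ⊆ J, J'.Nonempty → Low n q F (Y ∪ J) J')
    {S : Finset (α → V)} (hinj : ∀ φ ∈ S, Function.Injective φ)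
    {φ₀ : α → V} (hagree : ∀ φ ∈ S, ∀ y ∈ Y, φ y = φ₀ y) (T : Finset (α → V)) (hT : T ⊆ S) :
    (n : ℝ) ^ (pinV F Y J φ₀ T).card * (Real.exp 1 * q) ^ (pinU F Y J T).card ≤
      (n : ℝ) ^ (pinR F Y J φ₀).card := by
  have hn1 : (1 : ℝ) ≤ n := by exact_mod_cast hn
  have hn0 : (0 : ℝ) < n := by linarith
  have heq0 : 0 < Real.exp 1 * q := mul_pos (Real.exp_pos _) hq0
  have heq1 : Real.exp 1 * q ≤ 1 := by
    calc Real.exp 1 * q ≤ Real.exp 1 * Real.exp (-1) :=
          mul_le_mul_of_nonneg_left hqe (Real.exp_pos _).le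
      _ = 1 := by rw [← Real.exp_add]; simp
  induction T using Finset.induction_on with
  | empty =>
    have h1 : pinV F Y J φ₀ (∅ : Finset (α → V)) = pinR F Y J φ₀ := by
      simp [pinV]
    have h2 : pinU F Y J (∅ : Finset (α → V)) = ∅ := by
      simp [pinU]
    rw [h1, h2]
    simp
  | insert φ T hφT ih =>
    have hTS : T ⊆ S := fun a ha => hT (Finset.mem_insert_of_mem ha)
    have hφS : φ ∈ S := hT (Finset.mem_insert_self _ _)
    have ih' := ih hTS
    have hinjφ := hinj φ hφS
    have hagT : ∀ ψ ∈ T, ∀ y ∈ Y, ψ y = φ₀ y := fun ψ hψ => hagree ψ (hTS hψ)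
    set J' := J.filter (fun v => φ v ∉ pinV F Y J φ₀ T) with hJ'
    have hJ'J : J' ⊆ J := Finset.filter_subset _ _
    have hV : pinV F Y J φ₀ (insert φ T) = pinV F Y J φ₀ T ∪ J'.image φ := by
      ext z
      simp only [pinV, Finset.biUnion_insert, Finset.mem_union, Finset.mem_image, hJ',
        Finset.mem_filter]
      constructor
      · rintro (h | ⟨a, ha, rfl⟩ | h)
        · exact Or.inl (Or.inl h)
        · by_cases h2 : φ a ∈ pinR F Y J φ₀ ∪ T.biUnion fun φ => J.image φ
          · exact Or.inl (by simpa [Finset.mem_union] using h2)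
          · exact Or.inr ⟨a, ⟨ha, by simpa [Finset.mem_union] using h2⟩, rfl⟩
        · exact Or.inl (Or.inr h)
      · rintro (h | ⟨a, ⟨ha, _⟩, rfl⟩)
        · rcases h with h | h
          · exact Or.inl h
          · exact Or.inr (Or.inr h)
        · exact Or.inr (Or.inl ⟨a, ha, rfl⟩)
    have hVdisj : Disjoint (pinV F Y J φ₀ T) (J'.image φ) := by
      rw [Finset.disjoint_left]
      intro z hz hz2
      obtain ⟨a, ha, rfl⟩ := Finset.mem_image.1 hz2
      exact (Finset.mem_filter.1 ha).2 hz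
    have hVcard : (pinV F Y J φ₀ (insert φ T)).card = (pinV F Y J φ₀ T).card + J'.card := by
      rw [hV, Finset.card_union_of_disjoint hVdisj, Finset.card_image_of_injective _ hinjφ]
    have hsub : newE F ((Y ∪ J) \ J') J' ⊆ newE F Y J := by
      intro e he
      induction e using Sym2.ind with
      | _ u v =>
        obtain ⟨h1, h2, h3, h4⟩ := mem_newE_pair.1 he
        have hm : ∀ a : α, (a ∈ (Y ∪ J) \ J' ∨ a ∈ J') → a ∈ Y ∨ a ∈ J := by
          intro a ha
          rcases ha with ha | ha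
          · exact Finset.mem_union.1 (Finset.mem_sdiff.1 ha).1
          · exact Or.inr (hJ'J ha)
        refine mem_newE_pair.2 ⟨h1, hm u h2, hm v h3, ?_⟩
        rintro ⟨h5, h6⟩
        apply h4
        have hnJ : ∀ a : α, a ∈ Y → a ∈ (Y ∪ J) \ J' := by
          intro a ha
          refine Finset.mem_sdiff.2 ⟨Finset.mem_union_left _ ha, fun h7 => ?_⟩
          exact Finset.disjoint_left.1 hdisj (hJ'J h7) ha
        exact ⟨hnJ u h5, hnJ v h6⟩
    have hUsub : pinU F Y J T ∪ (newE F ((Y ∪ J) \ J') J').image (Sym2.map φ) ⊆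
        pinU F Y J (insert φ T) := by
      unfold pinU
      rw [Finset.biUnion_insert]
      intro e he
      rcases Finset.mem_union.1 he with h | h
      · exact Finset.mem_union_right _ h
      · obtain ⟨e', he', rfl⟩ := Finset.mem_image.1 h
        exact Finset.mem_union_left _ (Finset.mem_image_of_mem _ (hsub he'))
    have hUdisj : Disjoint (pinU F Y J T) ((newE F ((Y ∪ J) \ J') J').image (Sym2.map φ)) := by
      rw [Finset.disjoint_left]
      intro e he he2
      obtain ⟨e', he', rfl⟩ := Finset.mem_image.1 he2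
      induction e' using Sym2.ind with
      | _ u v =>
        obtain ⟨h1, h2, h3, h4⟩ := mem_newE_pair.1 he'
        rw [Sym2.map_mk] at he
        have hnot : u ∈ J' ∨ v ∈ J' := by
          by_contra hcon
          push Not at hcon
          apply h4
          exact ⟨h2.resolve_right hcon.1, h3.resolve_right hcon.2⟩
        rcases hnot with h | h
        · exact (Finset.mem_filter.1 h).2 (pinV_of_mem_pinU hagT he (by simp))
        · exact (Finset.mem_filter.1 h).2 (pinV_of_mem_pinU hagT he (by simp))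
    have hUcard : (pinU F Y J T).card + eT F (Y ∪ J) J' ≤ (pinU F Y J (insert φ T)).card := by
      have h1 := Finset.card_le_card hUsub
      rw [Finset.card_union_of_disjoint hUdisj,
        Finset.card_image_of_injective _ (Sym2.map.injective hinjφ)] at h1
      exact h1
    have hstep : (n : ℝ) ^ J'.card * (Real.exp 1 * q) ^ eT F (Y ∪ J) J' ≤ 1 := by
      by_cases hne : J'.Nonempty
      · exact (hlow J' hJ'J hne).le
      · rw [Finset.not_nonempty_iff_eq_empty] at hne
        rw [hne]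
        simp only [Finset.card_empty, pow_zero, one_mul]
        exact pow_le_one₀ heq0.le heq1
    have hpow : (Real.exp 1 * q) ^ (pinU F Y J (insert φ T)).card ≤
        (Real.exp 1 * q) ^ ((pinU F Y J T).card + eT F (Y ∪ J) J') :=
      pow_le_pow_of_le_one heq0.le heq1 hUcard
    calc (n : ℝ) ^ (pinV F Y J φ₀ (insert φ T)).card *
          (Real.exp 1 * q) ^ (pinU F Y J (insert φ T)).card
        ≤ (n : ℝ) ^ ((pinV F Y J φ₀ T).card + J'.card) *
          (Real.exp 1 * q) ^ ((pinU F Y J T).card + eT F (Y ∪ J) J') := by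
          rw [hVcard]
          exact mul_le_mul_of_nonneg_left hpow (by positivity)
      _ = ((n : ℝ) ^ (pinV F Y J φ₀ T).card * (Real.exp 1 * q) ^ (pinU F Y J T).card) *
          ((n : ℝ) ^ J'.card * (Real.exp 1 * q) ^ eT F (Y ∪ J) J') := by
          rw [pow_add, pow_add]
          ring
      _ ≤ ((n : ℝ) ^ (pinV F Y J φ₀ T).card * (Real.exp 1 * q) ^ (pinU F Y J T).card) * 1 :=
          mul_le_mul_of_nonneg_left hstep (by positivity)
      _ ≤ _ := by rw [mul_one]; exact ih'

/-- Key lemma (L1): adding the images one at a time. -/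
theorem pin_union_bound (hn : 1 ≤ n) (hq0 : 0 < q) (hqe : q ≤ Real.exp (-1))
    {Y J : Finset α} (hdisj : Disjoint J Y)
    (hlow : ∀ J' ⊆ J, J'.Nonempty → Low n q F (Y ∪ J) J')
    {S : Finset (α → V)} (hinj : ∀ φ ∈ S, Function.Injective φ)
    {φ₀ : α → V} (hagree : ∀ φ ∈ S, ∀ y ∈ Y, φ y = φ₀ y) (T : Finset (α → V)) (hT : T ⊆ S) :
    (n : ℝ) ^ (pinV F Y J φ₀ T).card * q ^ (pinU F Y J T).card ≤
      (n : ℝ) ^ (pinR F Y J φ₀).card * Real.exp (-((pinU F Y J T).card : ℝ)) := by
  have h := pin_potential hn hq0 hqe hdisj hlow hinj hagree T hT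
  rw [mul_pow] at h
  have he : Real.exp (-((pinU F Y J T).card : ℝ)) = (Real.exp 1 ^ (pinU F Y J T).card)⁻¹ := by
    rw [Real.exp_neg, Real.exp_one_pow]
  rw [he, ← div_eq_mul_inv, le_div_iff₀ (by positivity)]
  calc _ = (n : ℝ) ^ (pinV F Y J φ₀ T).card *
        (Real.exp 1 ^ (pinU F Y J T).card * q ^ (pinU F Y J T).card) := by ring
    _ ≤ _ := h

/-- L2: the density of the union, from `GoodDensity`. -/
theorem pin_density (hG : GoodDensity n q H) (hn : 1 ≤ n) (hq0 : 0 < q) (hq1 : q ≤ 1)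
    {Y J : Finset α}
    {S : Finset (α → V)} (hhom : ∀ φ ∈ S, ∀ u v, F.Adj u v → H.Adj (φ u) (φ v))
    {φ₀ : α → V} (hagree : ∀ φ ∈ S, ∀ y ∈ Y, φ y = φ₀ y) :
    (1 : ℝ) ≤ (n : ℝ) ^ (pinV F Y J φ₀ S).card * q ^ (pinU F Y J S).card := by
  have hn1 : (1 : ℝ) ≤ n := by exact_mod_cast hn
  by_cases hne : (pinU F Y J S).Nonempty
  · have hedges : ∀ e ∈ pinU F Y J S, e ∈ H.edgeSet := by
      intro e he
      obtain ⟨φ, hφ, he'⟩ := Finset.mem_biUnion.1 he
      obtain ⟨e', he'', rfl⟩ := Finset.mem_image.1 he'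
      induction e' using Sym2.ind with
      | _ u v =>
        obtain ⟨h1, _⟩ := newE_spec he''
        rw [Sym2.map_mk]
        exact hhom φ hφ u v h1
    have h1 := density_of_good hG hq0 hq1 (pinU F Y J S) hedges hne
    refine h1.trans ?_
    refine mul_le_mul_of_nonneg_right ?_ (pow_nonneg hq0.le _)
    refine pow_le_pow_right₀ hn1 (Finset.card_le_card ?_)
    intro z hz
    obtain ⟨e, he, hze⟩ := Finset.mem_biUnion.1 hz
    exact pinV_of_mem_pinU hagree he (by simpa using hze)
  · rw [Finset.not_nonempty_iff_eq_empty] at hne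
    rw [hne]
    simp only [Finset.card_empty, pow_zero, mul_one]
    exact one_le_pow₀ hn1

/-- The two consequences in logarithmic form. -/
theorem pin_logs (hG : GoodDensity n q H) (hn : 1 ≤ n) (hq0 : 0 < q) (hqe : q ≤ Real.exp (-1))
    {Y J : Finset α} (hdisj : Disjoint J Y)
    (hlow : ∀ J' ⊆ J, J'.Nonempty → Low n q F (Y ∪ J) J')
    {S : Finset (α → V)} (hinj : ∀ φ ∈ S, Function.Injective φ)
    (hhom : ∀ φ ∈ S, ∀ u v, F.Adj u v → H.Adj (φ u) (φ v))
    {φ₀ : α → V} (hagree : ∀ φ ∈ S, ∀ y ∈ Y, φ y = φ₀ y) :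
    ((pinU F Y J S).card : ℝ) ≤ (pinR F Y J φ₀).card * Real.log n ∧
      ((pinU F Y J S).card : ℝ) * (- Real.log q) ≤ (pinV F Y J φ₀ S).card * Real.log n := by
  have hn1 : (1 : ℝ) ≤ n := by exact_mod_cast hn
  have hn0 : (0 : ℝ) < n := by linarith
  have hq1 : q ≤ 1 := hqe.trans (by
    rw [Real.exp_le_one_iff]; norm_num)
  have h1 := pin_density (J := J) hG hn hq0 hq1 hhom hagree
  have h2 := pin_union_bound hn hq0 hqe hdisj hlow hinj hagree S (Finset.Subset.refl _)
  constructor
  · have h3 := h1.trans h2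
    have h4 := Real.log_le_log (by norm_num) h3
    rw [Real.log_one, Real.log_mul (by positivity) (Real.exp_pos _).ne', Real.log_pow,
      Real.log_exp] at h4
    linarith
  · have h4 := Real.log_le_log (by norm_num) h1
    rw [Real.log_one, Real.log_mul (by positivity) (by positivity), Real.log_pow,
      Real.log_pow] at h4
    nlinarith

end Vale.Agent.Lib.P064
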